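import Vale.Agent.Lib.P328.Fpras.Defs
import Vale.Agent.Lib.P328.Cap.Int
import Vale.Agent.Lib.P328.Sparse.Shift

/-!
# P328, counting algorithm: a measurable minimiser exists

For fixed `r c0 l`: enumerate the positive rational vectors `b k`; `sol t = b (first k with
Phi t (b k) ≤ 2 capa t)` (or all ones if `t` is not positive or the balance fails): measurable by
`measurable_find`, `capa_measurable` and continuity of `Phi` in `t`. For `t > 0` and balance:
`0 < capa` since a table `T` exists (`Sparse.tabs_nonempty`) and `Phi t b ≥ ∏ t j i ^ T j i`: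
`(∑ a_j) ^ r ≥ ∏ a_j ^ T_j` if `∑ T_j = r`, `a_j > 0`. So some real `b > 0` has `Phi < 2 capa`, and by
continuity of `Phi` in `b` a rational one too. (`capa < ⊤` trivially.)
-/

namespace Vale.Agent.Lib.P328.Fpras

open Finset MeasureTheory Vale.Agent.Lib.P328.Cap
open scoped ENNReal Topology

variable {m n : ℕ}

theorem Phi_continuous (r : Fin m → ℕ) (c : Fin n → ℕ) (b : Fin n → ℝ) :
    Continuous fun t : Fin n → Fin m → ℝ => Phi r c t b := by
  unfold Phi
  refine Continuous.div_const ?_ _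
  refine continuous_finsetProd _ fun i _ => ?_
  refine Continuous.pow ?_ _
  refine continuous_finsetSum _ fun j _ => ?_
  exact (continuous_apply_apply j i).mul continuous_const

theorem Phi_continuousAt (r : Fin m → ℕ) (c : Fin n → ℕ) (t : Fin n → Fin m → ℝ) (b : Fin n → ℝ)
    (hb : ∀ j, 0 < b j) : ContinuousAt (fun b' : Fin n → ℝ => Phi r c t b') b := by
  unfold Phi
  refine ContinuousAt.div ?_ ?_ ?_
  · refine Continuous.continuousAt ?_
    refine continuous_finsetProd _ fun i _ => ?_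
    refine Continuous.pow ?_ _
    refine continuous_finsetSum _ fun j _ => ?_
    exact continuous_const.mul (continuous_apply j)
  · refine Continuous.continuousAt ?_
    exact continuous_finsetProd _ fun j _ => (continuous_apply j).pow _
  · exact (Finset.prod_pos fun j _ => pow_pos (hb j) _).ne'

/-- The capacity is positive on positive matrices with balanced margins. -/
theorem capa_pos (r : Fin m → ℕ) (c : Fin n → ℕ) (hsum : ∑ i, r i = ∑ j, c j)
    (t : Fin n → Fin m → ℝ) (ht : ∀ j i, 0 < t j i) : 0 < capa r c t := by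
  obtain ⟨T, hT⟩ := Sparse.tabs_nonempty _ r c hsum rfl
  obtain ⟨hT1, hT2⟩ := mem_tabs.1 hT
  set κ : ℝ := ∏ i, ∏ j, t j i ^ T j i with hκ
  have hκ0 : 0 < κ := Finset.prod_pos fun i _ => Finset.prod_pos fun j _ => pow_pos (ht j i) _
  have hlow : ENNReal.ofReal κ ≤ capa r c t := by
    unfold capa
    refine le_iInf fun b => ?_
    refine ENNReal.ofReal_le_ofReal ?_
    have hb := b.2
    have hden : 0 < ∏ j, b.1 j ^ c j := Finset.prod_pos fun j _ => pow_pos (hb j) _
    rw [le_div_iff₀ hden]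
    have h1 : κ * ∏ j, b.1 j ^ c j = ∏ i, ∏ j, (t j i * b.1 j) ^ T j i := by
      have h2 : ∏ j, b.1 j ^ c j = ∏ i, ∏ j, b.1 j ^ T j i := by
        rw [Finset.prod_comm]
        refine Finset.prod_congr rfl fun j _ => ?_
        rw [Finset.prod_pow_eq_pow_sum, hT1 j]
      rw [h2, hκ, ← Finset.prod_mul_distrib]
      refine Finset.prod_congr rfl fun i _ => ?_
      rw [← Finset.prod_mul_distrib]
      refine Finset.prod_congr rfl fun j _ => ?_
      rw [mul_pow]
    rw [h1]
    refine Finset.prod_le_prod (fun i _ => Finset.prod_nonneg fun j _ =>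
      pow_nonneg (mul_pos (ht j i) (hb j)).le _) fun i _ => ?_
    have h3 : (∑ j, t j i * b.1 j) ^ r i = ∏ j, (∑ j', t j' i * b.1 j') ^ T j i := by
      rw [Finset.prod_pow_eq_pow_sum, hT2 i]
    rw [h3]
    refine Finset.prod_le_prod (fun j _ => pow_nonneg (mul_pos (ht j i) (hb j)).le _) fun j _ => ?_
    refine pow_le_pow_left₀ (mul_pos (ht j i) (hb j)).le ?_ _
    exact Finset.single_le_sum (f := fun j' => t j' i * b.1 j')
      (fun j' _ => (mul_pos (ht j' i) (hb j')).le) (mem_univ j)
  exact lt_of_lt_of_le (ENNReal.ofReal_pos.2 hκ0) hlow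

theorem capa_lt_top (r : Fin m → ℕ) (c : Fin n → ℕ) (t : Fin n → Fin m → ℝ) :
    capa r c t < ⊤ := by
  unfold capa
  refine lt_of_le_of_lt (iInf_le _ ⟨fun _ => 1, fun _ => one_pos⟩) ENNReal.ofReal_lt_top

/-- A family of positive vectors containing all the positive rational vectors. -/
noncomputable def ratVec (n : ℕ) (k : ℕ) : Fin n → ℝ :=
  fun j => if 0 < (Classical.choose (exists_surjective_nat (Fin n → ℚ))) k j
    then (((Classical.choose (exists_surjective_nat (Fin n → ℚ))) k j : ℚ) : ℝ) else 1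

theorem ratVec_pos (n k : ℕ) (j : Fin n) : 0 < ratVec n k j := by
  unfold ratVec
  split_ifs with h
  · exact_mod_cast h
  · exact one_pos

theorem exists_ratVec (q : Fin n → ℚ) (hq : ∀ j, 0 < q j) :
    ∃ k, ratVec n k = fun j => (q j : ℝ) := by
  obtain ⟨k, hk⟩ := Classical.choose_spec (exists_surjective_nat (Fin n → ℚ)) q
  refine ⟨k, ?_⟩
  funext j
  unfold ratVec
  rw [hk, if_pos (hq j)]

/-- A rational vector which is as good. -/
theorem exists_good (r : Fin m → ℕ) (c : Fin n → ℕ) (hsum : ∑ i, r i = ∑ j, c j)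
    (t : Fin n → Fin m → ℝ) (ht : ∀ j i, 0 < t j i) :
    ∃ k, ENNReal.ofReal (Phi r c t (ratVec n k)) ≤ 2 * capa r c t := by
  have h0 := capa_pos r c hsum t ht
  have h1 := capa_lt_top r c t
  have h2 : capa r c t < 2 * capa r c t := by
    have h3 : capa r c t * 1 < capa r c t * 2 :=
      (ENNReal.mul_lt_mul_iff_right h0.ne' h1.ne).2 (by norm_num)
    rwa [mul_one, mul_comm] at h3
  have h4 : ∃ b : {b : Fin n → ℝ // ∀ j, 0 < b j},
      ENNReal.ofReal (Phi r c t b.1) < 2 * capa r c t := by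
    have h5 : capa r c t = ⨅ b : {b : Fin n → ℝ // ∀ j, 0 < b j},
      ENNReal.ofReal (Phi r c t b.1) := rfl
    rw [h5] at h2
    obtain ⟨b, hb⟩ := iInf_lt_iff.1 h2
    refine ⟨b, ?_⟩
    rw [← h5] at hb
    exact hb
  obtain ⟨⟨b, hb⟩, hbl⟩ := h4
  have h6 : ContinuousAt (fun b' : Fin n → ℝ => ENNReal.ofReal (Phi r c t b')) b :=
    ENNReal.continuous_ofReal.continuousAt.comp (Phi_continuousAt r c t b hb)
  have h7 : ∀ᶠ b' in 𝓝 b, ENNReal.ofReal (Phi r c t b') < 2 * capa r c t :=
    h6.eventually (eventually_lt_nhds hbl)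
  obtain ⟨ε, hε, hball⟩ := Metric.eventually_nhds_iff.1 h7
  have h8 : ∀ j, ∃ q : ℚ, b j < q ∧ (q : ℝ) < b j + ε := fun j =>
    exists_rat_btwn (by linarith)
  choose q hq1 hq2 using h8
  have hqpos : ∀ j, 0 < q j := fun j => by
    have : (0 : ℝ) < q j := (hb j).trans (hq1 j)
    exact_mod_cast this
  obtain ⟨k, hk⟩ := exists_ratVec q hqpos
  refine ⟨k, ?_⟩
  rw [hk]
  refine (hball ?_).le
  rw [dist_pi_lt_iff hε]
  intro j
  rw [Real.dist_eq, abs_lt]
  constructor <;> linarith [hq1 j, hq2 j]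

/-- One node. -/
theorem exists_solver_one (r : Fin m → ℕ) (c : Fin n → ℕ) :
    ∃ sol : (Fin n → Fin m → ℝ) → Fin n → ℝ, Measurable sol ∧ (∀ t j, 0 < sol t j) ∧
      ∀ t, ∑ i, r i = ∑ j, c j → (∀ j i, 0 < t j i) →
        ENNReal.ofReal (Phi r c t (sol t)) ≤ 2 * capa r c t := by
  classical
  set Good : (Fin n → Fin m → ℝ) → ℕ → Prop :=
    fun t k => ENNReal.ofReal (Phi r c t (ratVec n k)) ≤ 2 * capa r c t with hGood
  have hGm : ∀ k, MeasurableSet {t | Good t k} := by
    intro k
    refine measurableSet_le ?_ ((capa_measurable r c).const_mul 2)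
    exact ENNReal.continuous_ofReal.measurable.comp (Phi_continuous r c _).measurable
  set p : (Fin n → Fin m → ℝ) → ℕ → Prop := fun t k => Good t k ∨ ¬ ∃ k', Good t k' with hp
  have hex : ∀ t, ∃ k, p t k := by
    intro t
    by_cases h : ∃ k', Good t k'
    · obtain ⟨k, hk⟩ := h
      exact ⟨k, Or.inl hk⟩
    · exact ⟨0, Or.inr h⟩
  have hpm : ∀ k, MeasurableSet {t | p t k} := by
    intro k
    have h1 : {t | p t k} = {t | Good t k} ∪ (⋃ k', {t | Good t k'})ᶜ := by
      ext t
      simp [hp]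
    rw [h1]
    exact (hGm k).union (MeasurableSet.iUnion hGm).compl
  have hfind : Measurable fun t => Nat.find (hex t) := measurable_find hex hpm
  refine ⟨fun t => ratVec n (Nat.find (hex t)), ?_, fun t j => ratVec_pos n _ j, ?_⟩
  · exact (measurable_from_top (f := ratVec n)).comp hfind
  · intro t hsum ht
    have h1 := Nat.find_spec (hex t)
    rcases h1 with h1 | h1
    · exact h1
    · exact absurd (exists_good r c hsum t ht) h1

theorem exists_solver : ∃ sol : Sol m, IsSolver sol := by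
  have h := fun (r : Fin m → ℕ) (c0 : ℕ) (l : List ℕ) =>
    exists_solver_one r (Fin.cons c0 l.get : Fin (l.length + 1) → ℕ)
  choose sol h1 h2 h3 using h
  refine ⟨sol, h1, h2, ?_⟩
  intro r c0 l t hsum ht
  refine h3 r c0 l t ?_ ht
  rw [hsum, Fin.sum_univ_succ]
  simp only [Fin.cons_zero, Fin.cons_succ]
  congr 1
  have : ∑ i : Fin l.length, l.get i = (List.ofFn l.get).sum := by
    rw [List.sum_ofFn]
  rw [this, List.ofFn_get]

end Vale.Agent.Lib.P328.Fpras
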