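import Vale.Agent.Lib.P328.Fpras.Defs

/-!
# P328, counting algorithm: binomial facts

`bw_sqrt_le`: `bw R p v * sqrt (R p (1 - p)) ≤ 1` for all `v`. Proof: `g v = v (1 - p) bw R p v`
satisfies `g v - g (v + 1) = (v - R p) bw R p v` (`bw_succ`), so
`v (1 - p) bw R p v = ∑_{w ≥ v} (w - R p) bw R p w ≤ sqrt V` (by `x s ≤ x² / 2 + s² / 2`); for
`v ≥ R p` this gives the bound, for `v < R p` use `g (v + 1) = (R - v) p bw R p v`.
-/

namespace Vale.Agent.Lib.P328.Fpras

open Finset Vale.Agent.Lib.P328.Cap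

variable {m : ℕ}

/-- Total mass of the binomial weights. -/
theorem sum_bw_eq_one (R : ℕ) (p : ℝ) : ∑ v ∈ range (R + 1), bw R p v = 1 := by
  have := add_pow p (1 - p) R
  simp only [add_sub_cancel, one_pow] at this
  rw [this]
  refine Finset.sum_congr rfl fun v _ => ?_
  unfold bw
  ring

/-- The binomial generating function. -/
theorem sum_bw_mul_pow (R : ℕ) (p t : ℝ) :
    ∑ v ∈ range (R + 1), bw R p v * t ^ v = (1 + (t - 1) * p) ^ R := by
  have := add_pow (p * t) (1 - p) R
  have h1 : p * t + (1 - p) = 1 + (t - 1) * p := by ring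
  rw [h1] at this
  rw [this]
  refine Finset.sum_congr rfl fun v _ => ?_
  unfold bw
  rw [mul_pow]
  ring

/-- The reversed binomial generating function. -/
theorem sum_bw_mul_pow_rev (R : ℕ) (p t : ℝ) :
    ∑ v ∈ range (R + 1), bw R p v * t ^ (R - v) = (1 + (t - 1) * (1 - p)) ^ R := by
  have := add_pow p ((1 - p) * t) R
  have h1 : p + (1 - p) * t = 1 + (t - 1) * (1 - p) := by ring
  rw [h1] at this
  rw [this]
  refine Finset.sum_congr rfl fun v _ => ?_
  unfold bw
  rw [mul_pow]
  ring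

/-- The variance of the binomial law. -/
theorem sum_sq_bw (R : ℕ) (p : ℝ) :
    ∑ v ∈ range (R + 1), ((v : ℝ) - R * p) ^ 2 * bw R p v = R * p * (1 - p) := by
  have h := congrArg (Polynomial.eval p) (bernsteinPolynomial.variance ℝ R)
  simp only [Polynomial.eval_finsetSum, Polynomial.eval_mul, Polynomial.eval_pow,
    Polynomial.eval_sub, Polynomial.eval_X, Polynomial.eval_natCast,
    Polynomial.eval_one, nsmul_eq_mul] at h
  rw [← h]
  refine Finset.sum_congr rfl fun v _ => ?_
  have h2 : Polynomial.eval p (bernsteinPolynomial ℝ R v) = bw R p v := by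
    unfold bernsteinPolynomial bw
    simp [Polynomial.eval_mul, Polynomial.eval_pow, Polynomial.eval_sub]
  rw [h2]
  ring

theorem bw_eq_zero_of_gt {R v : ℕ} (h : R < v) (p : ℝ) : bw R p v = 0 := by
  unfold bw
  simp [Nat.choose_eq_zero_of_lt h]

/-- The telescoping identity for `g v = v (1 - p) bw R p v`. -/
theorem g_eq_tail (R : ℕ) (p : ℝ) (d k : ℕ) (hk : k + d = R + 1) :
    (k : ℝ) * (1 - p) * bw R p k = ∑ w ∈ Ico k (R + 1), ((w : ℝ) - R * p) * bw R p w := by
  induction d generalizing k with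
  | zero =>
    have : k = R + 1 := by omega
    subst this
    simp [bw_eq_zero_of_gt (Nat.lt_succ_self R)]
  | succ d ih =>
    have hkR : k ≤ R := by omega
    rw [Finset.sum_eq_sum_Ico_succ_bot (by omega : k < R + 1), ← ih (k + 1) (by omega)]
    by_cases hlt : k < R
    · have := bw_succ (R := R) (p := p) hlt
      push_cast
      have h3 : ((k : ℝ) + 1) * (1 - p) * bw R p (k + 1) = p * ((R : ℝ) - k) * bw R p k := by
        rw [← this]; ring
      rw [h3]
      ring
    · have : k = R := by omega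
      subst this
      rw [bw_eq_zero_of_gt (Nat.lt_succ_self k) p]
      ring

/-- The tail of the identity is at most the standard deviation. -/
theorem g_le_sqrt (R k : ℕ) {p : ℝ} (h0 : 0 ≤ p) (h1 : p ≤ 1) (hk : k ≤ R + 1)
    (hV : 0 < (R : ℝ) * p * (1 - p)) :
    (k : ℝ) * (1 - p) * bw R p k ≤ Real.sqrt ((R : ℝ) * p * (1 - p)) := by
  obtain ⟨d, hd⟩ : ∃ d, k + d = R + 1 := ⟨R + 1 - k, by omega⟩
  rw [g_eq_tail R p d k hd]
  set V := (R : ℝ) * p * (1 - p) with hVdef
  set s := Real.sqrt V with hs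
  have hs0 : 0 < s := Real.sqrt_pos.mpr hV
  have hss : s * s = V := Real.mul_self_sqrt hV.le
  have hsub : Ico k (R + 1) ⊆ range (R + 1) := by
    intro w hw
    exact mem_range.mpr (mem_Ico.mp hw).2
  have hbw := bw_nonneg (R := R) h0 h1
  calc ∑ w ∈ Ico k (R + 1), ((w : ℝ) - R * p) * bw R p w
      ≤ ∑ w ∈ Ico k (R + 1), (((w : ℝ) - R * p) ^ 2 / (2 * s) + s / 2) * bw R p w := by
        refine sum_le_sum fun w _ => mul_le_mul_of_nonneg_right ?_ (hbw w)
        have : (((w : ℝ) - R * p) ^ 2 / (2 * s) + s / 2) - ((w : ℝ) - R * p)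
            = ((w : ℝ) - R * p - s) ^ 2 / (2 * s) := by
          field_simp
          ring
        have h2 : 0 ≤ ((w : ℝ) - R * p - s) ^ 2 / (2 * s) := by positivity
        linarith
    _ ≤ ∑ w ∈ range (R + 1), (((w : ℝ) - R * p) ^ 2 / (2 * s) + s / 2) * bw R p w :=
        sum_le_sum_of_subset_of_nonneg hsub fun w _ _ => mul_nonneg (by positivity) (hbw w)
    _ = (∑ w ∈ range (R + 1), ((w : ℝ) - R * p) ^ 2 * bw R p w) / (2 * s)
          + (s / 2) * ∑ w ∈ range (R + 1), bw R p w := by
        rw [sum_div, mul_sum, ← sum_add_distrib]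
        refine sum_congr rfl fun w _ => ?_
        ring
    _ = s := by
        rw [sum_sq_bw, sum_bw_eq_one, ← hVdef, ← hss]
        field_simp
        ring

/-- The maximal point mass of a binomial law is at most one over the standard deviation. -/
theorem bw_sqrt_le (R v : ℕ) {p : ℝ} (h0 : 0 ≤ p) (h1 : p ≤ 1) :
    bw R p v * Real.sqrt (R * p * (1 - p)) ≤ 1 := by
  set V := (R : ℝ) * p * (1 - p) with hVdef
  have hV0 : 0 ≤ V := by
    have : 0 ≤ 1 - p := by linarith
    positivity
  rcases hV0.eq_or_lt with hV | hV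
  · rw [← hV]
    simp
  by_cases hvR : R < v
  · rw [bw_eq_zero_of_gt hvR]
    simp
  have hvR' : v ≤ R := by omega
  have hs0 : 0 < Real.sqrt V := Real.sqrt_pos.mpr hV
  have hss : Real.sqrt V * Real.sqrt V = V := Real.mul_self_sqrt hV.le
  have hbw := bw_nonneg (R := R) h0 h1 v
  have hq : 0 ≤ 1 - p := by linarith
  have key : V * bw R p v ≤ Real.sqrt V := by
    by_cases hcase : (R : ℝ) * p ≤ v
    · have h2 := g_le_sqrt R v h0 h1 (by omega) hV
      refine le_trans ?_ h2
      rw [hVdef]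
      have : (R : ℝ) * p * (1 - p) ≤ v * (1 - p) := mul_le_mul_of_nonneg_right hcase hq
      exact mul_le_mul_of_nonneg_right this hbw
    · have hlt : (v : ℝ) < R * p := not_le.mp hcase
      have hp0 : 0 ≤ p := h0
      have hvltR : v < R := by
        have hR : (R : ℝ) * p ≤ R := by
          have : (0 : ℝ) ≤ R := Nat.cast_nonneg R
          nlinarith
        have : (v : ℝ) < R := lt_of_lt_of_le hlt hR
        exact_mod_cast this
      have h2 := g_le_sqrt R (v + 1) h0 h1 (by omega) hV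
      have h3 := bw_succ (R := R) (p := p) hvltR
      push_cast at h2
      have h4 : ((v : ℝ) + 1) * (1 - p) * bw R p (v + 1) = p * ((R : ℝ) - v) * bw R p v := by
        rw [← h3]; ring
      rw [h4] at h2
      refine le_trans ?_ h2
      rw [hVdef]
      have h5 : (R : ℝ) * (1 - p) ≤ (R : ℝ) - v := by linarith
      have h6 : (R : ℝ) * p * (1 - p) = p * ((R : ℝ) * (1 - p)) := by ring
      rw [h6]
      exact mul_le_mul_of_nonneg_right (mul_le_mul_of_nonneg_left h5 hp0) hbw
  have h7 : (bw R p v * Real.sqrt V) * Real.sqrt V ≤ 1 * Real.sqrt V := by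
    calc (bw R p v * Real.sqrt V) * Real.sqrt V = V * bw R p v := by
          rw [mul_assoc, hss]; ring
      _ ≤ Real.sqrt V := key
      _ = 1 * Real.sqrt V := by ring
  exact le_of_mul_le_mul_right h7 hs0

/-- A level of a product of binomials has mass at most the maximal point mass of one coordinate
(map `x ↦ Function.update x i 0` is injective on the level; `sum_box_wt` for the other rows). -/
theorem lev_wt_le (r : Fin m → ℕ) (p : Fin m → ℝ) (h0 : ∀ i, 0 ≤ p i) (h1 : ∀ i, p i ≤ 1) (k : ℕ)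
    (i : Fin m) (M : ℝ) (hM : ∀ v, bw (r i) (p i) v ≤ M) :
    ∑ x ∈ lev r k, wt r p x ≤ M := by
  classical
  have hM0 : 0 ≤ M := le_trans (bw_nonneg (h0 i) (h1 i) 0) (hM 0)
  set R' : Fin m → ℕ := Function.update r i 0 with hR'
  have hwt : ∀ x, wt r p x ≤ M * wt R' p (Function.update x i 0) := by
    intro x
    rw [wt_factor r p x i, wt_update R' p x i 0]
    have h2 : bw (R' i) (p i) 0 = 1 := by
      simp [hR', bw]
    have h3 : ∏ j ∈ univ.erase i, bw (R' j) (p j) (x j)
        = ∏ j ∈ univ.erase i, bw (r j) (p j) (x j) := by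
      refine prod_congr rfl fun j hj => ?_
      rw [hR', Function.update_of_ne (ne_of_mem_erase hj)]
    rw [h2, h3, mul_one, mul_comm M]
    refine mul_le_mul_of_nonneg_left (hM _) ?_
    exact prod_nonneg fun j _ => bw_nonneg (h0 j) (h1 j) _
  have hinj : Set.InjOn (fun x : Fin m → ℕ => Function.update x i 0) (lev r k : Set (Fin m → ℕ)) := by
    intro x hx y hy hxy
    have hx' := (mem_lev.mp (mem_coe.mp hx)).2
    have hy' := (mem_lev.mp (mem_coe.mp hy)).2
    have hoff : ∀ j, j ≠ i → x j = y j := by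
      intro j hj
      have := congrFun hxy j
      simpa [Function.update_of_ne hj] using this
    have hi : x i = y i := by
      have h4 : ∑ j ∈ univ.erase i, x j + x i = ∑ j ∈ univ.erase i, y j + y i := by
        rw [sum_erase_add _ _ (mem_univ i), sum_erase_add _ _ (mem_univ i), hx', hy']
      have h5 : ∑ j ∈ univ.erase i, x j = ∑ j ∈ univ.erase i, y j :=
        sum_congr rfl fun j hj => hoff j (ne_of_mem_erase hj)
      omega
    funext j
    by_cases hj : j = i
    · rw [hj, hi]
    · exact hoff j hj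
  have himg : (lev r k).image (fun x : Fin m → ℕ => Function.update x i 0) ⊆ box R' := by
    intro y hy
    obtain ⟨x, hx, rfl⟩ := mem_image.mp hy
    refine mem_box.mpr fun j => ?_
    by_cases hj : j = i
    · subst hj; simp
    · rw [Function.update_of_ne hj, hR', Function.update_of_ne hj]
      exact (mem_lev.mp hx).1 j
  calc ∑ x ∈ lev r k, wt r p x
      ≤ ∑ x ∈ lev r k, M * wt R' p (Function.update x i 0) := sum_le_sum fun x _ => hwt x
    _ = M * ∑ y ∈ (lev r k).image (fun x : Fin m → ℕ => Function.update x i 0), wt R' p y := by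
        rw [sum_image hinj, mul_sum]
    _ ≤ M * ∑ y ∈ box R', wt R' p y := by
        refine mul_le_mul_of_nonneg_left ?_ hM0
        exact sum_le_sum_of_subset_of_nonneg himg fun y _ _ => wt_nonneg h0 h1 y
    _ = M := by rw [sum_box_wt, mul_one]

/-- One row of the Chernoff bound. -/
theorem chernoff_row (r : ℕ) {p : ℝ} (h0 : 0 ≤ p) (h1 : p ≤ 1) :
    ∑ v ∈ range (r + 1), bw r p v * Real.exp (2 * (min v (r - v) : ℕ))
      ≤ Real.exp (14 * ((r : ℝ) * p * (1 - p))) := by
  set t := Real.exp 2 with ht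
  have hbw := bw_nonneg (R := r) h0 h1
  have ht1 : 1 ≤ t := Real.one_le_exp (by norm_num)
  have ht7 : t - 1 ≤ 7 := by
    have he : Real.exp 1 < 2.7182818286 := Real.exp_one_lt_d9
    have he0 : 0 < Real.exp 1 := Real.exp_pos 1
    have : t = Real.exp 1 * Real.exp 1 := by
      rw [ht, ← Real.exp_add]; norm_num
    rw [this]
    nlinarith
  have hpow : ∀ v : ℕ, Real.exp (2 * (v : ℝ)) = t ^ v := by
    intro v
    rw [ht, ← Real.exp_nat_mul]
    congr 1
    ring
  have hr0 : (0 : ℝ) ≤ r := Nat.cast_nonneg r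
  have hq : 0 ≤ 1 - p := by linarith
  have hexp : ∀ x : ℝ, 0 ≤ 1 + x → (1 + x) ^ r ≤ Real.exp (r * x) := by
    intro x hx
    rw [Real.exp_nat_mul]
    refine pow_le_pow_left₀ hx ?_ r
    linarith [Real.add_one_le_exp x]
  by_cases hp : p ≤ 1 / 2
  · calc ∑ v ∈ range (r + 1), bw r p v * Real.exp (2 * (min v (r - v) : ℕ))
        ≤ ∑ v ∈ range (r + 1), bw r p v * t ^ v := by
          refine sum_le_sum fun v _ => mul_le_mul_of_nonneg_left ?_ (hbw v)
          rw [hpow]
          exact pow_le_pow_right₀ ht1 (min_le_left _ _)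
      _ = (1 + (t - 1) * p) ^ r := sum_bw_mul_pow r p t
      _ ≤ Real.exp (r * ((t - 1) * p)) := hexp _ (by nlinarith)
      _ ≤ Real.exp (14 * ((r : ℝ) * p * (1 - p))) := by
          apply Real.exp_le_exp.mpr
          have h2 : (t - 1) * p ≤ 14 * (p * (1 - p)) := by nlinarith
          have := mul_le_mul_of_nonneg_left h2 hr0
          calc (r : ℝ) * ((t - 1) * p) ≤ r * (14 * (p * (1 - p))) := this
            _ = 14 * ((r : ℝ) * p * (1 - p)) := by ring
  · have hp' : 1 / 2 < p := not_le.mp hp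
    calc ∑ v ∈ range (r + 1), bw r p v * Real.exp (2 * (min v (r - v) : ℕ))
        ≤ ∑ v ∈ range (r + 1), bw r p v * t ^ (r - v) := by
          refine sum_le_sum fun v _ => mul_le_mul_of_nonneg_left ?_ (hbw v)
          rw [hpow]
          exact pow_le_pow_right₀ ht1 (min_le_right _ _)
      _ = (1 + (t - 1) * (1 - p)) ^ r := sum_bw_mul_pow_rev r p t
      _ ≤ Real.exp (r * ((t - 1) * (1 - p))) := hexp _ (by nlinarith)
      _ ≤ Real.exp (14 * ((r : ℝ) * p * (1 - p))) := by
          apply Real.exp_le_exp.mpr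
          have h2 : (t - 1) * (1 - p) ≤ 14 * (p * (1 - p)) := by nlinarith
          have := mul_le_mul_of_nonneg_left h2 hr0
          calc (r : ℝ) * ((t - 1) * (1 - p)) ≤ r * (14 * (p * (1 - p))) := this
            _ = 14 * ((r : ℝ) * p * (1 - p)) := by ring

/-- Chernoff: with `θ = 2` and `min (x, r - x) ≤ x`, `≤ r - x`, one row gives the factor
`min ((1 - p + p e²) ^ r, (p + (1 - p) e²) ^ r) ≤ exp ((e² - 1) r min (p, 1 - p)) ≤ exp (14 r p (1 - p))`
(`e² - 1 < 7`, `min (p, 1 - p) ≤ 2 p (1 - p)`). -/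
theorem chernoff_zeta (r : Fin m → ℕ) (p : Fin m → ℝ) (h0 : ∀ i, 0 ≤ p i) (h1 : ∀ i, p i ≤ 1)
    (a : ℕ) :
    ∑ x ∈ (box r).filter (fun x => a ≤ zeta r x), wt r p x
      ≤ Real.exp (-(2 * (a : ℝ)) + 14 * ∑ i, (r i : ℝ) * p i * (1 - p i)) := by
  have hpt : ∀ x ∈ box r, (if a ≤ zeta r x then wt r p x else 0)
      ≤ Real.exp (-(2 * (a : ℝ))) * ∏ i, (bw (r i) (p i) (x i)
          * Real.exp (2 * (min (x i) (r i - x i) : ℕ))) := by
    intro x _
    have hw := wt_nonneg (R := r) h0 h1 x
    rw [prod_mul_distrib, ← Real.exp_sum]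
    have hz : (zeta r x : ℝ) = ∑ i, ((min (x i) (r i - x i) : ℕ) : ℝ) := by
      unfold zeta
      push_cast
      rfl
    have h3 : ∑ i, 2 * ((min (x i) (r i - x i) : ℕ) : ℝ) = 2 * (zeta r x : ℝ) := by
      rw [hz, mul_sum]
    rw [h3]
    change _ ≤ Real.exp (-(2 * (a : ℝ))) * (wt r p x * Real.exp (2 * (zeta r x : ℝ)))
    split_ifs with hle
    · have h4 : (a : ℝ) ≤ zeta r x := by exact_mod_cast hle
      have h5 : 1 ≤ Real.exp (-(2 * (a : ℝ))) * Real.exp (2 * (zeta r x : ℝ)) := by
        rw [← Real.exp_add]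
        exact Real.one_le_exp (by linarith)
      calc wt r p x = wt r p x * 1 := by ring
        _ ≤ wt r p x * (Real.exp (-(2 * (a : ℝ))) * Real.exp (2 * (zeta r x : ℝ))) :=
            mul_le_mul_of_nonneg_left h5 hw
        _ = _ := by ring
    · positivity
  calc ∑ x ∈ (box r).filter (fun x => a ≤ zeta r x), wt r p x
      = ∑ x ∈ box r, if a ≤ zeta r x then wt r p x else 0 := by
        rw [sum_filter]
    _ ≤ ∑ x ∈ box r, Real.exp (-(2 * (a : ℝ))) * ∏ i, (bw (r i) (p i) (x i)
          * Real.exp (2 * (min (x i) (r i - x i) : ℕ))) := sum_le_sum hpt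
    _ = Real.exp (-(2 * (a : ℝ))) * ∏ i, ∑ v ∈ range (r i + 1), (bw (r i) (p i) v
          * Real.exp (2 * (min v (r i - v) : ℕ))) := by
        rw [← mul_sum, Finset.prod_univ_sum]
        rfl
    _ ≤ Real.exp (-(2 * (a : ℝ))) * ∏ i, Real.exp (14 * ((r i : ℝ) * p i * (1 - p i))) := by
        refine mul_le_mul_of_nonneg_left ?_ (Real.exp_pos _).le
        refine prod_le_prod (fun i _ => ?_) fun i _ => chernoff_row (r i) (h0 i) (h1 i)
        exact sum_nonneg fun v _ =>
          mul_nonneg (bw_nonneg (h0 i) (h1 i) v) (Real.exp_pos _).le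
    _ = Real.exp (-(2 * (a : ℝ)) + 14 * ∑ i, (r i : ℝ) * p i * (1 - p i)) := by
        rw [← Real.exp_sum, ← Real.exp_add, mul_sum]

/-- The binomial law with integer mean `c` has point mass at least `1 / (7 sqrt c)` at the mean:
`bw_mode` (the mode) and Chebyshev on the window of half width `2 sqrt c`. -/
theorem bw_mode_sqrt {C c : ℕ} (hc : 0 < c) (hcC : c < C) :
    1 ≤ 7 * Real.sqrt c * bw C ((c : ℝ) / C) c := by
  set p : ℝ := (c : ℝ) / C with hp
  set b := bw C p c with hb
  have hCpos : (0 : ℝ) < C := by exact_mod_cast (by omega : 0 < C)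
  have hc0 : (0 : ℝ) < c := by exact_mod_cast hc
  have hc1 : (1 : ℝ) ≤ c := by exact_mod_cast hc
  have hcC' : (c : ℝ) < C := by exact_mod_cast hcC
  have hp0 : 0 ≤ p := by positivity
  have hp1 : p ≤ 1 := by
    rw [hp, div_le_one hCpos]
    exact hcC'.le
  have hpC : (C : ℝ) * p = c := by
    rw [hp]; field_simp
  have hbw := bw_nonneg (R := C) hp0 hp1
  have hb0 : 0 ≤ b := hbw c
  set s := Real.sqrt c with hs
  have hs1 : 1 ≤ s := by
    rw [hs]
    exact Real.one_le_sqrt.mpr hc1
  have hss : s * s = c := Real.mul_self_sqrt hc0.le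
  set k := ⌊2 * s⌋₊ with hk
  have hk1 : (k : ℝ) ≤ 2 * s := Nat.floor_le (by positivity)
  have hk2 : 2 * s < (k : ℝ) + 1 := Nat.lt_floor_add_one _
  -- split the total mass
  have hsplit : ∀ v ∈ range (C + 1),
      bw C p v ≤ (if v ∈ Icc (c - k) (c + k) then b else 0)
        + ((v : ℝ) - C * p) ^ 2 * bw C p v / (4 * c) := by
    intro v hv
    have hv' : v ≤ C := by
      have := mem_range.mp hv
      omega
    rw [hpC]
    by_cases hin : v ∈ Icc (c - k) (c + k)
    · rw [if_pos hin]
      have h2 := bw_mode hc hcC v hv'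
      have h3 : 0 ≤ ((v : ℝ) - c) ^ 2 * bw C p v / (4 * c) := by
        have := hbw v
        positivity
      linarith
    · rw [if_neg hin, zero_add]
      have hfar : (k : ℝ) + 1 ≤ |(v : ℝ) - c| := by
        rw [mem_Icc, not_and_or] at hin
        rcases hin with h | h
        · have h4 : v + k + 1 ≤ c := by omega
          have h5 : (v : ℝ) + k + 1 ≤ c := by exact_mod_cast h4
          rw [abs_of_nonpos (by linarith)]
          linarith
        · have h4 : c + k + 1 ≤ v := by omega
          have h5 : (c : ℝ) + k + 1 ≤ v := by exact_mod_cast h4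
          rw [abs_of_nonneg (by linarith)]
          linarith
      have hsq : 4 * (c : ℝ) ≤ ((v : ℝ) - c) ^ 2 := by
        rw [← sq_abs ((v : ℝ) - c)]
        have h5 : 2 * s ≤ |(v : ℝ) - c| := by linarith
        have h6 : (2 * s) ^ 2 ≤ |(v : ℝ) - c| ^ 2 :=
          pow_le_pow_left₀ (by positivity) h5 2
        nlinarith
      rw [le_div_iff₀ (by positivity)]
      have := hbw v
      nlinarith
  have hvar : ∑ v ∈ range (C + 1), ((v : ℝ) - C * p) ^ 2 * bw C p v / (4 * c) ≤ 1 / 4 := by
    rw [← sum_div, sum_sq_bw, hpC, div_le_iff₀ (by positivity)]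
    have : (c : ℝ) * (1 - p) ≤ c := by nlinarith
    linarith
  have hnear : ∑ v ∈ range (C + 1), (if v ∈ Icc (c - k) (c + k) then b else 0)
      ≤ (2 * (k : ℝ) + 1) * b := by
    have h1 : ∑ v ∈ range (C + 1), (if v ∈ Icc (c - k) (c + k) then b else 0)
        ≤ ∑ v ∈ Icc (c - k) (c + k), b := by
      rw [← sum_filter]
      refine sum_le_sum_of_subset_of_nonneg ?_ fun _ _ _ => hb0
      intro v hv
      exact (mem_filter.mp hv).2
    refine le_trans h1 ?_
    rw [sum_const, nsmul_eq_mul, Nat.card_Icc]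
    refine mul_le_mul_of_nonneg_right ?_ hb0
    have : c + k + 1 - (c - k) ≤ 2 * k + 1 := by omega
    exact_mod_cast this
  have htotal := sum_bw_eq_one C p
  have h1 : (1 : ℝ) ≤ (2 * (k : ℝ) + 1) * b + 1 / 4 := by
    calc (1 : ℝ) = ∑ v ∈ range (C + 1), bw C p v := htotal.symm
      _ ≤ ∑ v ∈ range (C + 1), ((if v ∈ Icc (c - k) (c + k) then b else 0)
            + ((v : ℝ) - C * p) ^ 2 * bw C p v / (4 * c)) := sum_le_sum hsplit
      _ ≤ (2 * (k : ℝ) + 1) * b + 1 / 4 := by
          rw [sum_add_distrib]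
          exact add_le_add hnear hvar
  have h2 : (2 * (k : ℝ) + 1) * b ≤ 5 * s * b := by
    refine mul_le_mul_of_nonneg_right ?_ hb0
    linarith
  have h3 : 5 * s * b ≤ 7 * s * b * (3 / 4) + 0 := by
    have : 0 ≤ s * b := by positivity
    nlinarith
  nlinarith [mul_nonneg (by linarith : (0 : ℝ) ≤ s) hb0]

end Vale.Agent.Lib.P328.Fpras
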