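import Vale.Agent.Lib.P328.Fpras.Local
import Vale.Agent.Lib.P328.Fpras.Binom
import Vale.Agent.Lib.P328.Fpras.Solver
import Vale.Agent.Lib.P328.Cap.Final

/-!
# P328, counting algorithm: the law of a trial

Node `(r; c0, c')`, minimiser `sol`. On `Good = {t : ∃ i, V0 ≤ rowV r t (sol t) i}`, for `t > 0`,
`x ∈ lev r c0`, the product in `trialP` is `K * uval / (2 * capa)`:
the first two factors give `K * wt`, and `wt ≠ 0` cancels (`wt_pos`). With `lintegral_wLaw`:
`trialM x = ofReal (K / 2) * Z⁻¹ * ∫⁻ t in Good, wmat t * ofReal (uval t x)`, `Z = ∫⁻ wmat * capa`.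
`lintegral_uval`: if `Good` were everything, this is `ofReal (K / 2) * Ihat (r - x) c' / Ihat r (cons c0 c')`.
Total mass: on `Good`, `∑ x, K * uval / (2 capa) ≤ K * ∑ x, wt` by `uval_le` and `near`,
and `K * ∑ x, wt ≤ K * max bw ≤ 1` by `lev_wt_le`, `bw_sqrt_le`, `K = sqrt V0 ≤ sqrt (rowV i)` (or `K = 1` and `sum_box_wt`).
Truncation: `Bad` = complement of `Good`. `t ∈ Bad, t > 0`: `∑ rowV < m V0`, so
`∑_{x : a ≤ zeta} wt ≤ exp (-2 a + 14 m V0) ≤ exp (-a)` if `P.d * c0 ≤ a` (`chernoff_zeta`), hence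
`∑_{x : a ≤ zeta} uval ≤ 2 capa exp (-a)`: integrate; `(K/2) Z⁻¹ ∫ wmat 2 capa exp (-a) = K exp (-a)`.
-/

namespace Vale.Agent.Lib.P328.Fpras

open Finset MeasureTheory Vale.Agent.Lib.P328.Cap
open scoped ENNReal Nat

variable {m n : ℕ}

/-- What is needed of the numerical minimiser at one node. -/
structure NodeSol (r : Fin m → ℕ) (c0 : ℕ) (c' : Fin n → ℕ)
    (sol : (Fin (n + 1) → Fin m → ℝ) → Fin (n + 1) → ℝ) : Prop where
  meas : Measurable sol
  pos : ∀ t j, 0 < sol t j
  near : ∀ t, (∀ j i, 0 < t j i) →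
    ENNReal.ofReal (Phi r (Fin.cons c0 c') t (sol t)) ≤ 2 * capa r (Fin.cons c0 c') t

/-- The ratio of the expected capacities of child and parent. -/
noncomputable def ratI (r : Fin m → ℕ) (c0 : ℕ) (c' : Fin n → ℕ) (x : Fin m → ℕ) : ℝ :=
  (Ihat (fun i => r i - x i) c').toReal / (Ihat r (Fin.cons c0 c')).toReal

section

variable {P : Par} {r : Fin m → ℕ} {c0 : ℕ} {c' : Fin n → ℕ}
  {sol : (Fin (n + 1) → Fin m → ℝ) → Fin (n + 1) → ℝ}

theorem K_nonneg' (P : Par) (m n c0 : ℕ) : 0 ≤ P.K m n c0 := by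
  unfold Par.K
  split_ifs
  · exact Real.sqrt_nonneg _
  · exact zero_le_one

theorem uval_nonneg' (r : Fin m → ℕ) (c' : Fin n → ℕ) {t : Fin (n + 1) → Fin m → ℝ} (x : Fin m → ℕ)
    (ht : ∀ j i, 0 < t j i) : 0 ≤ uval r c' t x := by
  rw [uval_eq]
  exact mul_nonneg (colW_nonneg r x fun i => (ht 0 i).le) ENNReal.toReal_nonneg

/-- The balance of the margins of the node. -/
theorem bal_cons (hbal : ∑ i, r i = c0 + ∑ j, c' j) :
    ∑ i, r i = ∑ j, (Fin.cons c0 c' : Fin (n + 1) → ℕ) j := by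
  rw [Fin.sum_univ_succ]
  simpa using hbal

/-- The good set. -/
def goodT (P : Par) (r : Fin m → ℕ) (c0 : ℕ)
    (sol : (Fin (n + 1) → Fin m → ℝ) → Fin (n + 1) → ℝ) : Set (Fin (n + 1) → Fin m → ℝ) :=
  {t | ∃ i, P.V0 m n c0 ≤ rowV r t (sol t) i}

theorem measurable_rowV (hs : Measurable sol) (i : Fin m) :
    Measurable fun t : Fin (n + 1) → Fin m → ℝ => rowV r t (sol t) i := by
  have h1 : ∀ j, Measurable fun t : Fin (n + 1) → Fin m → ℝ => t j i * sol t j := fun j => by
    have ha : Measurable fun t : Fin (n + 1) → Fin m → ℝ => t j i :=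
      (measurable_pi_apply i).comp (measurable_pi_apply j)
    have hb : Measurable fun t : Fin (n + 1) → Fin m → ℝ => sol t j :=
      (measurable_pi_apply j).comp hs
    exact ha.mul hb
  have h2 : Measurable fun t : Fin (n + 1) → Fin m → ℝ => rowP t (sol t) i := by
    unfold rowP
    exact (h1 0).div (Finset.measurable_sum _ fun j _ => h1 j)
  unfold rowV
  exact (h2.const_mul _).mul (h2.const_sub _)

theorem measurableSet_goodT (hs : Measurable sol) : MeasurableSet (goodT P r c0 sol) := by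
  have : goodT P r c0 sol = ⋃ i, {t | P.V0 m n c0 ≤ rowV r t (sol t) i} := by
    ext t
    simp [goodT]
  rw [this]
  exact MeasurableSet.iUnion fun i => measurableSet_le measurable_const (measurable_rowV hs i)

/-- On the good event the binomials cancel. -/
theorem trialP_eq_good (hbal : ∑ i, r i = c0 + ∑ j, c' j) {t : Fin (n + 1) → Fin m → ℝ}
    {b : Fin (n + 1) → ℝ} (ht : ∀ j i, 0 < t j i) (hb : ∀ j, 0 < b j) {x : Fin m → ℕ}
    (hx : x ∈ lev r c0) (hgood : ∃ i, P.V0 m n c0 ≤ rowV r t b i) :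
    trialP P r c0 c' t b x
      = P.K m n c0 * uval r c' t x / (2 * (capa r (Fin.cons c0 c') t).toReal) := by
  unfold trialP
  rw [dif_pos hgood]
  have hf := wt_factor r (rowP t b) x hgood.choose
  have hw := wt_pos r c0 c' hbal t b ht hb hx
  set W := ∏ j ∈ univ.erase hgood.choose, bw (r j) (rowP t b j) (x j) with hW
  set B := bw (r hgood.choose) (rowP t b hgood.choose) (x hgood.choose) with hB
  set C := (capa r (Fin.cons c0 c') t).toReal with hC
  set u := uval r c' t x with hu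
  set K := P.K m n c0 with hK
  rw [hf] at hw ⊢
  have hW0 : W ≠ 0 := left_ne_zero_of_mul hw.ne'
  have hB0 : B ≠ 0 := right_ne_zero_of_mul hw.ne'
  by_cases hC0 : C = 0
  · simp [hC0]
  field_simp

/-- The integrand, pointwise. -/
theorem trial_point (hs : NodeSol r c0 c' sol) (hbal : ∑ i, r i = c0 + ∑ j, c' j)
    (t : Fin (n + 1) → Fin m → ℝ) {x : Fin m → ℕ} (hx : x ∈ lev r c0) :
    wmat t * capa r (Fin.cons c0 c') t * ENNReal.ofReal (trialP P r c0 c' t (sol t) x)
      = ENNReal.ofReal (P.K m n c0 / 2)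
        * (goodT P r c0 sol).indicator (fun t => wmat t * ENNReal.ofReal (uval r c' t x)) t := by
  by_cases hg : t ∈ goodT P r c0 sol
  · rw [Set.indicator_of_mem hg]
    by_cases hw : wmat t = 0
    · simp [hw]
    have htp := wmat_ne_zero_pos hw
    have hg' : ∃ i, P.V0 m n c0 ≤ rowV r t (sol t) i := hg
    rw [trialP_eq_good hbal htp (hs.pos t) hx hg']
    have hpos := capa_pos r (Fin.cons c0 c') (bal_cons hbal) t htp
    have hfin := capa_lt_top r (Fin.cons c0 c') t
    set C := (capa r (Fin.cons c0 c') t).toReal with hC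
    have hC0 : 0 < C := ENNReal.toReal_pos hpos.ne' hfin.ne
    have h1 : capa r (Fin.cons c0 c') t = ENNReal.ofReal C := (ENNReal.ofReal_toReal hfin.ne).symm
    have hu0 := uval_nonneg' r c' x htp
    have hK0 := K_nonneg' P m n c0
    rw [h1, mul_assoc, ← ENNReal.ofReal_mul hC0.le, mul_left_comm, ← ENNReal.ofReal_mul (by positivity)]
    congr 2
    field_simp
  · rw [Set.indicator_of_notMem hg]
    have hg' : ¬ ∃ i, P.V0 m n c0 ≤ rowV r t (sol t) i := hg
    have h0 : trialP P r c0 c' t (sol t) x = 0 := by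
      unfold trialP
      rw [dif_neg hg']
    rw [h0]
    simp

/-- The normalisation. -/
theorem Z_eq (r : Fin m → ℕ) (c : Fin n → ℕ) :
    ∫⁻ t, wmat t * capa r c t = ((∏ i, (r i)! : ℕ) : ℝ≥0∞) * Ihat r c := by
  have hF : ((∏ i, (r i)! : ℕ) : ℝ≥0∞) ≠ 0 := by
    exact_mod_cast (Finset.prod_pos fun i _ => Nat.factorial_pos _).ne'
  have hFt : ((∏ i, (r i)! : ℕ) : ℝ≥0∞) ≠ ⊤ := ENNReal.natCast_ne_top _
  rw [Ihat_eq, ENNReal.mul_div_cancel hF hFt]

theorem Z_ne_zero (hI : Ihat r (Fin.cons c0 c') ≠ 0) :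
    ∫⁻ t, wmat t * capa r (Fin.cons c0 c' : Fin (n + 1) → ℕ) t ≠ 0 := by
  rw [Z_eq]
  refine mul_ne_zero ?_ hI
  exact_mod_cast (Finset.prod_pos fun i _ => Nat.factorial_pos _).ne'

theorem Z_ne_top (r : Fin m → ℕ) (c : Fin n → ℕ) : ∫⁻ t, wmat t * capa r c t ≠ ⊤ := by
  rw [Z_eq]
  exact ENNReal.mul_ne_top (ENNReal.natCast_ne_top _) (Ihat_lt_top r c).ne

/-- The exact law of a trial, with the indicator inside. -/
theorem trialM_eq_ind (hs : NodeSol r c0 c' sol) (hbal : ∑ i, r i = c0 + ∑ j, c' j)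
    {x : Fin m → ℕ} (hx : x ∈ lev r c0) :
    trialM P r c0 c' sol x
      = (∫⁻ t, wmat t * capa r (Fin.cons c0 c') t)⁻¹ * ∫⁻ t, ENNReal.ofReal (P.K m n c0 / 2)
        * (goodT P r c0 sol).indicator (fun t => wmat t * ENNReal.ofReal (uval r c' t x)) t := by
  unfold trialM
  rw [lintegral_wLaw]
  congr 1
  exact lintegral_congr fun t => trial_point hs hbal t hx

/-- The exact law of a trial, truncated to the good set. `V0` and `K` are those of the regime. -/
theorem trialM_eq (hs : NodeSol r c0 c' sol) (hbal : ∑ i, r i = c0 + ∑ j, c' j)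
    (hK : 0 ≤ P.K m n c0) {x : Fin m → ℕ} (hx : x ∈ lev r c0) :
    trialM P r c0 c' sol x
      = ENNReal.ofReal (P.K m n c0 / 2) * ((∫⁻ t, wmat t * capa r (Fin.cons c0 c') t)⁻¹
        * ∫⁻ t in {t | ∃ i, P.V0 m n c0 ≤ rowV r t (sol t) i},
            wmat t * ENNReal.ofReal (uval r c' t x)) := by
  rw [trialM_eq_ind hs hbal hx, lintegral_const_mul' _ _ ENNReal.ofReal_ne_top,
    lintegral_indicator (measurableSet_goodT hs.meas)]
  unfold goodT
  ring

/-- The value of the ideal law in extended reals. -/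
theorem ideal_eq (hI : Ihat r (Fin.cons c0 c') ≠ 0) {x : Fin m → ℕ} (hx : ∀ i, x i ≤ r i) :
    (∫⁻ t, wmat t * capa r (Fin.cons c0 c') t)⁻¹
        * ∫⁻ t : Fin (n + 1) → Fin m → ℝ, wmat t * ENNReal.ofReal (uval r c' t x)
      = ENNReal.ofReal (ratI r c0 c' x) := by
  rw [lintegral_uval r c' hx, Z_eq]
  have hF : ((∏ i, (r i)! : ℕ) : ℝ≥0∞) ≠ 0 := by
    exact_mod_cast (Finset.prod_pos fun i _ => Nat.factorial_pos _).ne'
  have hFt : ((∏ i, (r i)! : ℕ) : ℝ≥0∞) ≠ ⊤ := ENNReal.natCast_ne_top _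
  have hI0 := (Ihat_lt_top r (Fin.cons c0 c')).ne
  have hIx := (Ihat_lt_top (fun i => r i - x i) c').ne
  unfold ratI
  rw [← ENNReal.toReal_div, ENNReal.ofReal_toReal (ENNReal.div_ne_top hIx hI),
    ENNReal.mul_inv (Or.inl hF) (Or.inl hFt)]
  rw [div_eq_mul_inv]
  calc _ = (((∏ i, (r i)! : ℕ) : ℝ≥0∞)⁻¹ * ((∏ i, (r i)! : ℕ) : ℝ≥0∞))
        * (Ihat (fun i => r i - x i) c' * (Ihat r (Fin.cons c0 c'))⁻¹) := by ring
    _ = _ := by
      rw [ENNReal.inv_mul_cancel hF hFt, one_mul]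

theorem ratI_nonneg (r : Fin m → ℕ) (c0 : ℕ) (c' : Fin n → ℕ) (x : Fin m → ℕ) :
    0 ≤ ratI r c0 c' x :=
  div_nonneg ENNReal.toReal_nonneg ENNReal.toReal_nonneg

/-- The extended real version of `trial_le`. -/
theorem trialM_le (hs : NodeSol r c0 c' sol) (hbal : ∑ i, r i = c0 + ∑ j, c' j)
    (hI : Ihat r (Fin.cons c0 c') ≠ 0) (hK : 0 ≤ P.K m n c0) {x : Fin m → ℕ} (hx : x ∈ lev r c0) :
    trialM P r c0 c' sol x ≤ ENNReal.ofReal (P.K m n c0 / 2 * ratI r c0 c' x) := by
  rw [trialM_eq hs hbal hK hx, ENNReal.ofReal_mul (by positivity), ← ideal_eq hI (mem_lev.1 hx).1]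
  gcongr
  exact Measure.restrict_le_self

/-- A trial returns `x` at most as often as in the ideal law. -/
theorem trial_le (hs : NodeSol r c0 c' sol) (hbal : ∑ i, r i = c0 + ∑ j, c' j)
    (hI : Ihat r (Fin.cons c0 c') ≠ 0) (hK : 0 ≤ P.K m n c0) {x : Fin m → ℕ} (hx : x ∈ lev r c0) :
    (trialM P r c0 c' sol x).toReal ≤ P.K m n c0 / 2 * ratI r c0 c' x :=
  ENNReal.toReal_le_of_le_ofReal (mul_nonneg (by positivity) (ratI_nonneg _ _ _ _))
    (trialM_le hs hbal hI hK hx)

/-- No truncation in the first regime. -/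
theorem trial_eq_small (hm : 0 < m) (hs : NodeSol r c0 c' sol) (hbal : ∑ i, r i = c0 + ∑ j, c' j)
    (hI : Ihat r (Fin.cons c0 c') ≠ 0) (hreg : ¬ (0 < n ∧ P.cs < c0)) {x : Fin m → ℕ}
    (hx : x ∈ lev r c0) :
    (trialM P r c0 c' sol x).toReal = 1 / 2 * ratI r c0 c' x := by
  have hK : P.K m n c0 = 1 := by
    unfold Par.K
    rw [if_neg hreg]
  have hV : P.V0 m n c0 = 0 := by
    unfold Par.V0
    rw [if_neg hreg]
  have hK0 : 0 ≤ P.K m n c0 := by rw [hK]; exact zero_le_one
  -- almost everywhere the good event holds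
  have hae : ∀ t, (goodT P r c0 sol).indicator
      (fun t => wmat t * ENNReal.ofReal (uval r c' t x)) t
      = wmat t * ENNReal.ofReal (uval r c' t x) := by
    intro t
    by_cases hw : wmat t = 0
    · by_cases hg : t ∈ goodT P r c0 sol
      · rw [Set.indicator_of_mem hg]
      · rw [Set.indicator_of_notMem hg, hw, zero_mul]
    have htp := wmat_ne_zero_pos hw
    refine Set.indicator_of_mem ?_ _
    refine ⟨⟨0, hm⟩, ?_⟩
    rw [hV]
    unfold rowV
    have h1 := rowP_nonneg htp (hs.pos t) ⟨0, hm⟩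
    have h2 := rowP_le_one htp (hs.pos t) ⟨0, hm⟩
    have h3 : 0 ≤ 1 - rowP t (sol t) ⟨0, hm⟩ := by linarith
    positivity
  rw [trialM_eq_ind hs hbal hx, lintegral_const_mul' _ _ ENNReal.ofReal_ne_top]
  simp only [hae]
  rw [mul_left_comm, ideal_eq hI (mem_lev.1 hx).1, hK, ← ENNReal.ofReal_mul (by norm_num),
    ENNReal.toReal_ofReal (mul_nonneg (by norm_num) (ratI_nonneg _ _ _ _))]

/-- One pointwise bound for the total mass. -/
theorem K_sum_wt_le {t : Fin (n + 1) → Fin m → ℝ} {b : Fin (n + 1) → ℝ} (ht : ∀ j i, 0 < t j i)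
    (hb : ∀ j, 0 < b j) {i : Fin m} (hi : P.V0 m n c0 ≤ rowV r t b i) :
    P.K m n c0 * ∑ x ∈ lev r c0, wt r (rowP t b) x ≤ 1 := by
  have h0 := fun i => rowP_nonneg ht hb i
  have h1 := fun i => rowP_le_one ht hb i
  have hcoin : ∀ v, P.K m n c0 * bw (r i) (rowP t b i) v ≤ 1 := by
    intro v
    unfold Par.K
    split_ifs with h
    · have h2 := bw_sqrt_le (r i) v (h0 i) (h1 i)
      have h3 : Real.sqrt (P.V0 m n c0) ≤ Real.sqrt ((r i : ℝ) * rowP t b i * (1 - rowP t b i)) :=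
        Real.sqrt_le_sqrt hi
      have hbw0 : 0 ≤ bw (r i) (rowP t b i) v := bw_nonneg (h0 i) (h1 i) v
      calc _ ≤ Real.sqrt ((r i : ℝ) * rowP t b i * (1 - rowP t b i)) * bw (r i) (rowP t b i) v := by
            gcongr
        _ ≤ 1 := by
            rw [mul_comm]
            exact h2
    · rw [one_mul]
      by_cases hv : v ≤ r i
      · have h2 : bw (r i) (rowP t b i) v ≤ ∑ w ∈ range (r i + 1), bw (r i) (rowP t b i) w :=
          Finset.single_le_sum (f := fun w => bw (r i) (rowP t b i) w)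
            (fun w _ => bw_nonneg (h0 i) (h1 i) w) (Finset.mem_range.2 (by omega))
        rwa [sum_bw] at h2
      · have : bw (r i) (rowP t b i) v = 0 := by
          unfold bw
          rw [Nat.choose_eq_zero_of_lt (by omega)]
          simp
        rw [this]
        exact zero_le_one
  have hK0 := K_nonneg' P m n c0
  rcases hK0.eq_or_lt with hK | hK
  · rw [← hK, zero_mul]
    exact zero_le_one
  · have h3 := lev_wt_le r (rowP t b) h0 h1 c0 i (1 / P.K m n c0) (fun v => by
      rw [le_div_iff₀ hK, mul_comm]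
      exact hcoin v)
    calc _ ≤ P.K m n c0 * (1 / P.K m n c0) := by gcongr
      _ = 1 := by field_simp

/-- The real value of `near`. -/
theorem Phi_le_two_capa (hs : NodeSol r c0 c' sol) {t : Fin (n + 1) → Fin m → ℝ}
    (ht : ∀ j i, 0 < t j i) :
    Phi r (Fin.cons c0 c') t (sol t) ≤ 2 * (capa r (Fin.cons c0 c') t).toReal := by
  have h0 : (0 : ℝ) ≤ 2 * (capa r (Fin.cons c0 c') t).toReal :=
    mul_nonneg zero_le_two ENNReal.toReal_nonneg
  have h1 : ENNReal.ofReal (Phi r (Fin.cons c0 c') t (sol t))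
      ≤ ENNReal.ofReal (2 * (capa r (Fin.cons c0 c') t).toReal) := by
    rw [ENNReal.ofReal_mul (by norm_num), ENNReal.ofReal_toReal (capa_lt_top _ _ _).ne]
    simpa using hs.near t ht
  exact (ENNReal.ofReal_le_ofReal_iff h0).1 h1

theorem measurable_good_int (hs : NodeSol r c0 c' sol) (x : Fin m → ℕ) :
    Measurable fun t => ENNReal.ofReal (P.K m n c0 / 2)
        * (goodT P r c0 sol).indicator (fun t => wmat t * ENNReal.ofReal (uval r c' t x)) t := by
  refine Measurable.const_mul ?_ _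
  refine Measurable.indicator ?_ (measurableSet_goodT hs.meas)
  exact measurable_wmat.mul (measurable_uval r c' x).ennreal_ofReal

/-- A trial has total probability at most one. -/
theorem trial_total_le (hs : NodeSol r c0 c' sol) (hbal : ∑ i, r i = c0 + ∑ j, c' j)
    (hI : Ihat r (Fin.cons c0 c') ≠ 0) (hd : 0 ≤ P.d) :
    ∑ x ∈ lev r c0, (trialM P r c0 c' sol x).toReal ≤ 1 := by
  have hZ0 := Z_ne_zero hI
  have hZt := Z_ne_top r (Fin.cons c0 c' : Fin (n + 1) → ℕ)
  have hmain : ∑ x ∈ lev r c0, trialM P r c0 c' sol x ≤ 1 := by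
    have h1 : ∑ x ∈ lev r c0, trialM P r c0 c' sol x
        = (∫⁻ t, wmat t * capa r (Fin.cons c0 c') t)⁻¹ * ∑ x ∈ lev r c0, ∫⁻ t,
          ENNReal.ofReal (P.K m n c0 / 2)
          * (goodT P r c0 sol).indicator (fun t => wmat t * ENNReal.ofReal (uval r c' t x)) t := by
      rw [Finset.mul_sum]
      exact Finset.sum_congr rfl fun x hx => trialM_eq_ind hs hbal hx
    rw [h1, ← lintegral_finsetSum _ fun x _ => measurable_good_int hs x]
    rw [← ENNReal.inv_mul_cancel hZ0 hZt]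
    gcongr with t
    by_cases hg : t ∈ goodT P r c0 sol
    · by_cases hw : wmat t = 0
      · simp [hw]
      have htp := wmat_ne_zero_pos hw
      obtain ⟨i, hi⟩ := hg
      have hg' : t ∈ goodT P r c0 sol := ⟨i, hi⟩
      have hKn := K_nonneg' P m n c0
      have hu : ∀ x ∈ lev r c0, 0 ≤ uval r c' t x := fun x _ => uval_nonneg' r c' x htp
      have hrew : ∀ x ∈ lev r c0, ENNReal.ofReal (P.K m n c0 / 2)
          * (goodT P r c0 sol).indicator (fun t => wmat t * ENNReal.ofReal (uval r c' t x)) t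
          = wmat t * ENNReal.ofReal (P.K m n c0 / 2 * uval r c' t x) := by
        intro x _
        rw [Set.indicator_of_mem hg', ENNReal.ofReal_mul (by positivity)]
        ring
      rw [Finset.sum_congr rfl hrew, ← Finset.mul_sum,
        ← ENNReal.ofReal_sum_of_nonneg fun x hx => mul_nonneg (by positivity) (hu x hx)]
      gcongr
      have hfin := capa_lt_top r (Fin.cons c0 c') t
      rw [← ENNReal.ofReal_toReal hfin.ne]
      apply ENNReal.ofReal_le_ofReal
      set C := (capa r (Fin.cons c0 c') t).toReal with hC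
      have hC0 : 0 ≤ C := ENNReal.toReal_nonneg
      have hPhi := Phi_le_two_capa hs htp
      rw [← hC] at hPhi
      have hw0 : ∀ x, 0 ≤ wt r (rowP t (sol t)) x := fun x =>
        wt_nonneg (fun i => rowP_nonneg htp (hs.pos t) i) (fun i => rowP_le_one htp (hs.pos t) i) x
      have hsum : ∑ x ∈ lev r c0, P.K m n c0 / 2 * uval r c' t x
          ≤ P.K m n c0 / 2 * (2 * C * ∑ x ∈ lev r c0, wt r (rowP t (sol t)) x) := by
        rw [← Finset.mul_sum, Finset.mul_sum (a := 2 * C)]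
        refine mul_le_mul_of_nonneg_left ?_ (by positivity)
        refine Finset.sum_le_sum fun x hx => ?_
        exact (uval_le r c0 c' t (sol t) htp (hs.pos t) hx).trans
          (mul_le_mul_of_nonneg_right hPhi (hw0 x))
      have hK1 := K_sum_wt_le (P := P) (r := r) (c0 := c0) htp (hs.pos t) hi
      calc _ ≤ _ := hsum
        _ = C * (P.K m n c0 * ∑ x ∈ lev r c0, wt r (rowP t (sol t)) x) := by ring
        _ ≤ C * 1 := by gcongr
        _ = C := mul_one C
    · have hz : ∀ x ∈ lev r c0, ENNReal.ofReal (P.K m n c0 / 2)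
          * (goodT P r c0 sol).indicator (fun t => wmat t * ENNReal.ofReal (uval r c' t x)) t = 0 := by
        intro x _
        rw [Set.indicator_of_notMem hg, mul_zero]
      rw [Finset.sum_eq_zero hz]
      exact zero_le
  have hfin : ∀ x ∈ lev r c0, trialM P r c0 c' sol x ≠ ⊤ := by
    intro x hx
    have h2 : trialM P r c0 c' sol x ≤ 1 :=
      (Finset.single_le_sum (f := fun x => trialM P r c0 c' sol x) (fun _ _ => zero_le) hx).trans
        hmain
    exact ne_top_of_le_ne_top ENNReal.one_ne_top h2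
  rw [← ENNReal.toReal_sum hfin]
  exact ENNReal.toReal_le_of_le_ofReal zero_le_one (by simpa using hmain)

/-- All the probabilities of the coins of a trial are at most one, for `t > 0`, on the good set. -/
theorem coin_le_one (hs : NodeSol r c0 c' sol) (hbal : ∑ i, r i = c0 + ∑ j, c' j) (hd : 0 ≤ P.d)
    {t : Fin (n + 1) → Fin m → ℝ} (ht : ∀ j i, 0 < t j i) {i : Fin m}
    (hi : P.V0 m n c0 ≤ rowV r t (sol t) i) {x : Fin m → ℕ} (hx : x ∈ lev r c0) :
    P.K m n c0 * bw (r i) (rowP t (sol t) i) (x i) ≤ 1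
      ∧ uval r c' t x / (2 * (capa r (Fin.cons c0 c') t).toReal * wt r (rowP t (sol t)) x) ≤ 1 := by
  constructor
  · have h0 := rowP_nonneg ht (hs.pos t) i
    have h1 := rowP_le_one ht (hs.pos t) i
    unfold Par.K
    split_ifs with h
    · have h2 := bw_sqrt_le (r i) (x i) h0 h1
      have h3 : Real.sqrt (P.V0 m n c0)
          ≤ Real.sqrt ((r i : ℝ) * rowP t (sol t) i * (1 - rowP t (sol t) i)) :=
        Real.sqrt_le_sqrt hi
      have hbw0 : 0 ≤ bw (r i) (rowP t (sol t) i) (x i) := bw_nonneg h0 h1 _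
      calc _ ≤ Real.sqrt ((r i : ℝ) * rowP t (sol t) i * (1 - rowP t (sol t) i))
            * bw (r i) (rowP t (sol t) i) (x i) := by
            gcongr
        _ ≤ 1 := by
            rw [mul_comm]
            exact h2
    · rw [one_mul]
      have h2 : bw (r i) (rowP t (sol t) i) (x i)
          ≤ ∑ w ∈ range (r i + 1), bw (r i) (rowP t (sol t) i) w :=
        Finset.single_le_sum (f := fun w => bw (r i) (rowP t (sol t) i) w)
          (fun w _ => bw_nonneg h0 h1 w)
          (Finset.mem_range.2 (Nat.lt_succ_of_le ((mem_lev.1 hx).1 i)))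
      rwa [sum_bw] at h2
  · have hdom := uval_le r c0 c' t (sol t) ht (hs.pos t) hx
    have hw := wt_pos r c0 c' hbal t (sol t) ht (hs.pos t) hx
    have hC0 : 0 ≤ (capa r (Fin.cons c0 c') t).toReal := ENNReal.toReal_nonneg
    have hPhi := Phi_le_two_capa hs ht
    refine div_le_one_of_le₀ ?_ (by positivity)
    exact hdom.trans (mul_le_mul_of_nonneg_right hPhi hw.le)

/-- The tail of a trial. -/
theorem trial_tail_bound (hs : NodeSol r c0 c' sol) (hbal : ∑ i, r i = c0 + ∑ j, c' j)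
    (hI : Ihat r (Fin.cons c0 c') ≠ 0) (hK : 0 ≤ P.K m n c0) (a : ℕ) {e : ℝ} (he0 : 0 ≤ e)
    (he : Real.exp (-(2 * (a : ℝ)) + 14 * ((m : ℝ) * P.V0 m n c0)) ≤ e) :
    ∑ x ∈ (lev r c0).filter (fun x => a ≤ zeta r x), P.K m n c0 / 2 * ratI r c0 c' x
      ≤ ∑ x ∈ (lev r c0).filter (fun x => a ≤ zeta r x), (trialM P r c0 c' sol x).toReal
        + P.K m n c0 * e := by
  set L := (lev r c0).filter (fun x => a ≤ zeta r x) with hL
  have hLsub : L ⊆ lev r c0 := Finset.filter_subset _ _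
  have hZ0 := Z_ne_zero hI
  have hZt := Z_ne_top r (Fin.cons c0 c' : Fin (n + 1) → ℕ)
  set Z := ∫⁻ t, wmat t * capa r (Fin.cons c0 c' : Fin (n + 1) → ℕ) t with hZ
  -- the pointwise inequality
  have hpt : ∀ t : Fin (n + 1) → Fin m → ℝ,
      ∑ x ∈ L, ENNReal.ofReal (P.K m n c0 / 2) * (wmat t * ENNReal.ofReal (uval r c' t x))
      ≤ ∑ x ∈ L, ENNReal.ofReal (P.K m n c0 / 2)
          * (goodT P r c0 sol).indicator (fun t => wmat t * ENNReal.ofReal (uval r c' t x)) t
        + ENNReal.ofReal (P.K m n c0 * e) * (wmat t * capa r (Fin.cons c0 c') t) := by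
    intro t
    by_cases hg : t ∈ goodT P r c0 sol
    · have : ∀ x ∈ L, ENNReal.ofReal (P.K m n c0 / 2) * (wmat t * ENNReal.ofReal (uval r c' t x))
          = ENNReal.ofReal (P.K m n c0 / 2)
            * (goodT P r c0 sol).indicator (fun t => wmat t * ENNReal.ofReal (uval r c' t x)) t := by
        intro x _
        rw [Set.indicator_of_mem hg]
      rw [Finset.sum_congr rfl this]
      exact le_self_add
    by_cases hw : wmat t = 0
    · simp [hw]
    have htp := wmat_ne_zero_pos hw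
    have hbad : ∀ i, rowV r t (sol t) i < P.V0 m n c0 := by
      intro i
      by_contra hcon
      exact hg ⟨i, not_lt.1 hcon⟩
    refine le_trans ?_ le_add_self
    have hu : ∀ x ∈ L, 0 ≤ uval r c' t x := fun x _ => uval_nonneg' r c' x htp
    have hrew : ∀ x ∈ L, ENNReal.ofReal (P.K m n c0 / 2) * (wmat t * ENNReal.ofReal (uval r c' t x))
        = wmat t * ENNReal.ofReal (P.K m n c0 / 2 * uval r c' t x) := by
      intro x _
      rw [ENNReal.ofReal_mul (by positivity)]
      ring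
    rw [Finset.sum_congr rfl hrew, ← Finset.mul_sum,
      ← ENNReal.ofReal_sum_of_nonneg fun x hx => mul_nonneg (by positivity) (hu x hx)]
    have hfin := capa_lt_top r (Fin.cons c0 c') t
    set C := (capa r (Fin.cons c0 c') t).toReal with hC
    have hcap : capa r (Fin.cons c0 c') t = ENNReal.ofReal C :=
      (ENNReal.ofReal_toReal hfin.ne).symm
    have hC0 : 0 ≤ C := ENNReal.toReal_nonneg
    rw [hcap, mul_left_comm, ← ENNReal.ofReal_mul (mul_nonneg hK he0)]
    gcongr
    have hPhi := Phi_le_two_capa hs htp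
    rw [← hC] at hPhi
    have h0 := fun i => rowP_nonneg htp (hs.pos t) i
    have h1 := fun i => rowP_le_one htp (hs.pos t) i
    have hw0 : ∀ x, 0 ≤ wt r (rowP t (sol t)) x := fun x => wt_nonneg h0 h1 x
    have hsum : ∑ x ∈ L, P.K m n c0 / 2 * uval r c' t x
        ≤ P.K m n c0 / 2 * (2 * C * ∑ x ∈ L, wt r (rowP t (sol t)) x) := by
      rw [← Finset.mul_sum, Finset.mul_sum (a := 2 * C)]
      refine mul_le_mul_of_nonneg_left ?_ (by positivity)
      refine Finset.sum_le_sum fun x hx => ?_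
      exact (uval_le r c0 c' t (sol t) htp (hs.pos t) (hLsub hx)).trans
        (mul_le_mul_of_nonneg_right hPhi (hw0 x))
    have hsub : L ⊆ (box r).filter fun x => a ≤ zeta r x := by
      intro x hx
      obtain ⟨h2, h3⟩ := mem_filter.1 hx
      exact mem_filter.2 ⟨(mem_filter.1 h2).1, h3⟩
    have hwL : ∑ x ∈ L, wt r (rowP t (sol t)) x ≤ e := by
      refine le_trans ?_ he
      refine (Finset.sum_le_sum_of_subset_of_nonneg hsub fun x _ _ => hw0 x).trans ?_
      refine (chernoff_zeta r _ h0 h1 a).trans ?_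
      apply Real.exp_le_exp.2
      have hV : ∑ i, (r i : ℝ) * rowP t (sol t) i * (1 - rowP t (sol t) i)
          ≤ (m : ℝ) * P.V0 m n c0 := by
        have : ∀ i ∈ (univ : Finset (Fin m)),
            (r i : ℝ) * rowP t (sol t) i * (1 - rowP t (sol t) i) ≤ P.V0 m n c0 := fun i _ =>
          (hbad i).le
        have h5 := Finset.sum_le_card_nsmul _ _ _ this
        simpa using h5
      linarith
    calc _ ≤ _ := hsum
      _ = P.K m n c0 * C * ∑ x ∈ L, wt r (rowP t (sol t)) x := by ring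
      _ ≤ P.K m n c0 * C * e := by gcongr
      _ = _ := by ring
  -- integrate
  have hmeas : ∀ x ∈ L, Measurable fun t => ENNReal.ofReal (P.K m n c0 / 2)
      * (goodT P r c0 sol).indicator (fun t => wmat t * ENNReal.ofReal (uval r c' t x)) t :=
    fun x _ => measurable_good_int hs x
  have hmeas2 : ∀ x ∈ L, Measurable fun t : Fin (n + 1) → Fin m → ℝ =>
      ENNReal.ofReal (P.K m n c0 / 2) * (wmat t * ENNReal.ofReal (uval r c' t x)) :=
    fun x _ => (measurable_wmat.mul (measurable_uval r c' x).ennreal_ofReal).const_mul _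
  have hint : ∑ x ∈ L, ∫⁻ t, ENNReal.ofReal (P.K m n c0 / 2)
        * (wmat t * ENNReal.ofReal (uval r c' t x))
      ≤ (∑ x ∈ L, ∫⁻ t, ENNReal.ofReal (P.K m n c0 / 2)
          * (goodT P r c0 sol).indicator (fun t => wmat t * ENNReal.ofReal (uval r c' t x)) t)
        + ENNReal.ofReal (P.K m n c0 * e) * Z := by
    have hg : Measurable fun t : Fin (n + 1) → Fin m → ℝ =>
        ENNReal.ofReal (P.K m n c0 * e) * (wmat t * capa r (Fin.cons c0 c') t) :=
      (measurable_wmat.mul (capa_measurable _ _)).const_mul _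
    rw [← lintegral_finsetSum _ hmeas2, ← lintegral_finsetSum _ hmeas, hZ,
      ← lintegral_const_mul' _ _ ENNReal.ofReal_ne_top, ← lintegral_add_right _ hg]
    exact lintegral_mono hpt
  -- divide
  have hdiv : ∑ x ∈ L, ENNReal.ofReal (P.K m n c0 / 2 * ratI r c0 c' x)
      ≤ ∑ x ∈ L, trialM P r c0 c' sol x + ENNReal.ofReal (P.K m n c0 * e) := by
    have h1 : ∀ x ∈ L, ENNReal.ofReal (P.K m n c0 / 2 * ratI r c0 c' x)
        = Z⁻¹ * ∫⁻ t, ENNReal.ofReal (P.K m n c0 / 2) * (wmat t * ENNReal.ofReal (uval r c' t x)) := by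
      intro x hx
      rw [ENNReal.ofReal_mul (by positivity), ← ideal_eq hI (mem_lev.1 (hLsub hx)).1,
        lintegral_const_mul' _ _ ENNReal.ofReal_ne_top]
      ring
    have h2 : ∀ x ∈ L, trialM P r c0 c' sol x
        = Z⁻¹ * ∫⁻ t, ENNReal.ofReal (P.K m n c0 / 2)
          * (goodT P r c0 sol).indicator (fun t => wmat t * ENNReal.ofReal (uval r c' t x)) t :=
      fun x hx => trialM_eq_ind hs hbal (hLsub hx)
    rw [Finset.sum_congr rfl h1, Finset.sum_congr rfl h2, ← Finset.mul_sum, ← Finset.mul_sum]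
    calc _ ≤ Z⁻¹ * ((∑ x ∈ L, ∫⁻ t, ENNReal.ofReal (P.K m n c0 / 2)
          * (goodT P r c0 sol).indicator (fun t => wmat t * ENNReal.ofReal (uval r c' t x)) t)
        + ENNReal.ofReal (P.K m n c0 * e) * Z) := by gcongr
      _ = _ := by
        rw [mul_add, mul_comm (ENNReal.ofReal (P.K m n c0 * e)) Z, ← mul_assoc,
          ENNReal.inv_mul_cancel hZ0 hZt, one_mul]
  -- to the reals
  have hle : ∀ x ∈ L, trialM P r c0 c' sol x ≠ ⊤ := fun x hx =>
    ne_top_of_le_ne_top ENNReal.ofReal_ne_top (trialM_le hs hbal hI hK (hLsub hx))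
  have hnn : ∀ x ∈ L, 0 ≤ P.K m n c0 / 2 * ratI r c0 c' x := fun x _ =>
    mul_nonneg (by positivity) (ratI_nonneg _ _ _ _)
  rw [← ENNReal.ofReal_sum_of_nonneg hnn] at hdiv
  have hsum0 : 0 ≤ ∑ x ∈ L, P.K m n c0 / 2 * ratI r c0 c' x := Finset.sum_nonneg hnn
  have h3 := ENNReal.toReal_mono (ENNReal.add_ne_top.2 ⟨ENNReal.sum_ne_top.2 hle, ENNReal.ofReal_ne_top⟩) hdiv
  rw [ENNReal.toReal_ofReal hsum0, ENNReal.toReal_add (ENNReal.sum_ne_top.2 hle) ENNReal.ofReal_ne_top,
    ENNReal.toReal_sum hle, ENNReal.toReal_ofReal (mul_nonneg hK he0)] at h3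
  exact h3

/-- The truncation error of a trial in the second regime. -/
theorem trial_trunc (hs : NodeSol r c0 c' sol) (hbal : ∑ i, r i = c0 + ∑ j, c' j)
    (hI : Ihat r (Fin.cons c0 c') ≠ 0) (hm : 0 < m) (hd : 0 ≤ P.d) (hreg : 0 < n ∧ P.cs < c0)
    (a : ℕ) (ha : P.d * c0 ≤ a) :
    ∑ x ∈ lev r c0, (P.K m n c0 / 2 * ratI r c0 c' x - (trialM P r c0 c' sol x).toReal)
      ≤ P.K m n c0 / 2 * ∑ x ∈ (lev r c0).filter (fun x => zeta r x < a), ratI r c0 c' x
        + P.K m n c0 * Real.exp (-(a : ℝ)) := by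
  have hK := K_nonneg' P m n c0
  have hV : (m : ℝ) * P.V0 m n c0 = P.d * c0 / 14 := by
    unfold Par.V0
    rw [if_pos hreg]
    have : (m : ℝ) ≠ 0 := by exact_mod_cast hm.ne'
    field_simp
  have he : Real.exp (-(2 * (a : ℝ)) + 14 * ((m : ℝ) * P.V0 m n c0)) ≤ Real.exp (-(a : ℝ)) := by
    apply Real.exp_le_exp.2
    rw [hV]
    linarith
  have htail := trial_tail_bound (P := P) hs hbal hI hK a (Real.exp_pos _).le he
  rw [← Finset.sum_filter_add_sum_filter_not (lev r c0) (fun x => zeta r x < a)]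
  have h1 : ∑ x ∈ (lev r c0).filter (fun x => zeta r x < a),
        (P.K m n c0 / 2 * ratI r c0 c' x - (trialM P r c0 c' sol x).toReal)
      ≤ P.K m n c0 / 2 * ∑ x ∈ (lev r c0).filter (fun x => zeta r x < a), ratI r c0 c' x := by
    rw [Finset.mul_sum]
    refine Finset.sum_le_sum fun x _ => ?_
    have : 0 ≤ (trialM P r c0 c' sol x).toReal := ENNReal.toReal_nonneg
    linarith
  have h2 : (lev r c0).filter (fun x => ¬ zeta r x < a) = (lev r c0).filter (fun x => a ≤ zeta r x) := by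
    refine Finset.filter_congr fun x _ => not_lt
  rw [h2]
  have h3 : ∑ x ∈ (lev r c0).filter (fun x => a ≤ zeta r x),
        (P.K m n c0 / 2 * ratI r c0 c' x - (trialM P r c0 c' sol x).toReal)
      = ∑ x ∈ (lev r c0).filter (fun x => a ≤ zeta r x), P.K m n c0 / 2 * ratI r c0 c' x
        - ∑ x ∈ (lev r c0).filter (fun x => a ≤ zeta r x), (trialM P r c0 c' sol x).toReal :=
    Finset.sum_sub_distrib _ _
  linarith

end

end Vale.Agent.Lib.P328.Fpras
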