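import Vale.Agent.Lib.P328.Cap.Table

/-!
# P328, counting algorithm: arbitrary columns reduce to sorted positive columns

The number of tables depends only on the multiset of the positive column sums, so the algorithm,
which needs the columns sorted and positive, applies to all margins:
`exists_sorted_margin`.
-/

namespace Vale.Agent.Lib.P328.Fpras

open Finset Vale.Agent.Lib.P328.Cap

variable {m : ℕ}

/-- The number of tables as a function of a list of column sums. -/
def Gt (r : Fin m → ℕ) (l : List ℕ) : ℕ := (tabs r l.get).card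

theorem list_get_cons' (c0 : ℕ) (l : List ℕ) :
    (c0 :: l).get = (Fin.cons c0 l.get : Fin (l.length + 1) → ℕ) := by
  funext j
  refine Fin.cases ?_ (fun k => ?_) j
  · rfl
  · rfl

theorem Gt_cons (r : Fin m → ℕ) (c0 : ℕ) (l : List ℕ) :
    Gt r (c0 :: l) = ∑ x ∈ lev r c0, Gt (fun i => r i - x i) l := by
  have h := sum_first_col r c0 l.get (fun _ => (1 : ℝ))
  simp only [Finset.sum_const, nsmul_eq_mul, mul_one, one_mul] at h
  have h2 : ((Gt r (c0 :: l) : ℕ) : ℝ) = ((∑ x ∈ lev r c0, Gt (fun i => r i - x i) l : ℕ) : ℝ) := by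
    unfold Gt
    rw [list_get_cons']
    rw [h]
    push_cast
    rfl
  exact_mod_cast h2

/-- A permutation of the columns does not change the number of tables. -/
theorem card_tabs_perm {n : ℕ} (r : Fin m → ℕ) (c : Fin n → ℕ) (σ : Equiv.Perm (Fin n)) :
    (tabs r (c ∘ σ)).card = (tabs r c).card := by
  refine Finset.card_bij' (fun T _ => T ∘ σ.symm) (fun T _ => T ∘ σ) ?_ ?_ ?_ ?_
  · intro T hT
    obtain ⟨h1, h2⟩ := mem_tabs.1 hT
    refine mem_tabs.2 ⟨fun j => ?_, fun i => ?_⟩
    · have := h1 (σ.symm j)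
      simpa using this
    · rw [← h2 i]
      exact Equiv.sum_comp σ.symm (fun j => T j i)
  · intro T hT
    obtain ⟨h1, h2⟩ := mem_tabs.1 hT
    refine mem_tabs.2 ⟨fun j => ?_, fun i => ?_⟩
    · exact h1 (σ j)
    · rw [← h2 i]
      exact Equiv.sum_comp σ (fun j => T j i)
  · intro T _
    funext j
    simp
  · intro T _
    funext j
    simp

theorem Gt_swap (r : Fin m → ℕ) (a b : ℕ) (l : List ℕ) : Gt r (a :: b :: l) = Gt r (b :: a :: l) := by
  unfold Gt
  have h := card_tabs_perm r (a :: b :: l).get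
    (Equiv.swap (⟨0, by simp⟩ : Fin (a :: b :: l).length) ⟨1, by simp⟩)
  rw [← h]
  congr 1
  congr 1
  funext j
  show (a :: b :: l).get (Equiv.swap (⟨0, by simp⟩ : Fin (a :: b :: l).length) ⟨1, by simp⟩ j) = (b :: a :: l).get j
  symm
  obtain ⟨j, hj⟩ := j
  match j, hj with
  | 0, _ => simp [Equiv.swap_apply_left]
  | 1, _ => simp [Equiv.swap_apply_right]
  | k + 2, hk =>
    have h1 : (⟨k + 2, hk⟩ : Fin (a :: b :: l).length) ≠ ⟨0, by simp⟩ := by
      simp [Fin.ext_iff]
    have h2 : (⟨k + 2, hk⟩ : Fin (a :: b :: l).length) ≠ ⟨1, by simp⟩ := by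
      simp [Fin.ext_iff]
    rw [Equiv.swap_apply_of_ne_of_ne h1 h2]
    simp

/-- The number of tables depends only on the multiset of the column sums. -/
theorem Gt_perm {l l' : List ℕ} (h : l.Perm l') : ∀ r : Fin m → ℕ, Gt r l = Gt r l' := by
  induction h with
  | nil => intro r; rfl
  | cons a _ ih =>
    intro r
    rw [Gt_cons, Gt_cons]
    exact Finset.sum_congr rfl fun x _ => ih _
  | swap a b l => intro r; exact Gt_swap r b a l
  | trans _ _ ih1 ih2 => intro r; exact (ih1 r).trans (ih2 r)

theorem lev_zero (r : Fin m → ℕ) : lev r 0 = {fun _ => 0} := by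
  ext x
  rw [mem_lev, Finset.mem_singleton]
  constructor
  · rintro ⟨_, h2⟩
    funext i
    exact (Finset.sum_eq_zero_iff.1 h2) i (Finset.mem_univ i)
  · rintro rfl
    simp

theorem Gt_zero (r : Fin m → ℕ) (l : List ℕ) : Gt r (0 :: l) = Gt r l := by
  rw [Gt_cons, lev_zero, Finset.sum_singleton]
  simp

/-- The columns of sum zero do not matter. -/
theorem Gt_filter (l : List ℕ) : ∀ r : Fin m → ℕ, Gt r (l.filter (0 < ·)) = Gt r l := by
  induction l with
  | nil => intro r; rfl
  | cons a l ih =>
    intro r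
    rcases Nat.eq_zero_or_pos a with h | h
    · subst h
      rw [Gt_zero, List.filter_cons_of_neg (by simp)]
      exact ih r
    · rw [List.filter_cons_of_pos (by simpa using h), Gt_cons, Gt_cons]
      exact Finset.sum_congr rfl fun x _ => ih _

theorem Gt_ofFn {n : ℕ} (r : Fin m → ℕ) (c : Fin n → ℕ) : Gt r (List.ofFn c) = (tabs r c).card := by
  unfold Gt
  have hlen : (List.ofFn c).length = n := List.length_ofFn
  have key : ∀ (n' : ℕ) (h : n' = n) (g : Fin n' → ℕ), (∀ j, g j = c (Fin.cast h j)) →
      (tabs r g).card = (tabs r c).card := by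
    intro n' h g hg
    subst h
    have : g = c := funext hg
    rw [this]
  exact key _ hlen _ fun j => by
    simp
    rfl

theorem sum_filter_pos (l : List ℕ) : (l.filter (0 < ·)).sum = l.sum := by
  induction l with
  | nil => rfl
  | cons a l ih =>
    rcases Nat.eq_zero_or_pos a with h | h
    · subst h
      rw [List.filter_cons_of_neg (by simp), ih]
      simp
    · rw [List.filter_cons_of_pos (by simpa using h), List.sum_cons, List.sum_cons, ih]

/-- The sorted list of the positive column sums. -/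
def sortedCols {n : ℕ} (c : Fin n → ℕ) : List ℕ :=
  ((List.ofFn c).filter (0 < ·)).insertionSort (· ≤ ·)

theorem sortedCols_perm {n : ℕ} (c : Fin n → ℕ) :
    (sortedCols c).Perm ((List.ofFn c).filter (0 < ·)) :=
  List.perm_insertionSort _ _

/-- **All margins reduce to sorted positive columns.** -/
theorem sortedCols_spec {n : ℕ} (r : Fin m → ℕ) (c : Fin n → ℕ) :
    (sortedCols c).Pairwise (· ≤ ·) ∧ (∀ y ∈ sortedCols c, 0 < y)
      ∧ (sortedCols c).sum = ∑ j, c j ∧ (sortedCols c).length ≤ n
      ∧ (tabs r (sortedCols c).get).card = (tabs r c).card := by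
  have hp := sortedCols_perm c
  refine ⟨List.pairwise_insertionSort _ _, ?_, ?_, ?_, ?_⟩
  · intro y hy
    have h1 := hp.mem_iff.1 hy
    simpa using (List.mem_filter.1 h1).2
  · rw [hp.sum_eq, sum_filter_pos, List.sum_ofFn]
  · rw [hp.length_eq]
    refine (List.length_filter_le _ _).trans ?_
    simp
  · have h1 : Gt r (sortedCols c) = Gt r ((List.ofFn c).filter (0 < ·)) := Gt_perm hp r
    rw [Gt_filter, Gt_ofFn] at h1
    exact h1

end Vale.Agent.Lib.P328.Fpras
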