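import Vale.Agent.Lib.P328.Fpras.ZeroRows
import Vale.Agent.Lib.P328.CapS.Zero
import Vale.Agent.Lib.P328.PBinf.Final
import Vale.Agent.Lib.P328.Lower.Main

/-!
# P328, counting algorithm: the two-sided bound for all margins
-/

namespace Vale.Agent.Lib.P328.Fpras

open Finset Vale.Agent.Lib.P328.Cap
open scoped ENNReal

theorem rhoP_one (m n : ℕ) : 1 ≤ rhoP m n := by
  unfold rhoP
  have h1 : (1 : ℝ) ≤ ((m : ℝ) + 1) ^ 16 :=
    one_le_pow₀ (by have : (0 : ℝ) ≤ m := Nat.cast_nonneg _; linarith)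
  have h2 : (1 : ℝ) ≤ ((n : ℝ) + 1) ^ 36 :=
    one_le_pow₀ (by have : (0 : ℝ) ≤ n := Nat.cast_nonneg _; linarith)
  have h3 : (1 : ℝ) ≤ 10 ^ 18 := by norm_num
  exact one_le_mul_of_one_le_of_one_le (one_le_mul_of_one_le_of_one_le h3 h1) h2

theorem rhoP_mono_left (m m' n : ℕ) (h : m ≤ m') : rhoP m n ≤ rhoP m' n := by
  unfold rhoP
  have h1 : (m : ℝ) ≤ m' := by exact_mod_cast h
  have h0 : (0 : ℝ) ≤ m := Nat.cast_nonneg _
  gcongr

theorem rhoP_mono_right (m n n' : ℕ) (h : n ≤ n') : rhoP m n ≤ rhoP m n' := by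
  unfold rhoP
  have h1 : (n : ℝ) ≤ n' := by exact_mod_cast h
  have h0 : (0 : ℝ) ≤ n := Nat.cast_nonneg _
  gcongr

/-- The two-sided bound for all margins with positive columns. -/
theorem hbound_rhoP : HBound rhoP := by
  refine hbound_zero_rows rhoP rhoP_one rhoP_mono_left ?_
  intro m n r c _ hn _ hc hsum
  have hOK : ∀ j, c j = 0 ∨ c j = 1 ∨ CapS.LevelOK (c j) := by
    intro j
    rcases Nat.lt_or_ge (c j) 2 with h | h
    · have : c j = 0 ∨ c j = 1 := by omega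
      rcases this with h0 | h0
      · exact Or.inl h0
      · exact Or.inr (Or.inl h0)
    · exact Or.inr (Or.inr (PBinf.LevelOK_all h))
  have h1 := CapS.card_tabs_poly_all hn r c hsum hOK
  have hIt := Ihat_lt_top r c
  have hβ := betaC_nonneg c
  have hρ0 : 0 ≤ rhoP m n := (zero_le_one).trans (rhoP_one m n)
  constructor
  · obtain ⟨k, rfl⟩ : ∃ k, n = k + 1 := ⟨n - 1, by omega⟩
    have h2 := Lower.betaC_Ihat_le r c hc hsum
    have h3 := ENNReal.toReal_mono (ENNReal.natCast_ne_top _) h2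
    rw [ENNReal.toReal_mul, ENNReal.toReal_ofReal hβ, ENNReal.toReal_natCast] at h3
    exact h3
  · have h2 : ENNReal.ofReal (10 ^ 18 * ((m : ℝ) + 1) ^ 16 * ((n : ℝ) + 1) ^ 36 * betaC c) * Ihat r c ≠ ⊤ :=
      ENNReal.mul_ne_top ENNReal.ofReal_ne_top hIt.ne
    have h3 := ENNReal.toReal_mono h2 h1
    rw [ENNReal.toReal_mul, ENNReal.toReal_ofReal (by
      have : 0 ≤ rhoP m n * betaC c := by positivity
      simpa [rhoP] using this), ENNReal.toReal_natCast] at h3
    unfold Aval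
    unfold rhoP
    calc _ ≤ _ := h3
      _ = _ := by ring

end Vale.Agent.Lib.P328.Fpras
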