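import Vale.Agent.Lib.P328.Fpras.Final

/-!
# P328, counting algorithm: any kernel close to the transition matrix of the algorithm works

The primitive draws of a step of the walk (the matrix `t` from the log-concave law `wLaw`, binomial
draws, coins whose probabilities are computed from `capa`) need not be exact: if each step is carried
out by a kernel `Q` within `ξ` of `algWalk` in total variation, for each state, with `ξ` a fixed
negative power of the size parameter, the estimate has the same guarantee. So published samplers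
with a small error in total variation and finite precision arithmetic are covered.
-/

namespace Vale.Agent.Lib.P328.Fpras

open Finset Vale.Agent.Lib.P328.Cap

section General

variable {X : Type} [DecidableEq X]

/-- Kernels that are close at every state have laws that are close after `T` steps. -/
theorem law_kernel_close {V : Finset (List X)} {P Q : List X → List X → ℝ} (h0 : ([] : List X) ∈ V)
    (hP0 : ∀ v ∈ V, ∀ w, 0 ≤ P v w) (hP1 : ∀ v ∈ V, ∑ w ∈ V, P v w = 1)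
    (hQ0 : ∀ v ∈ V, ∀ w, 0 ≤ Q v w) (hQ1 : ∀ v ∈ V, ∑ w ∈ V, Q v w = 1) {ξ : ℝ}
    (hξ : ∀ v ∈ V, ∑ w ∈ V, |Q v w - P v w| ≤ ξ) (T : ℕ) :
    ∑ w ∈ V, |lawT V Q T w - lawT V P T w| ≤ ξ * T := by
  induction T with
  | zero => simp [lawT]
  | succ T ih =>
    set L' := lawT V Q T with hL'
    set L := lawT V P T with hL
    have hLn : ∀ w, 0 ≤ L w := lawT_nonneg hP0 T
    have hLs : ∑ w ∈ V, L w = 1 := lawT_sum h0 hP1 T
    have h1 : ∀ w ∈ V, |lawT V Q (T + 1) w - lawT V P (T + 1) w|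
        ≤ ∑ v ∈ V, (|L' v - L v| * Q v w + L v * |Q v w - P v w|) := by
      intro w _
      simp only [lawT]
      rw [← hL', ← hL, ← sum_sub_distrib]
      refine (Finset.abs_sum_le_sum_abs _ _).trans (Finset.sum_le_sum fun v hv => ?_)
      have h2 : L' v * Q v w - L v * P v w = (L' v - L v) * Q v w + L v * (Q v w - P v w) := by ring
      rw [h2]
      refine (abs_add_le _ _).trans ?_
      rw [abs_mul, abs_mul, abs_of_nonneg (hQ0 v hv w), abs_of_nonneg (hLn v)]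
    calc _ ≤ ∑ w ∈ V, ∑ v ∈ V, (|L' v - L v| * Q v w + L v * |Q v w - P v w|) :=
          Finset.sum_le_sum h1
      _ = ∑ v ∈ V, (|L' v - L v| * ∑ w ∈ V, Q v w + L v * ∑ w ∈ V, |Q v w - P v w|) := by
          rw [Finset.sum_comm]
          refine Finset.sum_congr rfl fun v _ => ?_
          rw [sum_add_distrib, Finset.mul_sum, Finset.mul_sum]
      _ ≤ ∑ v ∈ V, (|L' v - L v| + L v * ξ) := by
          refine Finset.sum_le_sum fun v hv => ?_
          rw [hQ1 v hv, mul_one]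
          have h3 := hξ v hv
          have h4 := hLn v
          gcongr
      _ = ∑ v ∈ V, |L' v - L v| + ξ := by
          rw [sum_add_distrib, ← Finset.sum_mul, hLs, one_mul]
      _ ≤ ξ * T + ξ := by linarith
      _ = _ := by
          push_cast
          ring

/-- The estimate from any law on the nodes close to the stationary law. -/
theorem estimator_of_law {S : List X → Finset X} {D : ℕ} {ε0 : ℝ}
    {A N : List X → ℝ} {ρ : ℝ} (hρ : 1 ≤ ρ) (hA : ∀ v ∈ nodes S D, 0 < A v)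
    (hAN : ∀ v ∈ nodes S D, A v ≤ N v) (hNA : ∀ v ∈ nodes S D, N v ≤ ρ * A v)
    (hadd : ∀ v, v.length < D → v ∈ nodes S D → N v = ∑ x ∈ S v, N (x :: v))
    (hleaf : ∀ v ∈ lvl S D, A v = N v)
    {μ : List X → ℝ} (hμ0 : ∀ v ∈ nodes S D, 0 ≤ μ v) (hμ1 : ∑ v ∈ nodes S D, μ v = 1)
    (hl1' : ∑ w ∈ nodes S D, |μ w - A w / ∑ v ∈ nodes S D, A v|
      ≤ ε0 / (32 * (((D : ℝ) + 1) * ρ)))
    {R : ℕ} {δ : ℝ} (hε00 : 0 < ε0) (hε01 : ε0 ≤ 1) (hR : 0 < R)
    (hRl : 4 * Real.exp (-((R : ℝ) * (ε0 / (32 * (((D : ℝ) + 1) * ρ))) ^ 2 / 4)) ≤ δ)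
    {Ahat : ℝ} (hAhat : |Ahat - A []| ≤ ε0 / 4 * A []) :
    1 - δ ≤ runProb (nodes S D) μ R fun ω =>
      (1 - ε0) * N [] ≤ Ahat * (countIn (lvl S D) ω : ℝ) / (countIn {[]} ω : ℝ)
        ∧ Ahat * (countIn (lvl S D) ω : ℝ) / (countIn {[]} ω : ℝ) ≤ (1 + ε0) * N [] := by
  classical
  set B : ℝ := ((D : ℝ) + 1) * ρ with hBdef
  have hD1 : (1 : ℝ) ≤ (D : ℝ) + 1 := by
    have : (0 : ℝ) ≤ D := Nat.cast_nonneg D
    linarith
  have hB1 : 1 ≤ B := by
    rw [hBdef]; nlinarith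
  have hB0 : 0 < B := by linarith
  set V := nodes S D with hV
  have hrootV : ([] : List X) ∈ V := nil_mem_nodes
  have hN0 : ∀ v ∈ V, 0 ≤ N v := fun v hv => (hA v hv).le.trans (hAN v hv)
  have hsub : ∀ s ∈ V, ∑ u ∈ V.filter (s <:+ ·), A u ≤ B * A s := by
    intro s hs
    have h1 : ∑ u ∈ V.filter (s <:+ ·), A u ≤ ∑ u ∈ V.filter (s <:+ ·), N u :=
      Finset.sum_le_sum fun u hu => hAN u (Finset.mem_filter.mp hu).1
    have h2 := subtree_le (S := S) (D := D) hadd hN0 hs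
    have h3 : ((D : ℝ) + 1) * N s ≤ ((D : ℝ) + 1) * (ρ * A s) :=
      mul_le_mul_of_nonneg_left (hNA s hs) (by linarith)
    calc _ ≤ _ := h1
      _ ≤ _ := h2
      _ ≤ _ := h3
      _ = B * A s := by rw [hBdef]; ring
  set Z := ∑ v ∈ V, A v with hZ
  have hZ0 : 0 < Z := total_pos hA
  have hAroot := hA [] hrootV
  have hZB : Z ≤ B * A [] := by
    have := hsub [] hrootV
    have h2 : V.filter (([] : List X) <:+ ·) = V :=
      Finset.filter_true_of_mem fun u _ => List.nil_suffix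
    rwa [h2] at this
  -- frequencies
  set τ := ε0 / (32 * B) with hτ
  have hτpos : 0 < τ := by positivity
  have hτ1 : τ ≤ 1 := by
    rw [hτ, div_le_one (by positivity)]
    nlinarith
  have hleafV : lvl S D ⊆ V := by
    intro u hu
    exact Finset.mem_biUnion.mpr ⟨D, by simp, hu⟩
  have hrootS : ({[]} : Finset (List X)) ⊆ V := by
    intro u hu
    rw [Finset.mem_singleton] at hu
    rw [hu]; exact hrootV
  have hc1 := runProb_close V μ hμ0 hμ1 (lvl S D) hleafV R hR τ hτpos hτ1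
  have hc2 := runProb_close V μ hμ0 hμ1 {[]} hrootS R hR τ hτpos hτ1
  have hand := runProb_and V μ hμ0 hμ1 R (fun ω => |(countIn (lvl S D) ω : ℝ) / R - ∑ v ∈ lvl S D, μ v| ≤ τ)
    (fun ω => |(countIn {[]} ω : ℝ) / R - ∑ v ∈ ({[]} : Finset (List X)), μ v| ≤ τ)
  have hδ : 1 - δ ≤ runProb V μ R fun ω =>
      |(countIn (lvl S D) ω : ℝ) / R - ∑ v ∈ lvl S D, μ v| ≤ τ ∧
        |(countIn {[]} ω : ℝ) / R - ∑ v ∈ ({[]} : Finset (List X)), μ v| ≤ τ := by
    linarith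
  refine hδ.trans (runProb_mono V μ hμ0 R _ _ fun ω _ hE => ?_)
  obtain ⟨hE1, hE2⟩ := hE
  have hG : ∀ G : Finset (List X), G ⊆ V → |∑ v ∈ G, μ v - ∑ v ∈ G, A v / Z| ≤ τ := by
    intro G hGV
    rw [← Finset.sum_sub_distrib]
    refine (Finset.abs_sum_le_sum_abs _ _).trans (le_trans ?_ hl1')
    exact Finset.sum_le_sum_of_subset_of_nonneg hGV fun _ _ _ => abs_nonneg _
  have hRpos : (0 : ℝ) < R := by exact_mod_cast hR
  have hfin : ∀ (G : Finset (List X)) (p : ℝ), G ⊆ V → ∑ v ∈ G, A v / Z = p →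
      |(countIn G ω : ℝ) / R - ∑ v ∈ G, μ v| ≤ τ → |(countIn G ω : ℝ) / R - p| ≤ ε0 / 16 / B := by
    intro G p hGV hp hE
    have h1 := hG G hGV
    rw [hp] at h1
    have h2 := abs_sub_le ((countIn G ω : ℝ) / R) (∑ v ∈ G, μ v) p
    have h3 : ε0 / 16 / B = τ + τ := by
      rw [hτ]; field_simp; norm_num
    linarith
  have hleafsum : ∑ v ∈ lvl S D, A v / Z = N [] / Z := by
    rw [← Finset.sum_div, ← leaves_sum (S := S) (D := D) hadd]
    congr 1
    exact Finset.sum_congr rfl hleaf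
  have hrootsum : ∑ v ∈ ({[]} : Finset (List X)), A v / Z = A [] / Z := by simp
  have hNroot := hAN [] hrootV
  have hp1 : 1 / B ≤ N [] / Z := by
    rw [div_le_div_iff₀ hB0 hZ0]
    have : B * A [] ≤ B * N [] := mul_le_mul_of_nonneg_left hNroot hB0.le
    linarith
  have hp2 : 1 / B ≤ A [] / Z := by
    rw [div_le_div_iff₀ hB0 hZ0]
    linarith
  have hmain := est_det (Ahat := Ahat) (A0 := A []) (N0 := N []) hε00 hε01 hB0
    (hfin _ _ hleafV hleafsum hE1) (hfin _ _ hrootS hrootsum hE2) hp1 hp2 hAroot hAhat (by ring)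
  have heq : Ahat * ((countIn (lvl S D) ω : ℝ) / R) / ((countIn {[]} ω : ℝ) / R)
      = Ahat * (countIn (lvl S D) ω : ℝ) / (countIn {[]} ω : ℝ) := by
    by_cases h0 : (countIn {[]} ω : ℝ) = 0
    · simp [h0]
    · field_simp
  rwa [heq] at hmain


/-- The actual walk is close to the stationary law. -/
theorem walk_close {S : List X → Finset X} {D : ℕ} (hS : ∀ v, D ≤ v.length → S v = ∅)
    {A q N : List X → ℝ} {ρ : ℝ} (hρ : 1 ≤ ρ) (hA : ∀ v ∈ nodes S D, 0 < A v)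
    (hAN : ∀ v ∈ nodes S D, A v ≤ N v) (hNA : ∀ v ∈ nodes S D, N v ≤ ρ * A v)
    (hadd : ∀ v, v.length < D → v ∈ nodes S D → N v = ∑ x ∈ S v, N (x :: v))
    {q0 : ℝ} (hq0 : 0 < q0) (hq : ∀ s ∈ nodes S D, s ≠ [] → q0 ≤ q s.tail)
    (hq1 : ∀ v ∈ nodes S D, 0 ≤ upI q v)
    (hdn : ∀ v ∈ nodes S D, ∀ x ∈ S v, 0 ≤ dnI A q v x)
    (hlazy : ∀ v ∈ nodes S D, upI q v + ∑ x ∈ S v, dnI A q v x ≤ 1 / 2)
    {down' : List X → X → ℝ} (hd0 : ∀ v ∈ nodes S D, ∀ x ∈ S v, 0 ≤ down' v x)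
    (hd1 : ∀ v ∈ nodes S D, ∀ x ∈ S v, down' v x ≤ dnI A q v x)
    {η : ℝ} (hη : ∀ v ∈ nodes S D, ∑ x ∈ S v, (dnI A q v x - down' v x) ≤ η)
    {T : ℕ} {ε : ℝ} (hε0 : 0 < ε)
    (hT : ((D : ℝ) + 1) * ρ * Real.exp (-((T : ℝ) * (q0 / (8 * ((D : ℝ) + 1) * (((D : ℝ) + 1) * ρ)))))
      ≤ (ε / (64 * (((D : ℝ) + 1) * ρ))) ^ 2) :
    ∑ w ∈ nodes S D, |lawT (nodes S D) (walk S down' (upI q)) T w
        - A w / ∑ v ∈ nodes S D, A v| ≤ ε / (64 * (((D : ℝ) + 1) * ρ)) + 2 * η * T := by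
  classical
  set B : ℝ := ((D : ℝ) + 1) * ρ with hBdef
  have hD1 : (1 : ℝ) ≤ (D : ℝ) + 1 := by
    have : (0 : ℝ) ≤ D := Nat.cast_nonneg D
    linarith
  have hB1 : 1 ≤ B := by
    rw [hBdef]; nlinarith
  have hB0 : 0 < B := by linarith
  set V := nodes S D with hV
  have hrootV : ([] : List X) ∈ V := nil_mem_nodes
  have hN0 : ∀ v ∈ V, 0 ≤ N v := fun v hv => (hA v hv).le.trans (hAN v hv)
  have hsub : ∀ s ∈ V, ∑ u ∈ V.filter (s <:+ ·), A u ≤ B * A s := by
    intro s hs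
    have h1 : ∑ u ∈ V.filter (s <:+ ·), A u ≤ ∑ u ∈ V.filter (s <:+ ·), N u :=
      Finset.sum_le_sum fun u hu => hAN u (Finset.mem_filter.mp hu).1
    have h2 := subtree_le (S := S) (D := D) hadd hN0 hs
    have h3 : ((D : ℝ) + 1) * N s ≤ ((D : ℝ) + 1) * (ρ * A s) :=
      mul_le_mul_of_nonneg_left (hNA s hs) (by linarith)
    calc _ ≤ _ := h1
      _ ≤ _ := h2
      _ ≤ _ := h3
      _ = B * A s := by rw [hBdef]; ring
  set Z := ∑ v ∈ V, A v with hZ
  have hZ0 : 0 < Z := total_pos hA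
  have hAroot := hA [] hrootV
  have hZB : Z ≤ B * A [] := by
    have := hsub [] hrootV
    have h2 : V.filter (([] : List X) <:+ ·) = V :=
      Finset.filter_true_of_mem fun u _ => List.nil_suffix
    rwa [h2] at this
  have hlazy1 : ∀ v ∈ V, upI q v + ∑ x ∈ S v, dnI A q v x ≤ 1 := fun v hv =>
    (hlazy v hv).trans (by norm_num)
  -- the ideal walk
  have hl1 := l1_ideal (S := S) (D := D) (A := A) (q := q) hS hA hdn hq1 hlazy hq0 hB0 hq hsub T
  have hexp0 := Real.exp_pos (-((T : ℝ) * (q0 / (8 * ((D : ℝ) + 1) * B))))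
  have hZA : Z / A [] ≤ B := by
    rw [div_le_iff₀ hAroot]; exact hZB
  have hsum0 : 0 ≤ ∑ w ∈ V, |lawT V (walk S (dnI A q) (upI q)) T w - A w / Z| :=
    Finset.sum_nonneg fun _ _ => abs_nonneg _
  have hτ0 : 0 ≤ ε / (64 * B) := by positivity
  have hν : ∑ w ∈ V, |lawT V (walk S (dnI A q) (upI q)) T w - A w / Z| ≤ ε / (64 * B) := by
    have h2 : (∑ w ∈ V, |lawT V (walk S (dnI A q) (upI q)) T w - A w / Z|) ^ 2 ≤ (ε / (64 * B)) ^ 2 :=
      hl1.trans ((mul_le_mul_of_nonneg_right hZA hexp0.le).trans hT)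
    exact (pow_le_pow_iff_left₀ hsum0 hτ0 (by norm_num)).mp h2
  -- the actual walk
  have hpt := law_perturb (S := S) (D := D) (down := dnI A q) (down' := down') (up := upI q) hS hq1
    upI_nil hd0 hd1 hlazy1 hη T
  have h3 : ∀ w ∈ V, |lawT V (walk S down' (upI q)) T w - A w / Z|
      ≤ |lawT V (walk S down' (upI q)) T w - lawT V (walk S (dnI A q) (upI q)) T w|
        + |lawT V (walk S (dnI A q) (upI q)) T w - A w / Z| := fun w _ => abs_sub_le _ _ _
  have h4 := Finset.sum_le_sum h3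
  rw [Finset.sum_add_distrib] at h4
  linarith

end General

section Main

variable {m : ℕ}

/-- The numbers for the robust form. -/
theorem robust_numbers {n : ℕ} {ρ ε : ℝ} (hρ : 1 ≤ ρ) (hε0 : 0 < ε) (hε1 : ε ≤ 1) :
    2 * (3 / Bpar m n ρ ε ^ 22) * (stepsOf m n ρ ε : ℝ)
        + 1 / Bpar m n ρ ε ^ 22 * (stepsOf m n ρ ε : ℝ)
      ≤ ε / (64 * (((n : ℝ) + 1) * ρ)) := by
  obtain ⟨h8, hmB, hLB, hLε, hρB⟩ := B_facts (m := m) (n := n) hρ hε0 hε1
  set B := Bpar m n ρ ε with hB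
  have hB1 : 1 ≤ B := by linarith [show (1 : ℝ) ≤ 10 ^ 8 by norm_num]
  have hB0 : 0 < B := by linarith
  have hn1 : (1 : ℝ) ≤ (n : ℝ) + 1 := by
    have : (0 : ℝ) ≤ n := Nat.cast_nonneg _
    linarith
  have hρ0 : 0 < ρ := by linarith
  set L := ((n : ℝ) + 1) * ρ with hL
  have hL0 : 0 < L := by positivity
  have hT2 : (stepsOf m n ρ ε : ℝ) < B ^ 20 + 1 := Nat.ceil_lt_add_one (by positivity)
  have hι : 1 / B ≤ ε / (64 * L) := by
    rw [div_le_div_iff₀ hB0 (by positivity)]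
    have h1 : 10 ^ 8 * L ≤ B * ε := by
      have := hLε
      rwa [div_le_iff₀ hε0] at this
    linarith
  refine le_trans ?_ hι
  have h1 : (stepsOf m n ρ ε : ℝ) ≤ 2 * B ^ 20 := by
    have : (1 : ℝ) ≤ B ^ 20 := one_le_pow₀ hB1
    linarith
  have e : 2 * (3 / B ^ 22) * (stepsOf m n ρ ε : ℝ) + 1 / B ^ 22 * (stepsOf m n ρ ε : ℝ)
      = (7 / B ^ 22) * (stepsOf m n ρ ε : ℝ) := by ring
  rw [e]
  calc (7 / B ^ 22) * (stepsOf m n ρ ε : ℝ) ≤ (7 / B ^ 22) * (2 * B ^ 20) :=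
        mul_le_mul_of_nonneg_left h1 (by positivity)
    _ = 14 / B ^ 2 := by
        field_simp
        ring
    _ ≤ 1 / B := by
        rw [div_le_div_iff₀ (by positivity) hB0]
        have h2 : (14 : ℝ) ≤ B := by linarith [show (14 : ℝ) ≤ 10 ^ 8 by norm_num]
        nlinarith

/-- **The main theorem, robust form.** Any kernel `Q` on the nodes, within `1 / B ^ 22` of the
transition matrix of the algorithm at every state, in `ℓ¹`, gives the same guarantee. -/
theorem fpras_robust {ρ : ℕ → ℕ → ℝ} (hρ1 : ∀ m n, 1 ≤ ρ m n)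
    (hρn : ∀ m n n', n ≤ n' → ρ m n ≤ ρ m n') (hH : HBound ρ) (hm : 0 < m) (r : Fin m → ℕ)
    (c : List ℕ) (hc : c.Pairwise (· ≤ ·)) (hpos : ∀ y ∈ c, 0 < y) (hsum : ∑ i, r i = c.sum)
    {ε δ : ℝ} (hε0 : 0 < ε) (hε1 : ε ≤ 1) (hδ0 : 0 < δ) (hδ1 : δ ≤ 1) {Ahat : ℝ}
    (hAhat : |Ahat - Aval r c.get| ≤ ε / 4 * Aval r c.get) {sol : Sol m} (hsol : IsSolver sol)
    {Q : List (Fin m → ℕ) → List (Fin m → ℕ) → ℝ}
    (hQ0 : ∀ v ∈ nodes (kids r c) c.length, ∀ w, 0 ≤ Q v w)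
    (hQ1 : ∀ v ∈ nodes (kids r c) c.length, ∑ w ∈ nodes (kids r c) c.length, Q v w = 1)
    (hQ : ∀ v ∈ nodes (kids r c) c.length, ∑ w ∈ nodes (kids r c) c.length,
      |Q v w - algWalk (parOf m c.length (ρ m c.length) ε) sol r c v w|
        ≤ 1 / Bpar m c.length (ρ m c.length) ε ^ 22) :
    1 - δ ≤ runProb (nodes (kids r c) c.length)
      (lawT (nodes (kids r c) c.length) Q (stepsOf m c.length (ρ m c.length) ε))
      (runsOf m c.length (ρ m c.length) ε δ) fun ω =>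
        (1 - ε) * ((tabs r c.get).card : ℝ)
            ≤ Ahat * (countIn (lvl (kids r c) c.length) ω : ℝ) / (countIn {[]} ω : ℝ)
          ∧ Ahat * (countIn (lvl (kids r c) c.length) ω : ℝ) / (countIn {[]} ω : ℝ)
            ≤ (1 + ε) * ((tabs r c.get).card : ℝ) := by
  have hbd := fun v hv => node_bounds hρ1 hρn hH (r := r) (c := c) hpos hsum (v := v) hv
  have hOK := parOK (m := m) (n := c.length) hm (hρ1 m c.length) hε0 hε1
  obtain ⟨hup, hq, hq1, hdn, hlazy, hd0, hd1, hη⟩ :=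
    chain_hyp (sol := sol) (r := r) (c := c) hsol hc hpos hsum (hρ1 m c.length)
      (fun v hv => (hbd v hv).1) (fun v hv => (hbd v hv).2.1) (fun v hv => (hbd v hv).2.2) hOK
  obtain ⟨n1, n2, n3, n4⟩ := num_conditions (m := m) (n := c.length) hm (hρ1 m c.length)
    hε0 hε1 hδ0 hδ1
  have hq0 : 0 < qLow (parOf m c.length (ρ m c.length) ε) m :=
    lt_of_lt_of_le (by
      have : 0 < Bpar m c.length (ρ m c.length) ε := by
        have := (B_facts (m := m) (n := c.length) (hρ1 m c.length) hε0 hε1).1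
        linarith [show (0 : ℝ) < 10 ^ 8 by norm_num]
      positivity) (qLow_ge hm (hρ1 m c.length) hε0 hε1)
  have hS : ∀ v : List (Fin m → ℕ), c.length ≤ v.length → kids r c v = ∅ :=
    fun v h => kids_empty r c v h
  set P := parOf m c.length (ρ m c.length) ε with hPdef
  set V := nodes (kids r c) c.length with hV
  have hroot : ([] : List (Fin m → ℕ)) ∈ V := nil_mem_nodes
  set ρ0 := ρ m c.length with hρ0
  have hρ01 : 1 ≤ ρ0 := hρ1 _ _
  have hclose := walk_close (S := kids r c) (D := c.length) hS (A := Aat r c)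
    (q := rateAt P r c) (N := Nat_ r c) hρ01 (fun v hv => (hbd v hv).1)
    (fun v hv => (hbd v hv).2.1) (fun v hv => (hbd v hv).2.2)
    (fun v hlen _ => Nat_add r c hlen) hq0 hq hq1 hdn hlazy hd0 hd1 hη hε0 n1
  -- the kernel of the algorithm is stochastic
  have hlazy1 : ∀ v ∈ V, upI (rateAt P r c) v + ∑ x ∈ kids r c v, downAt P sol r c v x ≤ 1 := by
    intro v hv
    have h1 := hlazy v hv
    have h2 : ∑ x ∈ kids r c v, downAt P sol r c v x
        ≤ ∑ x ∈ kids r c v, dnI (Aat r c) (rateAt P r c) v x :=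
      Finset.sum_le_sum fun x hx => hd1 v hv x hx
    linarith
  have hW0 : ∀ v ∈ V, ∀ w, 0 ≤ algWalk P sol r c v w := by
    intro v hv w
    unfold algWalk
    rw [hup]
    exact walk_nonneg (hd0 v hv) (hq1 v hv) (hlazy1 v hv) w
  have hW1 : ∀ v ∈ V, ∑ w ∈ V, algWalk P sol r c v w = 1 := by
    intro v hv
    unfold algWalk
    rw [hup]
    refine sum_walk_one _ _ _ _ hS hv ?_
    rintro rfl
    exact upI_nil
  have hlaw := law_kernel_close (V := V) hroot hW0 hW1 hQ0 hQ1 hQ (stepsOf m c.length ρ0 ε)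
  set μ := lawT V Q (stepsOf m c.length ρ0 ε) with hμ
  have hμ0 : ∀ v ∈ V, 0 ≤ μ v := fun v _ => lawT_nonneg hQ0 _ v
  have hμ1 : ∑ v ∈ V, μ v = 1 := lawT_sum hroot hQ1 _
  have hnum := robust_numbers (m := m) (n := c.length) hρ01 hε0 hε1
  have hl1 : ∑ w ∈ V, |μ w - Aat r c w / ∑ v ∈ V, Aat r c v|
      ≤ ε / (32 * (((c.length : ℝ) + 1) * ρ0)) := by
    have h3 : ∀ w ∈ V, |μ w - Aat r c w / ∑ v ∈ V, Aat r c v|
        ≤ |μ w - lawT V (algWalk P sol r c) (stepsOf m c.length ρ0 ε) w|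
          + |lawT V (algWalk P sol r c) (stepsOf m c.length ρ0 ε) w
            - Aat r c w / ∑ v ∈ V, Aat r c v| := fun w _ => abs_sub_le _ _ _
    have h4 := Finset.sum_le_sum h3
    rw [Finset.sum_add_distrib] at h4
    have hclose' : ∑ w ∈ V, |lawT V (algWalk P sol r c) (stepsOf m c.length ρ0 ε) w
        - Aat r c w / ∑ v ∈ V, Aat r c v|
        ≤ ε / (64 * (((c.length : ℝ) + 1) * ρ0))
          + 2 * (3 / Bpar m c.length ρ0 ε ^ 22) * (stepsOf m c.length ρ0 ε : ℝ) := by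
      unfold algWalk
      rw [hup]
      exact hclose
    have h5 : ε / (32 * (((c.length : ℝ) + 1) * ρ0))
        = ε / (64 * (((c.length : ℝ) + 1) * ρ0)) + ε / (64 * (((c.length : ℝ) + 1) * ρ0)) := by
      have : 0 < ((c.length : ℝ) + 1) * ρ0 := by
        have h6 : (0 : ℝ) ≤ (c.length : ℝ) := Nat.cast_nonneg _
        have h7 : 0 < ρ0 := by linarith
        positivity
      field_simp
      norm_num
    linarith
  have hmain := estimator_of_law (S := kids r c) (D := c.length) (A := Aat r c) (N := Nat_ r c)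
    (μ := μ) hρ01 (fun v hv => (hbd v hv).1) (fun v hv => (hbd v hv).2.1)
    (fun v hv => (hbd v hv).2.2) (fun v hlen _ => Nat_add r c hlen)
    (fun v hv => by
      have h := leaf_one r c hsum hv
      rw [h.1, h.2]) hμ0 hμ1 hl1 hε0 hε1 n4 n3 (Ahat := Ahat) (by rw [Aat_nil]; exact hAhat)
  rw [Nat_nil] at hmain
  exact hmain

end Main

end Vale.Agent.Lib.P328.Fpras
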