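import Vale.Agent.Lib.P328.Fpras.Defs

/-!
# P328, counting algorithm: concentration of the fractions of runs

Finite sums only. `∑_ω ∏_i μ (ω i) ∏_i f (ω i) = (∑_v μ v f v) ^ R` (`Finset.prod_univ_sum`).
Chernoff by hand: `|exp y - 1 - y| ≤ y²` for `|y| ≤ 1` (`Real.abs_exp_sub_one_sub_id_le`) gives
`E exp (θ (g - p)) ≤ exp θ²` for `|θ| ≤ 1`, `g` the indicator of `G`; take `θ = ± τ / 2`.
-/

namespace Vale.Agent.Lib.P328.Fpras

open Finset

variable {X : Type} [DecidableEq X]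

theorem weight_nonneg (V : Finset (List X)) (μ : List X → ℝ) (hμ : ∀ v ∈ V, 0 ≤ μ v) {R : ℕ}
    {ω : Fin R → List X} (hω : ω ∈ Fintype.piFinset (fun _ : Fin R => V)) :
    0 ≤ ∏ i, μ (ω i) :=
  prod_nonneg fun i _ => hμ _ (Fintype.mem_piFinset.mp hω i)

theorem runProb_mono (V : Finset (List X)) (μ : List X → ℝ) (hμ : ∀ v ∈ V, 0 ≤ μ v) (R : ℕ)
    (E E' : (Fin R → List X) → Prop) [DecidablePred E] [DecidablePred E']
    (h : ∀ ω, (∀ i, ω i ∈ V) → E ω → E' ω) : runProb V μ R E ≤ runProb V μ R E' := by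
  unfold runProb
  refine sum_le_sum fun ω hω => ?_
  have hω' := Fintype.mem_piFinset.mp hω
  have hw := weight_nonneg V μ hμ hω
  by_cases hE : E ω
  · have hE' := h ω hω' hE
    simp [hE, hE']
  · simp only [hE, if_false, mul_zero]
    split_ifs <;> simp [hw]

/-- The sum of the product weights against a product function. -/
theorem sum_prod_eq_pow (V : Finset (List X)) (μ f : List X → ℝ) (R : ℕ) :
    ∑ ω ∈ Fintype.piFinset (fun _ : Fin R => V), (∏ i, μ (ω i)) * ∏ i, f (ω i)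
      = (∑ v ∈ V, μ v * f v) ^ R := by
  have := (Finset.prod_univ_sum (fun _ : Fin R => V) (fun _ v => μ v * f v))
  simp only [prod_const, card_univ, Fintype.card_fin] at this
  rw [this]
  refine sum_congr rfl fun ω _ => ?_
  rw [prod_mul_distrib]

theorem sum_weight_eq_one (V : Finset (List X)) (μ : List X → ℝ) (hμ1 : ∑ v ∈ V, μ v = 1) (R : ℕ) :
    ∑ ω ∈ Fintype.piFinset (fun _ : Fin R => V), ∏ i, μ (ω i) = 1 := by
  have := sum_prod_eq_pow V μ (fun _ => 1) R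
  simpa [hμ1] using this

/-- Union bound for the complements. -/
theorem runProb_and (V : Finset (List X)) (μ : List X → ℝ) (hμ : ∀ v ∈ V, 0 ≤ μ v)
    (hμ1 : ∑ v ∈ V, μ v = 1) (R : ℕ)
    (E E' : (Fin R → List X) → Prop) [DecidablePred E] [DecidablePred E'] :
    runProb V μ R E + runProb V μ R E' - 1 ≤ runProb V μ R fun ω => E ω ∧ E' ω := by
  unfold runProb
  have hone := sum_weight_eq_one V μ hμ1 R
  have key : ∑ ω ∈ Fintype.piFinset (fun _ : Fin R => V), (∏ i, μ (ω i)) * (if E ω then (1 : ℝ) else 0)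
      + ∑ ω ∈ Fintype.piFinset (fun _ : Fin R => V), (∏ i, μ (ω i)) * (if E' ω then (1 : ℝ) else 0)
      - ∑ ω ∈ Fintype.piFinset (fun _ : Fin R => V), ∏ i, μ (ω i)
      ≤ ∑ ω ∈ Fintype.piFinset (fun _ : Fin R => V), (∏ i, μ (ω i)) *
          (if E ω ∧ E' ω then (1 : ℝ) else 0) := by
    rw [← sum_add_distrib, ← sum_sub_distrib]
    refine sum_le_sum fun ω hω => ?_
    have hw := weight_nonneg V μ hμ hω
    by_cases hE : E ω <;> by_cases hE' : E' ω <;> simp [hE, hE'] <;> linarith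
  rw [hone] at key
  exact key

/-- The moment generating function of one draw. -/
theorem mgf_one (V : Finset (List X)) (μ : List X → ℝ) (hμ : ∀ v ∈ V, 0 ≤ μ v)
    (hμ1 : ∑ v ∈ V, μ v = 1) (G : Finset (List X)) (hG : G ⊆ V) (θ : ℝ) (hθ : |θ| ≤ 1) :
    ∑ v ∈ V, μ v * Real.exp (θ * ((if v ∈ G then 1 else 0) - ∑ u ∈ G, μ u))
      ≤ Real.exp (θ ^ 2) := by
  set p := ∑ u ∈ G, μ u with hp
  have hp0 : 0 ≤ p := sum_nonneg fun u hu => hμ u (hG hu)
  have hp1 : p ≤ 1 := by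
    rw [hp, ← hμ1]
    exact sum_le_sum_of_subset_of_nonneg hG fun u hu _ => hμ u hu
  have hg : ∀ v, |(if v ∈ G then (1 : ℝ) else 0) - p| ≤ 1 := by
    intro v
    split_ifs <;> rw [abs_le] <;> constructor <;> linarith
  have hpt : ∀ v ∈ V, μ v * Real.exp (θ * ((if v ∈ G then 1 else 0) - p))
      ≤ μ v * (1 + θ * ((if v ∈ G then 1 else 0) - p) + θ ^ 2) := by
    intro v hv
    refine mul_le_mul_of_nonneg_left ?_ (hμ v hv)
    set y := θ * ((if v ∈ G then (1 : ℝ) else 0) - p) with hy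
    have hy1 : |y| ≤ |θ| := by
      rw [hy, abs_mul]
      exact mul_le_of_le_one_right (abs_nonneg _) (hg v)
    have hy2 := Real.abs_exp_sub_one_sub_id_le (le_trans hy1 hθ)
    have hy3 : y ^ 2 ≤ θ ^ 2 := by
      rw [← sq_abs y, ← sq_abs θ]
      exact pow_le_pow_left₀ (abs_nonneg _) hy1 2
    have := (abs_le.mp hy2).2
    linarith
  have hsum : ∑ v ∈ V, μ v * (1 + θ * ((if v ∈ G then 1 else 0) - p) + θ ^ 2) = 1 + θ ^ 2 := by
    have h1 : ∑ v ∈ V, μ v * (if v ∈ G then (1 : ℝ) else 0) = p := by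
      have : ∀ v ∈ V, μ v * (if v ∈ G then (1 : ℝ) else 0) = if v ∈ G then μ v else 0 := by
        intro v _; split_ifs <;> simp
      rw [sum_congr rfl this, sum_ite_mem, inter_eq_right.mpr hG]
    have h2 : ∀ v ∈ V, μ v * (1 + θ * ((if v ∈ G then 1 else 0) - p) + θ ^ 2)
        = μ v * (1 - θ * p + θ ^ 2) + θ * (μ v * (if v ∈ G then (1 : ℝ) else 0)) := by
      intro v _; ring
    rw [sum_congr rfl h2, sum_add_distrib, ← sum_mul, ← mul_sum, hμ1, h1]
    ring
  calc ∑ v ∈ V, μ v * Real.exp (θ * ((if v ∈ G then 1 else 0) - p))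
      ≤ ∑ v ∈ V, μ v * (1 + θ * ((if v ∈ G then 1 else 0) - p) + θ ^ 2) := sum_le_sum hpt
    _ = 1 + θ ^ 2 := hsum
    _ ≤ Real.exp (θ ^ 2) := by linarith [Real.add_one_le_exp (θ ^ 2)]

theorem countIn_eq_sum (G : Finset (List X)) {R : ℕ} (ω : Fin R → List X) :
    (countIn G ω : ℝ) = ∑ i, (if ω i ∈ G then (1 : ℝ) else 0) := by
  unfold countIn
  rw [card_filter]
  push_cast
  rfl

/-- One tail of the Chernoff bound: `s = 1` for the upper tail, `s = -1` for the lower tail. -/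
theorem tail_bound (V : Finset (List X)) (μ : List X → ℝ) (hμ : ∀ v ∈ V, 0 ≤ μ v)
    (hμ1 : ∑ v ∈ V, μ v = 1) (G : Finset (List X)) (hG : G ⊆ V) (R : ℕ) (hR : 0 < R) (τ : ℝ)
    (hτ0 : 0 < τ) (hτ1 : τ ≤ 1) (s : ℝ) (hs : |s| = 1) :
    ∑ ω ∈ Fintype.piFinset (fun _ : Fin R => V), (∏ i, μ (ω i)) *
        (if τ < s * ((countIn G ω : ℝ) / R - ∑ v ∈ G, μ v) then (1 : ℝ) else 0)
      ≤ Real.exp (-((R : ℝ) * τ ^ 2 / 4)) := by
  set p := ∑ u ∈ G, μ u with hp
  set θ := s * (τ / 2) with hθdef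
  have hRpos : (0 : ℝ) < R := by exact_mod_cast hR
  have hθ : |θ| ≤ 1 := by
    rw [hθdef, abs_mul, hs, one_mul, abs_of_pos (by positivity)]
    linarith
  have hθ2 : θ ^ 2 = τ ^ 2 / 4 := by
    rw [hθdef, mul_pow, ← sq_abs s, hs]
    ring
  have hone := mgf_one V μ hμ hμ1 G hG θ hθ
  have hpt : ∀ ω ∈ Fintype.piFinset (fun _ : Fin R => V),
      (∏ i, μ (ω i)) * (if τ < s * ((countIn G ω : ℝ) / R - p) then (1 : ℝ) else 0)
        ≤ (∏ i, μ (ω i)) * (∏ i, Real.exp (θ * ((if ω i ∈ G then 1 else 0) - p)))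
          * Real.exp (-((R : ℝ) * τ ^ 2 / 2)) := by
    intro ω hω
    have hw := weight_nonneg V μ hμ hω
    rw [mul_assoc]
    refine mul_le_mul_of_nonneg_left ?_ hw
    rw [← Real.exp_sum, ← Real.exp_add]
    split_ifs with h
    · apply Real.one_le_exp
      have h1 : ∑ i : Fin R, θ * ((if ω i ∈ G then (1 : ℝ) else 0) - p)
          = θ * ((countIn G ω : ℝ) - R * p) := by
        rw [countIn_eq_sum, ← mul_sum, sum_sub_distrib]
        simp
      rw [h1]
      have h2 : (R : ℝ) * τ < s * ((countIn G ω : ℝ) - R * p) := by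
        have : s * ((countIn G ω : ℝ) - R * p) = R * (s * ((countIn G ω : ℝ) / R - p)) := by
          field_simp
        rw [this]
        exact mul_lt_mul_of_pos_left h hRpos
      have h3 : θ * ((countIn G ω : ℝ) - R * p) = (τ / 2) * (s * ((countIn G ω : ℝ) - R * p)) := by
        rw [hθdef]; ring
      rw [h3]
      nlinarith [mul_lt_mul_of_pos_left h2 (by positivity : (0 : ℝ) < τ / 2)]
    · exact (Real.exp_pos _).le
  calc ∑ ω ∈ Fintype.piFinset (fun _ : Fin R => V), (∏ i, μ (ω i)) *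
        (if τ < s * ((countIn G ω : ℝ) / R - p) then (1 : ℝ) else 0)
      ≤ ∑ ω ∈ Fintype.piFinset (fun _ : Fin R => V), (∏ i, μ (ω i))
          * (∏ i, Real.exp (θ * ((if ω i ∈ G then 1 else 0) - p)))
          * Real.exp (-((R : ℝ) * τ ^ 2 / 2)) := sum_le_sum hpt
    _ = (∑ v ∈ V, μ v * Real.exp (θ * ((if v ∈ G then 1 else 0) - p))) ^ R
          * Real.exp (-((R : ℝ) * τ ^ 2 / 2)) := by
        rw [← sum_mul]
        congr 1
        exact sum_prod_eq_pow V μ (fun v => Real.exp (θ * ((if v ∈ G then 1 else 0) - p))) R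
    _ ≤ (Real.exp (θ ^ 2)) ^ R * Real.exp (-((R : ℝ) * τ ^ 2 / 2)) := by
        refine mul_le_mul_of_nonneg_right ?_ (Real.exp_pos _).le
        refine pow_le_pow_left₀ ?_ hone R
        exact sum_nonneg fun v hv => mul_nonneg (hμ v hv) (Real.exp_pos _).le
    _ = Real.exp (-((R : ℝ) * τ ^ 2 / 4)) := by
        rw [← Real.exp_nat_mul, ← Real.exp_add, hθ2]
        congr 1
        ring

/-- Chernoff bound for the fraction of runs in `G`. -/
theorem runProb_close (V : Finset (List X)) (μ : List X → ℝ) (hμ : ∀ v ∈ V, 0 ≤ μ v)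
    (hμ1 : ∑ v ∈ V, μ v = 1) (G : Finset (List X)) (hG : G ⊆ V) (R : ℕ) (hR : 0 < R) (τ : ℝ)
    (hτ0 : 0 < τ) (hτ1 : τ ≤ 1) :
    1 - 2 * Real.exp (-((R : ℝ) * τ ^ 2 / 4))
      ≤ runProb V μ R fun ω => |(countIn G ω : ℝ) / R - ∑ v ∈ G, μ v| ≤ τ := by
  have h1 := tail_bound V μ hμ hμ1 G hG R hR τ hτ0 hτ1 1 (by simp)
  have h2 := tail_bound V μ hμ hμ1 G hG R hR τ hτ0 hτ1 (-1) (by simp)
  have hone := sum_weight_eq_one V μ hμ1 R
  unfold runProb
  have key : ∑ ω ∈ Fintype.piFinset (fun _ : Fin R => V), ∏ i, μ (ω i)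
      ≤ ∑ ω ∈ Fintype.piFinset (fun _ : Fin R => V), (∏ i, μ (ω i)) *
          (if |(countIn G ω : ℝ) / R - ∑ v ∈ G, μ v| ≤ τ then 1 else 0)
        + ∑ ω ∈ Fintype.piFinset (fun _ : Fin R => V), (∏ i, μ (ω i)) *
          (if τ < 1 * ((countIn G ω : ℝ) / R - ∑ v ∈ G, μ v) then (1 : ℝ) else 0)
        + ∑ ω ∈ Fintype.piFinset (fun _ : Fin R => V), (∏ i, μ (ω i)) *
          (if τ < -1 * ((countIn G ω : ℝ) / R - ∑ v ∈ G, μ v) then (1 : ℝ) else 0) := by
    rw [← sum_add_distrib, ← sum_add_distrib]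
    refine sum_le_sum fun ω hω => ?_
    have hw := weight_nonneg V μ hμ hω
    set a := (countIn G ω : ℝ) / R - ∑ v ∈ G, μ v with ha
    rw [← mul_add, ← mul_add]
    refine le_mul_of_one_le_right hw ?_
    by_cases h : |a| ≤ τ
    · have h3 : ¬ τ < 1 * a := by
        have := (abs_le.mp h).2
        linarith
      have h4 : ¬ τ < -1 * a := by
        have := (abs_le.mp h).1
        linarith
      rw [if_pos h, if_neg h3, if_neg h4]; norm_num
    · have h' : τ < |a| := not_le.mp h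
      rcases lt_abs.mp h' with h5 | h5
      · have h3 : τ < 1 * a := by linarith
        rw [if_neg h, if_pos h3]
        split_ifs <;> norm_num
      · have h4 : τ < -1 * a := by linarith
        rw [if_neg h, if_pos h4]
        split_ifs <;> norm_num
  rw [hone] at key
  linarith

end Vale.Agent.Lib.P328.Fpras
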