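import Vale.Agent.Lib.P328.Fpras.TreeWalk
import Vale.Agent.Lib.P328.Fpras.Est

/-!
# P328, counting algorithm: from the walk to the estimate, abstractly

`V = nodes S D`. `l1_ideal`: the ideal walk is close to `π = A / Z` in `ℓ¹`; `law_perturb`: the actual walk
is close to the ideal one. `subtree_le`: `Λ = (D + 1) ρ`. `leaves_sum`: the leaves have `π`-mass `N [] / Z`;
the root has mass `A [] / Z`; with `Z ≤ (D + 1) N []`, `A [] ≥ N [] / ρ` both are at least `p0 = 1 / ((D + 1) ρ)`.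
`runProb_close` at `τ = ε p0 / 32` for `G = lvl S D` and `G = {[]}`, `runProb_and`, `runProb_mono`:
then the two frequencies are `π(1 + e)`, `|e| ≤ ε / 16`, and `Ahat * N_leaf / N_root` is `N [] (1 + e3) (1 + e2) / (1 + e1)`.
-/

namespace Vale.Agent.Lib.P328.Fpras

open Finset

variable {X : Type} [DecidableEq X]

/-- The deterministic part: the two frequencies and `Ahat` give the estimate. -/
theorem est_det {Ahat A0 N0 a b pL pR ε B : ℝ} (hε0 : 0 < ε) (hε1 : ε ≤ 1) (hB : 0 < B)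
    (ha : |a - pL| ≤ ε / 16 / B) (hb : |b - pR| ≤ ε / 16 / B)
    (hpL : 1 / B ≤ pL) (hpR : 1 / B ≤ pR) (hA0 : 0 < A0) (hAhat : |Ahat - A0| ≤ ε / 4 * A0)
    (hN : A0 * pL = N0 * pR) :
    (1 - ε) * N0 ≤ Ahat * a / b ∧ Ahat * a / b ≤ (1 + ε) * N0 := by
  have hB1 : 0 < 1 / B := by positivity
  have hpL0 : 0 < pL := hB1.trans_le hpL
  have hpR0 : 0 < pR := hB1.trans_le hpR
  have h1 : ε / 16 / B ≤ ε / 16 * pL := by
    have : ε / 16 * (1 / B) ≤ ε / 16 * pL := by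
      apply mul_le_mul_of_nonneg_left hpL; positivity
    calc ε / 16 / B = ε / 16 * (1 / B) := by ring
      _ ≤ _ := this
  have h2 : ε / 16 / B ≤ ε / 16 * pR := by
    have : ε / 16 * (1 / B) ≤ ε / 16 * pR := by
      apply mul_le_mul_of_nonneg_left hpR; positivity
    calc ε / 16 / B = ε / 16 * (1 / B) := by ring
      _ ≤ _ := this
  obtain ⟨ha1, ha2⟩ := abs_le.mp (ha.trans h1)
  obtain ⟨hb1, hb2⟩ := abs_le.mp (hb.trans h2)
  obtain ⟨hA1, hA2⟩ := abs_le.mp hAhat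
  have hb0 : 0 < b := by nlinarith
  have ha0 : 0 < a := by nlinarith
  have hNp : 0 < N0 * pR := by rw [← hN]; positivity
  have hN0 : 0 < N0 := by
    by_contra h
    push_neg at h
    nlinarith
  have hA3 : A0 * (1 - ε / 4) ≤ Ahat := by linarith
  have hA4 : Ahat ≤ A0 * (1 + ε / 4) := by linarith
  have hA5 : 0 < A0 * (1 - ε / 4) := by
    apply mul_pos hA0; linarith
  have ha3 : pL * (1 - ε / 16) ≤ a := by linarith
  have ha4 : a ≤ pL * (1 + ε / 16) := by linarith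
  have hb3 : pR * (1 - ε / 16) ≤ b := by linarith
  have hb4 : b ≤ pR * (1 + ε / 16) := by linarith
  have hAa1 : A0 * (1 - ε / 4) * (pL * (1 - ε / 16)) ≤ Ahat * a := by
    apply mul_le_mul hA3 ha3 _ (hA5.le.trans hA3)
    apply mul_nonneg hpL0.le; linarith
  have hAa2 : Ahat * a ≤ A0 * (1 + ε / 4) * (pL * (1 + ε / 16)) := by
    apply mul_le_mul hA4 ha4 ha0.le
    apply mul_nonneg hA0.le; linarith
  have e1 : A0 * (1 - ε / 4) * (pL * (1 - ε / 16)) = (N0 * pR) * ((1 - ε / 4) * (1 - ε / 16)) := by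
    rw [← hN]; ring
  have e2 : A0 * (1 + ε / 4) * (pL * (1 + ε / 16)) = (N0 * pR) * ((1 + ε / 4) * (1 + ε / 16)) := by
    rw [← hN]; ring
  constructor
  · rw [le_div_iff₀ hb0]
    have h3 : (1 - ε) * N0 * b ≤ (1 - ε) * N0 * (pR * (1 + ε / 16)) := by
      apply mul_le_mul_of_nonneg_left hb4
      apply mul_nonneg _ hN0.le
      linarith
    have h4 : (1 - ε) * N0 * (pR * (1 + ε / 16)) = (N0 * pR) * ((1 - ε) * (1 + ε / 16)) := by ring
    have h5 : (N0 * pR) * ((1 - ε) * (1 + ε / 16)) ≤ (N0 * pR) * ((1 - ε / 4) * (1 - ε / 16)) := by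
      apply mul_le_mul_of_nonneg_left _ hNp.le
      nlinarith
    linarith
  · rw [div_le_iff₀ hb0]
    have h3 : (1 + ε) * N0 * (pR * (1 - ε / 16)) ≤ (1 + ε) * N0 * b := by
      apply mul_le_mul_of_nonneg_left hb3
      positivity
    have h4 : (1 + ε) * N0 * (pR * (1 - ε / 16)) = (N0 * pR) * ((1 + ε) * (1 - ε / 16)) := by ring
    have h5 : (N0 * pR) * ((1 + ε / 4) * (1 + ε / 16)) ≤ (N0 * pR) * ((1 + ε) * (1 - ε / 16)) := by
      apply mul_le_mul_of_nonneg_left _ hNp.le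
      nlinarith
    linarith

theorem estimator_abstract {S : List X → Finset X} {D : ℕ} (hS : ∀ v, D ≤ v.length → S v = ∅)
    {A q N : List X → ℝ} {ρ : ℝ} (hρ : 1 ≤ ρ) (hA : ∀ v ∈ nodes S D, 0 < A v)
    (hAN : ∀ v ∈ nodes S D, A v ≤ N v) (hNA : ∀ v ∈ nodes S D, N v ≤ ρ * A v)
    (hadd : ∀ v, v.length < D → v ∈ nodes S D → N v = ∑ x ∈ S v, N (x :: v))
    (hleaf : ∀ v ∈ lvl S D, A v = N v)
    {q0 : ℝ} (hq0 : 0 < q0) (hq : ∀ s ∈ nodes S D, s ≠ [] → q0 ≤ q s.tail)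
    (hq1 : ∀ v ∈ nodes S D, 0 ≤ upI q v)
    (hdn : ∀ v ∈ nodes S D, ∀ x ∈ S v, 0 ≤ dnI A q v x)
    (hlazy : ∀ v ∈ nodes S D, upI q v + ∑ x ∈ S v, dnI A q v x ≤ 1 / 2)
    {down' : List X → X → ℝ} (hd0 : ∀ v ∈ nodes S D, ∀ x ∈ S v, 0 ≤ down' v x)
    (hd1 : ∀ v ∈ nodes S D, ∀ x ∈ S v, down' v x ≤ dnI A q v x)
    {η : ℝ} (hη : ∀ v ∈ nodes S D, ∑ x ∈ S v, (dnI A q v x - down' v x) ≤ η)
    {T R : ℕ} {ε δ : ℝ} (hε0 : 0 < ε) (hε1 : ε ≤ 1) (hδ0 : 0 < δ) (hR : 0 < R)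
    (hT : ((D : ℝ) + 1) * ρ * Real.exp (-((T : ℝ) * (q0 / (8 * ((D : ℝ) + 1) * (((D : ℝ) + 1) * ρ)))))
      ≤ (ε / (64 * (((D : ℝ) + 1) * ρ))) ^ 2)
    (hηT : 2 * η * T ≤ ε / (64 * (((D : ℝ) + 1) * ρ)))
    (hRl : 4 * Real.exp (-((R : ℝ) * (ε / (32 * (((D : ℝ) + 1) * ρ))) ^ 2 / 4)) ≤ δ)
    {Ahat : ℝ} (hAhat : |Ahat - A []| ≤ ε / 4 * A []) :
    1 - δ ≤ runProb (nodes S D) (lawT (nodes S D) (walk S down' (upI q)) T) R fun ω =>
      (1 - ε) * N [] ≤ Ahat * (countIn (lvl S D) ω : ℝ) / (countIn {[]} ω : ℝ)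
        ∧ Ahat * (countIn (lvl S D) ω : ℝ) / (countIn {[]} ω : ℝ) ≤ (1 + ε) * N [] := by
  classical
  set B : ℝ := ((D : ℝ) + 1) * ρ with hBdef
  have hD1 : (1 : ℝ) ≤ (D : ℝ) + 1 := by
    have : (0 : ℝ) ≤ D := Nat.cast_nonneg D
    linarith
  have hB1 : 1 ≤ B := by
    rw [hBdef]; nlinarith
  have hB0 : 0 < B := by linarith
  set V := nodes S D with hV
  have hrootV : ([] : List X) ∈ V := nil_mem_nodes
  have hN0 : ∀ v ∈ V, 0 ≤ N v := fun v hv => (hA v hv).le.trans (hAN v hv)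
  have hsub : ∀ s ∈ V, ∑ u ∈ V.filter (s <:+ ·), A u ≤ B * A s := by
    intro s hs
    have h1 : ∑ u ∈ V.filter (s <:+ ·), A u ≤ ∑ u ∈ V.filter (s <:+ ·), N u :=
      Finset.sum_le_sum fun u hu => hAN u (Finset.mem_filter.mp hu).1
    have h2 := subtree_le (S := S) (D := D) hadd hN0 hs
    have h3 : ((D : ℝ) + 1) * N s ≤ ((D : ℝ) + 1) * (ρ * A s) :=
      mul_le_mul_of_nonneg_left (hNA s hs) (by linarith)
    calc _ ≤ _ := h1
      _ ≤ _ := h2
      _ ≤ _ := h3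
      _ = B * A s := by rw [hBdef]; ring
  set Z := ∑ v ∈ V, A v with hZ
  have hZ0 : 0 < Z := total_pos hA
  have hAroot := hA [] hrootV
  have hZB : Z ≤ B * A [] := by
    have := hsub [] hrootV
    have h2 : V.filter (([] : List X) <:+ ·) = V :=
      Finset.filter_true_of_mem fun u _ => List.nil_suffix
    rwa [h2] at this
  have hlazy1 : ∀ v ∈ V, upI q v + ∑ x ∈ S v, dnI A q v x ≤ 1 := fun v hv =>
    (hlazy v hv).trans (by norm_num)
  -- the ideal walk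
  have hl1 := l1_ideal (S := S) (D := D) (A := A) (q := q) hS hA hdn hq1 hlazy hq0 hB0 hq hsub T
  have hexp0 := Real.exp_pos (-((T : ℝ) * (q0 / (8 * ((D : ℝ) + 1) * B))))
  have hZA : Z / A [] ≤ B := by
    rw [div_le_iff₀ hAroot]; exact hZB
  have hsum0 : 0 ≤ ∑ w ∈ V, |lawT V (walk S (dnI A q) (upI q)) T w - A w / Z| :=
    Finset.sum_nonneg fun _ _ => abs_nonneg _
  have hτ0 : 0 ≤ ε / (64 * B) := by positivity
  have hν : ∑ w ∈ V, |lawT V (walk S (dnI A q) (upI q)) T w - A w / Z| ≤ ε / (64 * B) := by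
    have h2 : (∑ w ∈ V, |lawT V (walk S (dnI A q) (upI q)) T w - A w / Z|) ^ 2 ≤ (ε / (64 * B)) ^ 2 :=
      hl1.trans ((mul_le_mul_of_nonneg_right hZA hexp0.le).trans hT)
    exact (pow_le_pow_iff_left₀ hsum0 hτ0 (by norm_num)).mp h2
  -- the actual walk
  have hpt := law_perturb (S := S) (D := D) (down := dnI A q) (down' := down') (up := upI q) hS hq1
    upI_nil hd0 hd1 hlazy1 hη T
  have hμν : ∑ w ∈ V, |lawT V (walk S down' (upI q)) T w - lawT V (walk S (dnI A q) (upI q)) T w|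
      ≤ ε / (64 * B) := hpt.trans hηT
  set μ := lawT V (walk S down' (upI q)) T with hμdef
  have hl1' : ∑ w ∈ V, |μ w - A w / Z| ≤ ε / (32 * B) := by
    have h3 : ∀ w ∈ V, |μ w - A w / Z| ≤ |μ w - lawT V (walk S (dnI A q) (upI q)) T w|
        + |lawT V (walk S (dnI A q) (upI q)) T w - A w / Z| := fun w _ => abs_sub_le _ _ _
    have h4 := Finset.sum_le_sum h3
    rw [Finset.sum_add_distrib] at h4
    have h5 : ε / (32 * B) = ε / (64 * B) + ε / (64 * B) := by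
      field_simp; norm_num
    linarith
  have hμ0 : ∀ v ∈ V, 0 ≤ μ v := by
    intro v _
    refine lawT_nonneg (fun v hv w => walk_nonneg (hd0 v hv) (hq1 v hv) ?_ w) T v
    have h2 : ∑ x ∈ S v, down' v x ≤ ∑ x ∈ S v, dnI A q v x :=
      Finset.sum_le_sum fun x hx => hd1 v hv x hx
    have := hlazy1 v hv
    linarith
  have hμ1 : ∑ v ∈ V, μ v = 1 := by
    refine lawT_sum hrootV (fun v hv => ?_) T
    refine sum_walk_one S D down' (upI q) hS hv ?_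
    rintro rfl
    exact upI_nil
  -- frequencies
  set τ := ε / (32 * B) with hτ
  have hτpos : 0 < τ := by positivity
  have hτ1 : τ ≤ 1 := by
    rw [hτ, div_le_one (by positivity)]
    nlinarith
  have hleafV : lvl S D ⊆ V := by
    intro u hu
    exact Finset.mem_biUnion.mpr ⟨D, by simp, hu⟩
  have hrootS : ({[]} : Finset (List X)) ⊆ V := by
    intro u hu
    rw [Finset.mem_singleton] at hu
    rw [hu]; exact hrootV
  have hc1 := runProb_close V μ hμ0 hμ1 (lvl S D) hleafV R hR τ hτpos hτ1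
  have hc2 := runProb_close V μ hμ0 hμ1 {[]} hrootS R hR τ hτpos hτ1
  have hand := runProb_and V μ hμ0 hμ1 R (fun ω => |(countIn (lvl S D) ω : ℝ) / R - ∑ v ∈ lvl S D, μ v| ≤ τ)
    (fun ω => |(countIn {[]} ω : ℝ) / R - ∑ v ∈ ({[]} : Finset (List X)), μ v| ≤ τ)
  have hδ : 1 - δ ≤ runProb V μ R fun ω =>
      |(countIn (lvl S D) ω : ℝ) / R - ∑ v ∈ lvl S D, μ v| ≤ τ ∧
        |(countIn {[]} ω : ℝ) / R - ∑ v ∈ ({[]} : Finset (List X)), μ v| ≤ τ := by
    linarith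
  refine hδ.trans (runProb_mono V μ hμ0 R _ _ fun ω _ hE => ?_)
  obtain ⟨hE1, hE2⟩ := hE
  have hG : ∀ G : Finset (List X), G ⊆ V → |∑ v ∈ G, μ v - ∑ v ∈ G, A v / Z| ≤ τ := by
    intro G hGV
    rw [← Finset.sum_sub_distrib]
    refine (Finset.abs_sum_le_sum_abs _ _).trans (le_trans ?_ hl1')
    exact Finset.sum_le_sum_of_subset_of_nonneg hGV fun _ _ _ => abs_nonneg _
  have hRpos : (0 : ℝ) < R := by exact_mod_cast hR
  have hfin : ∀ (G : Finset (List X)) (p : ℝ), G ⊆ V → ∑ v ∈ G, A v / Z = p →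
      |(countIn G ω : ℝ) / R - ∑ v ∈ G, μ v| ≤ τ → |(countIn G ω : ℝ) / R - p| ≤ ε / 16 / B := by
    intro G p hGV hp hE
    have h1 := hG G hGV
    rw [hp] at h1
    have h2 := abs_sub_le ((countIn G ω : ℝ) / R) (∑ v ∈ G, μ v) p
    have h3 : ε / 16 / B = τ + τ := by
      rw [hτ]; field_simp; norm_num
    linarith
  have hleafsum : ∑ v ∈ lvl S D, A v / Z = N [] / Z := by
    rw [← Finset.sum_div, ← leaves_sum (S := S) (D := D) hadd]
    congr 1
    exact Finset.sum_congr rfl hleaf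
  have hrootsum : ∑ v ∈ ({[]} : Finset (List X)), A v / Z = A [] / Z := by simp
  have hNroot := hAN [] hrootV
  have hp1 : 1 / B ≤ N [] / Z := by
    rw [div_le_div_iff₀ hB0 hZ0]
    have : B * A [] ≤ B * N [] := mul_le_mul_of_nonneg_left hNroot hB0.le
    linarith
  have hp2 : 1 / B ≤ A [] / Z := by
    rw [div_le_div_iff₀ hB0 hZ0]
    linarith
  have hmain := est_det (Ahat := Ahat) (A0 := A []) (N0 := N []) hε0 hε1 hB0
    (hfin _ _ hleafV hleafsum hE1) (hfin _ _ hrootS hrootsum hE2) hp1 hp2 hAroot hAhat (by ring)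
  have heq : Ahat * ((countIn (lvl S D) ω : ℝ) / R) / ((countIn {[]} ω : ℝ) / R)
      = Ahat * (countIn (lvl S D) ω : ℝ) / (countIn {[]} ω : ℝ) := by
    by_cases h0 : (countIn {[]} ω : ℝ) = 0
    · simp [h0]
    · field_simp
  rwa [heq] at hmain

end Vale.Agent.Lib.P328.Fpras
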