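import Vale.Agent.Lib.P328.Fpras.Defs

/-!
# P328, FPRAS: a column of a random table is rarely close to a corner

`zeta r x = ∑ i, min (x i) (r i - x i)` measures how far the column `x` is from the corners of the
box `∏ i, [0, r i]`. If another column is at least as large as the column `c j0`, an injection
(move `s` units around a `2 × 2` rectangle) shows that `zeta` rarely takes a given small value.
-/

namespace Vale.Agent.Lib.P328.Fpras

open Finset Vale.Agent.Lib.P328.Cap

variable {m n : ℕ}

theorem mem_tabs_iff {r : Fin m → ℕ} {c : Fin n → ℕ} {T : Fin n → Fin m → ℕ} :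
    T ∈ tabs r c ↔ (∀ j, ∑ i, T j i = c j) ∧ ∀ i, ∑ j, T j i = r i := by
  unfold tabs
  rw [mem_filter]
  refine ⟨fun h => h.2, fun h => ⟨?_, h⟩⟩
  rw [Fintype.mem_piFinset]
  intro j
  rw [Fintype.mem_piFinset]
  intro i
  rw [Finset.mem_range, Nat.lt_succ_iff, ← h.2 i]
  exact Finset.single_le_sum (f := fun j => T j i) (fun _ _ => Nat.zero_le _) (mem_univ j)

/-- Moving `s` units from position `a` to position `b`. -/
def mv {ι : Type*} [DecidableEq ι] (f : ι → ℕ) (a b : ι) (s : ℕ) : ι → ℕ :=
  fun k => if k = a then f k - s else if k = b then f k + s else f k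

theorem sum_mv {ι : Type*} [Fintype ι] [DecidableEq ι] (f : ι → ℕ) {a b : ι} (hab : a ≠ b) {s : ℕ}
    (hs : s ≤ f a) : ∑ k, mv f a b s k = ∑ k, f k := by
  have h1 : ∑ k, mv f a b s k = (f a - s) + (f b + s) + ∑ k ∈ ((univ : Finset ι).erase a).erase b, f k := by
    rw [← Finset.add_sum_erase _ _ (mem_univ a), ← Finset.add_sum_erase _ _
      (mem_erase.2 ⟨hab.symm, mem_univ b⟩)]
    have hb : mv f a b s b = f b + s := by simp [mv, hab.symm]
    have ha : mv f a b s a = f a - s := by simp [mv]
    rw [ha, hb, ← add_assoc]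
    congr 1
    apply Finset.sum_congr rfl
    intro k hk
    rw [mem_erase, mem_erase] at hk
    simp [mv, hk.1, hk.2.1]
  have h2 : ∑ k, f k = f a + f b + ∑ k ∈ ((univ : Finset ι).erase a).erase b, f k := by
    rw [← Finset.add_sum_erase _ _ (mem_univ a), ← Finset.add_sum_erase _ _
      (mem_erase.2 ⟨hab.symm, mem_univ b⟩), add_assoc]
  rw [h1, h2]
  omega

/-- The table after moving `s` units around the rectangle with rows `i, i'` and columns `j0, j1`:
the entries at `(j0, i)` and `(j1, i')` go down by `s`, the other two go up by `s`. -/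
def rect (T : Fin n → Fin m → ℕ) (j0 j1 : Fin n) (i i' : Fin m) (s : ℕ) : Fin n → Fin m → ℕ :=
  fun j k => if k = i then mv (fun j => T j i) j0 j1 s j
    else if k = i' then mv (fun j => T j i') j1 j0 s j else T j k

theorem rect_col0 (T : Fin n → Fin m → ℕ) {j0 j1 : Fin n} (_hj : j0 ≠ j1) {i i' : Fin m}
    (hi : i ≠ i') (s : ℕ) : rect T j0 j1 i i' s j0 = mv (T j0) i i' s := by
  funext k
  unfold rect mv
  by_cases h1 : k = i
  · subst h1; simp
  · by_cases h2 : k = i'
    · subst h2
      simp [h1, _hj]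
    · simp [h1, h2]

theorem rect_col1 (T : Fin n → Fin m → ℕ) {j0 j1 : Fin n} (hj : j0 ≠ j1) {i i' : Fin m}
    (hi : i ≠ i') (s : ℕ) : rect T j0 j1 i i' s j1 = mv (T j1) i' i s := by
  funext k
  unfold rect mv
  by_cases h1 : k = i
  · subst h1
    simp [hj.symm, hi]
  · by_cases h2 : k = i'
    · subst h2
      simp [h1]
    · simp [h1, h2]

theorem rect_col_other (T : Fin n → Fin m → ℕ) {j0 j1 j : Fin n} (h0 : j ≠ j0) (h1 : j ≠ j1)
    (i i' : Fin m) (s : ℕ) : rect T j0 j1 i i' s j = T j := by
  funext k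
  unfold rect mv
  by_cases h3 : k = i
  · subst h3; simp [h0, h1]
  · by_cases h4 : k = i'
    · subst h4; simp [h3, h0, h1]
    · simp [h3, h4]

theorem rect_mem {r : Fin m → ℕ} {c : Fin n → ℕ} {T : Fin n → Fin m → ℕ} (hT : T ∈ tabs r c)
    {j0 j1 : Fin n} (hj : j0 ≠ j1) {i i' : Fin m} (hi : i ≠ i') {s : ℕ} (h0 : s ≤ T j0 i)
    (h1 : s ≤ T j1 i') : rect T j0 j1 i i' s ∈ tabs r c := by
  rw [mem_tabs_iff] at hT ⊢
  constructor
  · intro j
    by_cases h2 : j = j0
    · subst h2
      rw [rect_col0 T hj hi, sum_mv _ hi h0]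
      exact hT.1 _
    · by_cases h3 : j = j1
      · subst h3
        rw [rect_col1 T hj hi, sum_mv _ hi.symm h1]
        exact hT.1 _
      · rw [rect_col_other T h2 h3]
        exact hT.1 _
  · intro k
    by_cases h2 : k = i
    · subst h2
      have : ∀ j, rect T j0 j1 k i' s j k = mv (fun j => T j k) j0 j1 s j := by
        intro j; simp [rect]
      simp only [this]
      rw [sum_mv _ hj h0]
      exact hT.2 _
    · by_cases h3 : k = i'
      · subst h3
        have : ∀ j, rect T j0 j1 i k s j k = mv (fun j => T j k) j1 j0 s j := by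
          intro j; simp [rect, h2]
        simp only [this]
        rw [sum_mv _ hj.symm h1]
        exact hT.2 _
      · have : ∀ j, rect T j0 j1 i i' s j k = T j k := by
          intro j; simp [rect, h2, h3]
        simp only [this]
        exact hT.2 _

/-- The rectangle move is injective on tables with enough mass. -/
theorem rect_inj {T U : Fin n → Fin m → ℕ} {j0 j1 : Fin n} (hj : j0 ≠ j1) {i i' : Fin m}
    (hi : i ≠ i') {s : ℕ} (hT0 : s ≤ T j0 i) (hT1 : s ≤ T j1 i') (hU0 : s ≤ U j0 i)
    (hU1 : s ≤ U j1 i') (h : rect T j0 j1 i i' s = rect U j0 j1 i i' s) : T = U := by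
  funext j k
  have hjk := congrFun (congrFun h j) k
  unfold rect mv at hjk
  by_cases h2 : k = i
  · subst h2
    by_cases h3 : j = j0
    · subst h3
      simp at hjk
      omega
    · by_cases h4 : j = j1
      · subst h4
        simp [hj.symm] at hjk
        omega
      · simpa [h3, h4] using hjk
  · by_cases h3 : k = i'
    · subst h3
      by_cases h4 : j = j1
      · subst h4
        simp [h2] at hjk
        omega
      · by_cases h5 : j = j0
        · subst h5
          simp [h2, h4] at hjk
          omega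
        · simpa [h2, h4, h5] using hjk
    · simpa [h2, h3] using hjk

/-- A term of a sum of naturals is at most the sum. -/
theorem min_le_zeta (r x : Fin m → ℕ) (i : Fin m) : min (x i) (r i - x i) ≤ zeta r x :=
  Finset.single_le_sum (f := fun i => min (x i) (r i - x i)) (fun _ _ => Nat.zero_le _) (mem_univ i)

/-- An element of a set of at most `m` reals... pigeonhole in natural numbers. -/
theorem exists_mul_ge {S : Finset (Fin m)} {f : Fin m → ℕ} {B : ℕ} (hB : 0 < B)
    (h : B ≤ ∑ i ∈ S, f i) : ∃ i ∈ S, B ≤ m * f i := by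
  by_contra hcon
  push Not at hcon
  have h1 : m * ∑ i ∈ S, f i ≤ S.card * (B - 1) := by
    rw [Finset.mul_sum, ← smul_eq_mul, ← Finset.sum_const]
    apply Finset.sum_le_sum
    intro i hi
    have := hcon i hi
    omega
  have h2 : S.card ≤ m := by
    simpa using Finset.card_le_univ S
  have h3 : S.card * (B - 1) ≤ m * (B - 1) := Nat.mul_le_mul_right _ h2
  have h4 : m * B ≤ m * ∑ i ∈ S, f i := Nat.mul_le_mul_left _ h
  have hm : 0 < m := by
    by_contra hm
    have hm0 : m = 0 := by omega
    subst hm0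
    have : S = ∅ := Subsingleton.elim _ _
    subst this
    simp at h
    omega
  have h5 : m * B ≤ m * (B - 1) := h4.trans (h1.trans h3)
  have h6 : B ≤ B - 1 := Nat.le_of_mul_le_mul_left h5 hm
  omega

/-- The pair of rows on which the rectangle move acts. -/
theorem exists_pair {r : Fin m → ℕ} {c : Fin n → ℕ} {T : Fin n → Fin m → ℕ} (hT : T ∈ tabs r c)
    {j0 j1 : Fin n} (hj : j0 ≠ j1) (hc : c j0 ≤ c j1) {a : ℕ} (hz : zeta r (T j0) = a)
    (hlt : a < c j0) :
    ∃ i i' : Fin m, r i < 2 * T j0 i ∧ 2 * T j0 i' ≤ r i' ∧ c j0 - a ≤ m * T j0 i ∧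
      c j0 - a ≤ m * T j1 i' := by
  rw [mem_tabs_iff] at hT
  have hle : ∀ k, T j0 k + T j1 k ≤ r k := by
    intro k
    rw [← hT.2 k, ← Finset.add_sum_erase _ _ (mem_univ j0), ← Finset.add_sum_erase _ _
      (mem_erase.2 ⟨hj.symm, mem_univ j1⟩)]
    omega
  classical
  set I : Finset (Fin m) := univ.filter fun k => r k < 2 * T j0 k with hI
  set J : Finset (Fin m) := univ.filter fun k => ¬ r k < 2 * T j0 k with hJ
  have hsplit : ∀ f : Fin m → ℕ, ∑ k, f k = ∑ k ∈ I, f k + ∑ k ∈ J, f k := by
    intro f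
    rw [hI, hJ, Finset.sum_filter_add_sum_filter_not]
  have hz2 : ∑ k ∈ I, (r k - T j0 k) + ∑ k ∈ J, T j0 k = a := by
    rw [← hz]
    unfold zeta
    rw [hsplit]
    congr 1
    · apply Finset.sum_congr rfl
      intro k hk
      have hk' : r k < 2 * T j0 k := (mem_filter.1 hk).2
      have := hle k
      omega
    · apply Finset.sum_congr rfl
      intro k hk
      have hk' : ¬ r k < 2 * T j0 k := (mem_filter.1 hk).2
      have := hle k
      omega
  have h1 : c j0 - a ≤ ∑ k ∈ I, T j0 k := by
    have := hT.1 j0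
    rw [hsplit] at this
    omega
  have h2 : c j0 - a ≤ ∑ k ∈ J, T j1 k := by
    have h3 := hT.1 j1
    rw [hsplit] at h3
    have h4 : ∑ k ∈ I, T j1 k ≤ ∑ k ∈ I, (r k - T j0 k) := by
      apply Finset.sum_le_sum
      intro k _
      have := hle k
      omega
    omega
  obtain ⟨i, hi, hi2⟩ := exists_mul_ge (by omega) h1
  obtain ⟨i', hi', hi2'⟩ := exists_mul_ge (by omega) h2
  have hi3 : r i < 2 * T j0 i := (mem_filter.1 hi).2
  have hi3' : ¬ r i' < 2 * T j0 i' := (mem_filter.1 hi').2
  exact ⟨i, i', hi3, by omega, hi2, hi2'⟩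

/-- The effect of the move on `zeta`. -/
theorem zeta_rect {r : Fin m → ℕ} {x : Fin m → ℕ} {i i' : Fin m} (hi : i ≠ i') {s : ℕ}
    (h1 : min (x i - s) (r i - (x i - s)) = min (x i) (r i - x i) + s)
    (h2 : min (x i' + s) (r i' - (x i' + s)) = min (x i') (r i' - x i') + s) :
    zeta r (mv x i i' s) = zeta r x + 2 * s := by
  unfold zeta
  rw [← Finset.add_sum_erase _ _ (mem_univ i), ← Finset.add_sum_erase _ _
    (mem_erase.2 ⟨hi.symm, mem_univ i'⟩)]
  rw [← Finset.add_sum_erase (univ : Finset (Fin m)) (fun k => min (x k) (r k - x k)) (mem_univ i),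
    ← Finset.add_sum_erase ((univ : Finset (Fin m)).erase i) (fun k => min (x k) (r k - x k))
    (mem_erase.2 ⟨hi.symm, mem_univ i'⟩)]
  have e1 : mv x i i' s i = x i - s := by simp [mv]
  have e2 : mv x i i' s i' = x i' + s := by simp [mv, hi.symm]
  have e3 : ∑ k ∈ ((univ : Finset (Fin m)).erase i).erase i', min (mv x i i' s k) (r k - mv x i i' s k)
      = ∑ k ∈ ((univ : Finset (Fin m)).erase i).erase i', min (x k) (r k - x k) := by
    apply Finset.sum_congr rfl
    intro k hk
    rw [mem_erase, mem_erase] at hk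
    simp [mv, hk.1, hk.2.1]
  rw [e1, e2, e3, h1, h2]
  ring

/-- The injection: tables with `zeta = a` inject, after the move by `s`, into tables with
`zeta = a + 2 s`, with the choice of the two rows as extra data. -/
theorem card_zeta_le {r : Fin m → ℕ} {c : Fin n → ℕ} {j0 j1 : Fin n} (hj : j0 ≠ j1)
    (hc : c j0 ≤ c j1) {a s : ℕ} (ha : 4 * m * a ≤ c j0) (hs : 4 * m * s ≤ c j0) (hc0 : 0 < c j0)
    (hs0 : 0 < s) :
    ((tabs r c).filter fun T => zeta r (T j0) = a).card
      ≤ m ^ 2 * ((tabs r c).filter fun T => zeta r (T j0) = a + 2 * s).card := by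
  classical
  rcases Nat.eq_zero_or_pos m with hm0 | hm
  · subst hm0
    -- no rows: the column sum is zero
    have : (tabs r c).filter (fun T => zeta r (T j0) = a) = ∅ := by
      apply Finset.filter_eq_empty_iff.2
      intro T hT'
      rw [mem_tabs_iff] at hT'
      have := hT'.1 j0
      simp at this
      omega
    rw [this]
    simp
  have : Nonempty (Fin m × Fin m) := ⟨(⟨0, hm⟩, ⟨0, hm⟩)⟩
  have ha' : a < c j0 := by
    have h1 : 4 * a ≤ 4 * m * a := by
      apply Nat.mul_le_mul_right
      omega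
    omega
  have key : ∀ T ∈ (tabs r c).filter (fun T => zeta r (T j0) = a), ∃ p : Fin m × Fin m,
      p.1 ≠ p.2 ∧ s ≤ T j0 p.1 ∧ s ≤ T j1 p.2 ∧
        rect T j0 j1 p.1 p.2 s ∈ (tabs r c).filter (fun T => zeta r (T j0) = a + 2 * s) := by
    intro T hT
    obtain ⟨hT1, hz⟩ := mem_filter.1 hT
    obtain ⟨i, i', hi1, hi2, hi3, hi4⟩ := exists_pair hT1 hj hc hz ha'
    have hT2 := mem_tabs_iff.1 hT1
    have hle : ∀ k, T j0 k + T j1 k ≤ r k := by
      intro k
      rw [← hT2.2 k, ← Finset.add_sum_erase _ _ (mem_univ j0), ← Finset.add_sum_erase _ _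
        (mem_erase.2 ⟨hj.symm, mem_univ j1⟩)]
      omega
    have hii : i ≠ i' := by
      rintro rfl
      omega
    -- the two smallness facts
    have hz1 : r i - T j0 i ≤ a := by
      have := min_le_zeta r (T j0) i
      rw [hz] at this
      have h3 := hle i
      rw [min_eq_right (by omega)] at this
      exact this
    have hz2 : T j0 i' ≤ a := by
      have := min_le_zeta r (T j0) i'
      rw [hz] at this
      have h3 := hle i'
      rw [min_eq_left (by omega)] at this
      exact this
    -- arithmetic in the scale of m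
    have h4 : 2 * m * s + m * a + a ≤ c j0 := by
      have h5 : a ≤ m * a := Nat.le_mul_of_pos_left a hm
      have h6 : 4 * m * a = 2 * (2 * (m * a)) := by ring
      have h7 : 4 * m * s = 2 * (2 * m * s) := by ring
      omega
    have h8 : m * (2 * s + a) ≤ m * T j0 i := by
      have : m * (2 * s + a) = 2 * m * s + m * a := by ring
      omega
    have h9 : 2 * s + a ≤ T j0 i := Nat.le_of_mul_le_mul_left h8 hm
    have h10 : m * (2 * s + a) ≤ m * T j1 i' := by
      have : m * (2 * s + a) = 2 * m * s + m * a := by ring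
      omega
    have h11 : 2 * s + a ≤ T j1 i' := Nat.le_of_mul_le_mul_left h10 hm
    have hs1 : s ≤ T j0 i := by omega
    have hs2 : s ≤ T j1 i' := by omega
    refine ⟨(i, i'), hii, hs1, hs2, mem_filter.2 ⟨rect_mem hT1 hj hii hs1 hs2, ?_⟩⟩
    show zeta r (rect T j0 j1 i i' s j0) = a + 2 * s
    rw [rect_col0 T hj hii, ← hz]
    apply zeta_rect hii
    · have h12 := hle i
      rw [min_eq_right (by omega), min_eq_right (by omega)]
      omega
    · have h12 := hle i'
      rw [min_eq_left (by omega), min_eq_left (by omega)]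
  choose! P hP1 hP2 hP3 hP4 using key
  have hcard : ((tabs r c).filter fun T => zeta r (T j0) = a).card
      ≤ ((univ : Finset (Fin m × Fin m)) ×ˢ
          ((tabs r c).filter fun T => zeta r (T j0) = a + 2 * s)).card := by
    apply Finset.card_le_card_of_injOn (fun T => (P T, rect T j0 j1 (P T).1 (P T).2 s))
    · intro T hT
      exact mem_coe.2 (mem_product.2 ⟨mem_univ _, hP4 T (mem_coe.1 hT)⟩)
    · intro T hT U hU hTU
      simp only [Prod.mk.injEq] at hTU
      have hT' := mem_coe.1 hT
      have hU' := mem_coe.1 hU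
      have h1 := hTU.1
      have h2 := hTU.2
      rw [← h1] at h2
      exact rect_inj hj (hP1 T hT') (hP2 T hT') (hP3 T hT') (h1 ▸ hP2 U hU') (h1 ▸ hP3 U hU') h2
  rw [card_product] at hcard
  simpa [Fintype.card_prod, pow_two] using hcard

/-- **Lemma T**. If another column is at least as large as column `j0` and `c j0 ≥ 4 m`, then for
every `a ≤ c j0 / (4 m)`, at most a fraction `8 m ^ 3 / c j0` of the tables have `zeta = a`. -/
theorem lemmaT_card {r : Fin m → ℕ} {c : Fin n → ℕ} {j0 j1 : Fin n} (hj : j0 ≠ j1)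
    (hc : c j0 ≤ c j1) {a : ℕ} (ha : 4 * m * a ≤ c j0) (hc0 : 4 * m ≤ c j0) (hm : 0 < m) :
    c j0 * ((tabs r c).filter fun T => zeta r (T j0) = a).card
      ≤ 8 * m ^ 3 * (tabs r c).card := by
  classical
  have hc1 : 0 < c j0 := by
    have : 0 < 4 * m := by omega
    omega
  set M := c j0 / (4 * m) with hM
  have hM1 : 4 * m * M ≤ c j0 := Nat.mul_div_le _ _
  have hM2 : c j0 < 4 * m * (M + 1) := by
    have := Nat.lt_mul_div_succ (c j0) (show 0 < 4 * m by omega)
    simpa [hM] using this
  have hM3 : 1 ≤ M := by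
    rw [hM]
    exact (Nat.one_le_div_iff (by omega)).2 hc0
  -- disjoint targets
  have h1 : ∑ s ∈ Finset.Icc 1 M, ((tabs r c).filter fun T => zeta r (T j0) = a + 2 * s).card
      ≤ (tabs r c).card := by
    rw [← Finset.card_biUnion]
    · apply Finset.card_le_card
      intro T hT
      obtain ⟨s, _, hs⟩ := mem_biUnion.1 hT
      exact (mem_filter.1 hs).1
    · intro s _ s' _ hss
      apply Finset.disjoint_left.2
      intro T hT hT'
      have h2 := (mem_filter.1 hT).2
      have h3 := (mem_filter.1 hT').2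
      apply hss
      omega
  -- each target is large
  have h2 : M * ((tabs r c).filter fun T => zeta r (T j0) = a).card ≤ m ^ 2 * (tabs r c).card := by
    calc M * ((tabs r c).filter fun T => zeta r (T j0) = a).card
        = ∑ _s ∈ Finset.Icc 1 M, ((tabs r c).filter fun T => zeta r (T j0) = a).card := by
          simp
      _ ≤ ∑ s ∈ Finset.Icc 1 M,
            m ^ 2 * ((tabs r c).filter fun T => zeta r (T j0) = a + 2 * s).card := by
          apply Finset.sum_le_sum
          intro s hs
          have hs' := Finset.mem_Icc.1 hs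
          apply card_zeta_le hj hc ha _ hc1 hs'.1
          exact (Nat.mul_le_mul_left _ hs'.2).trans hM1
      _ = m ^ 2 * ∑ s ∈ Finset.Icc 1 M,
            ((tabs r c).filter fun T => zeta r (T j0) = a + 2 * s).card := by
          rw [Finset.mul_sum]
      _ ≤ m ^ 2 * (tabs r c).card := Nat.mul_le_mul_left _ h1
  -- c j0 ≤ 8 m M
  have h3 : c j0 ≤ 8 * m * M := by
    have : 4 * m * (M + 1) ≤ 8 * m * M := by
      have h4 : 4 * m * (M + 1) = 4 * m * M + 4 * m := by ring
      have h5 : 8 * m * M = 4 * m * M + 4 * m * M := by ring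
      have h6 : 4 * m * 1 ≤ 4 * m * M := Nat.mul_le_mul_left _ hM3
      omega
    omega
  calc c j0 * ((tabs r c).filter fun T => zeta r (T j0) = a).card
      ≤ (8 * m * M) * ((tabs r c).filter fun T => zeta r (T j0) = a).card :=
        Nat.mul_le_mul_right _ h3
    _ = 8 * m * (M * ((tabs r c).filter fun T => zeta r (T j0) = a).card) := by ring
    _ ≤ 8 * m * (m ^ 2 * (tabs r c).card) := Nat.mul_le_mul_left _ h2
    _ = 8 * m ^ 3 * (tabs r c).card := by ring

/-- **Lemma T, summed form.** -/
theorem lemmaT_le {r : Fin m → ℕ} {c : Fin n → ℕ} {j0 j1 : Fin n} (hj : j0 ≠ j1)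
    (hc : c j0 ≤ c j1) {b : ℕ} (hb : 4 * m * b ≤ c j0) (hc0 : 4 * m ≤ c j0) (hm : 0 < m) :
    c j0 * ((tabs r c).filter fun T => zeta r (T j0) ≤ b).card
      ≤ 8 * m ^ 3 * (b + 1) * (tabs r c).card := by
  classical
  have h1 : ((tabs r c).filter fun T => zeta r (T j0) ≤ b).card
      ≤ ∑ a ∈ Finset.range (b + 1), ((tabs r c).filter fun T => zeta r (T j0) = a).card := by
    rw [← Finset.card_biUnion]
    · apply Finset.card_le_card
      intro T hT
      obtain ⟨h2, h3⟩ := mem_filter.1 hT
      exact mem_biUnion.2 ⟨zeta r (T j0), Finset.mem_range.2 (by omega), mem_filter.2 ⟨h2, rfl⟩⟩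
    · intro s _ s' _ hss
      apply Finset.disjoint_left.2
      intro T hT hT'
      exact hss ((mem_filter.1 hT).2.symm.trans (mem_filter.1 hT').2)
  calc c j0 * ((tabs r c).filter fun T => zeta r (T j0) ≤ b).card
      ≤ c j0 * ∑ a ∈ Finset.range (b + 1),
          ((tabs r c).filter fun T => zeta r (T j0) = a).card := Nat.mul_le_mul_left _ h1
    _ = ∑ a ∈ Finset.range (b + 1),
          c j0 * ((tabs r c).filter fun T => zeta r (T j0) = a).card := by rw [Finset.mul_sum]
    _ ≤ ∑ _a ∈ Finset.range (b + 1), 8 * m ^ 3 * (tabs r c).card := by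
        apply Finset.sum_le_sum
        intro a ha
        have ha' : a ≤ b := by
          have := Finset.mem_range.1 ha
          omega
        apply lemmaT_card hj hc _ hc0 hm
        exact (Nat.mul_le_mul_left _ ha').trans hb
    _ = 8 * m ^ 3 * (b + 1) * (tabs r c).card := by
        simp
        ring

/-- Lemma T in the form used by the counting algorithm: the first column of a table. -/
theorem lemmaT (r : Fin m → ℕ) (c0 : ℕ) (c' : Fin n → ℕ) (l : Fin n) (hl : c0 ≤ c' l) (hm : 0 < m)
    (hc0 : 8 * m ≤ c0) (a : ℕ) (ha : 4 * m * a ≤ c0) :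
    (((tabs r (Fin.cons c0 c')).filter fun T => zeta r (T 0) = a).card : ℝ) * c0
      ≤ 8 * (m : ℝ) ^ 3 * ((tabs r (Fin.cons c0 c')).card : ℝ) := by
  have h := lemmaT_card (r := r) (c := (Fin.cons c0 c' : Fin (n + 1) → ℕ)) (j0 := 0) (j1 := l.succ)
    (Fin.succ_ne_zero l).symm (by simpa using hl) (a := a) (by simpa using ha)
    (by
      have : 4 * m ≤ 8 * m := by omega
      simpa using this.trans hc0) hm
  simp only [Fin.cons_zero] at h
  have h2 : ((c0 * ((tabs r (Fin.cons c0 c')).filter fun T => zeta r (T 0) = a).card : ℕ) : ℝ)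
      ≤ ((8 * m ^ 3 * (tabs r (Fin.cons c0 c')).card : ℕ) : ℝ) := by
    exact_mod_cast h
  push_cast at h2
  linarith

end Vale.Agent.Lib.P328.Fpras
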