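import Vale.Agent.Lib.P328.Fpras.Instance
import Vale.Agent.Lib.P328.Fpras.Trial
import Vale.Agent.Lib.P328.Fpras.LemmaT

/-!
# P328, counting algorithm: the hypotheses of the abstract theorem for the tree of partial tables

`S = kids r c`, `A = Aat r c`, `q = rateAt P r c`, `N = Nat_ r c`. At an inner node, `c.drop v.length = c0 :: l`:
* `betaC_cons` (for `l = []`: `betaC` is one, `bw c0 1 c0 = 1`): `rate * A (x :: v) / A v = K / 2 * ratI`, so
  `dnI A q v x = (1 / 8) * (K / 2 * ratI)` and `trial_le`, `trial_eq_small`, `trial_trunc`, `trial_total_le` apply.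
* the rate: regime one `K = 1`: `1 / (14 sqrt cs) ≤ b0 / 2` by `bw_mode_sqrt` (or `l = []`, `b0 = 1`);
  regime two: `K = sqrt (d c0 / (14 m))`, `K b0 / 2 ≥ sqrt (d / (14 m)) / 14`. Upper bound: `C ≥ 2 c0`, `bw_sqrt_le`.
* truncation, `a = ⌈d c0⌉`: `K / 2 * ratI x = q v * A (x :: v) / A v ≤ ρ * N (x :: v) / N v`; the sum over `zeta x < a`
  counts tables with `zeta (T 0) < a` (`sum_first_col`, `card_fiber`), at most `a * 8 m ^ 3 / c0 * N v` by `lemmaT`
  (`4 m a' ≤ c0` since `d ≤ 1 / (8 m)`, `c0 ≥ 8 m`); `a ≤ d c0 + 1`.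
  `K exp (-a) ≤ sqrt y exp (-y) ≤ exp (-y / 2)`, `y = d c0 ≥ d cs`.
-/

namespace Vale.Agent.Lib.P328.Fpras

open Finset Vale.Agent.Lib.P328.Cap

variable {m : ℕ}

/-- The conditions on the parameters. -/
structure ParOK (P : Par) (m : ℕ) (ρ η : ℝ) : Prop where
  hm : 0 < m
  d_pos : 0 < P.d
  d_le : P.d ≤ 1 / (8 * (m : ℝ))
  cs_ge : 8 * m ≤ P.cs
  eta : ρ * (m : ℝ) ^ 3 * (P.d + 1 / (P.cs : ℝ)) + Real.exp (-(P.d * P.cs / 2)) / 8 ≤ η
  eta_le : η ≤ 1 / 4

/-- The lower bound of the rates. -/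
noncomputable def qLow (P : Par) (m : ℕ) : ℝ :=
  min (1 / (14 * Real.sqrt P.cs)) (Real.sqrt (P.d / (14 * (m : ℝ))) / 14)

/-! ### The rate of one node -/

section Rate

variable {P : Par} {ρ η : ℝ} {n c0 : ℕ}

theorem K_pos_reg (h : 0 < n ∧ P.cs < c0) :
    P.K m n c0 = Real.sqrt (P.d * c0 / (14 * m)) := by
  unfold Par.K Par.V0
  rw [if_pos h, if_pos h]

theorem K_neg_reg (h : ¬ (0 < n ∧ P.cs < c0)) : P.K m n c0 = 1 := by
  unfold Par.K
  rw [if_neg h]

theorem K_nonneg : 0 ≤ P.K m n c0 := by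
  unfold Par.K
  split_ifs
  · exact Real.sqrt_nonneg _
  · exact zero_le_one

theorem bw_self_one {c0 : ℕ} (hc0 : 0 < c0) : bw c0 ((c0 : ℝ) / (c0 : ℕ)) c0 = 1 := by
  unfold bw
  have h : (c0 : ℝ) ≠ 0 := by exact_mod_cast hc0.ne'
  simp [div_self h]

theorem bw_le_one' {R v : ℕ} {p : ℝ} (h0 : 0 ≤ p) (h1 : p ≤ 1) (hv : v ≤ R) : bw R p v ≤ 1 := by
  rw [← sum_bw_eq_one R p]
  exact Finset.single_le_sum (f := fun v => bw R p v) (fun w _ => bw_nonneg h0 h1 w)
    (Finset.mem_range.2 (by omega))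

theorem sqrt_cs_ge (hP : ParOK P m ρ η) : 1 ≤ Real.sqrt (P.cs : ℝ) := by
  have h := hP.cs_ge
  have hm := hP.hm
  have h1 : (1 : ℝ) ≤ (P.cs : ℝ) := by
    have : 1 ≤ P.cs := by omega
    exact_mod_cast this
  rw [Real.le_sqrt' (by norm_num)]
  simpa using h1

/-- The lower bound of the rate. -/
theorem rate_ge (hP : ParOK P m ρ η) {l : List ℕ} (hc0 : 0 < c0) (hl : ∀ y ∈ l, 0 < y) :
    qLow P m ≤ P.rate m l.length c0 (c0 + l.sum) := by
  have hs1 := sqrt_cs_ge hP
  have hmr : (0 : ℝ) < m := by exact_mod_cast hP.hm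
  have hc0r : (0 : ℝ) < (c0 : ℝ) := by exact_mod_cast hc0
  unfold Par.rate
  cases l with
  | nil =>
    have hK : P.K m ([] : List ℕ).length c0 = 1 := K_neg_reg (by simp)
    rw [hK]
    simp only [List.sum_nil, add_zero]
    rw [bw_self_one hc0]
    refine (min_le_left _ _).trans ?_
    rw [div_le_iff₀ (by positivity)]
    nlinarith
  | cons y l' =>
    have hy : 0 < y := hl y (by simp)
    have hC : c0 < c0 + (y :: l').sum := by
      simp only [List.sum_cons]
      omega
    have hmode := bw_mode_sqrt hc0 hC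
    set b0 := bw (c0 + (y :: l').sum) ((c0 : ℝ) / ((c0 + (y :: l').sum : ℕ) : ℝ)) c0 with hb0
    have hsc : 0 < Real.sqrt (c0 : ℝ) := Real.sqrt_pos.2 hc0r
    by_cases hreg : 0 < (y :: l').length ∧ P.cs < c0
    · rw [K_pos_reg hreg]
      refine (min_le_right _ _).trans ?_
      have hd := hP.d_pos
      have e : Real.sqrt (P.d * c0 / (14 * m)) = Real.sqrt (P.d / (14 * m)) * Real.sqrt c0 := by
        rw [← Real.sqrt_mul (by positivity)]
        congr 1
        ring
      rw [e]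
      set σ := Real.sqrt (P.d / (14 * m)) with hσ
      have hσ0 : 0 ≤ σ := Real.sqrt_nonneg _
      have h2 : σ * (1 / 14) ≤ σ * (Real.sqrt c0 * b0 / 2) := by
        apply mul_le_mul_of_nonneg_left _ hσ0
        linarith
      calc σ / 14 = σ * (1 / 14) := by ring
        _ ≤ σ * (Real.sqrt c0 * b0 / 2) := h2
        _ = σ * Real.sqrt c0 * b0 / 2 := by ring
    · rw [K_neg_reg hreg, one_mul]
      refine (min_le_left _ _).trans ?_
      have hc : c0 ≤ P.cs := by
        by_contra hcon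
        exact hreg ⟨by simp, by omega⟩
      have hcr : (c0 : ℝ) ≤ (P.cs : ℝ) := by exact_mod_cast hc
      have h3 : Real.sqrt (c0 : ℝ) ≤ Real.sqrt (P.cs : ℝ) := Real.sqrt_le_sqrt hcr
      have h4 : 0 ≤ b0 := by
        apply bw_nonneg
        · positivity
        · rw [div_le_one (by exact_mod_cast (by omega : 0 < c0 + (y :: l').sum))]
          exact_mod_cast hC.le
      rw [div_le_div_iff₀ (by positivity) (by norm_num)]
      nlinarith

/-- The rate is at most one half. -/
theorem rate_le (hP : ParOK P m ρ η) {l : List ℕ} (hc0 : 0 < c0) (hl : ∀ y ∈ l, c0 ≤ y) :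
    P.rate m l.length c0 (c0 + l.sum) ≤ 1 / 2 := by
  have hmr : (0 : ℝ) < m := by exact_mod_cast hP.hm
  have hc0r : (0 : ℝ) < (c0 : ℝ) := by exact_mod_cast hc0
  unfold Par.rate
  cases l with
  | nil =>
    have hK : P.K m ([] : List ℕ).length c0 = 1 := K_neg_reg (by simp)
    rw [hK]
    simp only [List.sum_nil, add_zero]
    rw [bw_self_one hc0]
    norm_num
  | cons y l' =>
    have hy : c0 ≤ y := hl y (by simp)
    set C := c0 + (y :: l').sum with hC
    have hC2 : 2 * c0 ≤ C := by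
      simp only [hC, List.sum_cons]
      omega
    have hCr : (2 : ℝ) * c0 ≤ (C : ℝ) := by exact_mod_cast hC2
    have hC0 : (0 : ℝ) < (C : ℝ) := by linarith
    set p : ℝ := (c0 : ℝ) / (C : ℝ) with hp
    have hp0 : 0 ≤ p := by positivity
    have hp1 : p ≤ 1 := by
      rw [hp, div_le_one hC0]
      linarith
    have hb0 : 0 ≤ bw C p c0 := bw_nonneg hp0 hp1 _
    by_cases hreg : 0 < (y :: l').length ∧ P.cs < c0
    · rw [K_pos_reg hreg]
      have hd := hP.d_pos
      have hV : (c0 : ℝ) / 2 ≤ (C : ℝ) * p * (1 - p) := by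
        have e : (C : ℝ) * p * (1 - p) = (c0 : ℝ) * (1 - p) := by
          rw [hp]
          field_simp
        rw [e]
        have hp2 : p ≤ 1 / 2 := by
          rw [hp, div_le_iff₀ hC0]
          linarith
        nlinarith
      have hsq := bw_sqrt_le C c0 hp0 hp1
      have hK : Real.sqrt (P.d * c0 / (14 * m)) ≤ Real.sqrt ((C : ℝ) * p * (1 - p)) := by
        apply Real.sqrt_le_sqrt
        refine le_trans ?_ hV
        have hd2 := hP.d_le
        have h2 : P.d ≤ 1 := by
          refine hd2.trans ?_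
          rw [div_le_one (by positivity)]
          have : (1 : ℝ) ≤ m := by exact_mod_cast hP.hm
          linarith
        have hm1 : (1 : ℝ) ≤ m := by exact_mod_cast hP.hm
        rw [div_le_iff₀ (by positivity)]
        have h3 : P.d * c0 ≤ 1 * c0 := mul_le_mul_of_nonneg_right h2 hc0r.le
        have h4 : (c0 : ℝ) * 1 ≤ c0 * m := mul_le_mul_of_nonneg_left hm1 hc0r.le
        nlinarith
      have h5 : Real.sqrt (P.d * c0 / (14 * m)) * bw C p c0 ≤ 1 := by
        calc _ ≤ Real.sqrt ((C : ℝ) * p * (1 - p)) * bw C p c0 :=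
              mul_le_mul_of_nonneg_right hK hb0
          _ = bw C p c0 * Real.sqrt ((C : ℝ) * p * (1 - p)) := by ring
          _ ≤ 1 := hsq
      linarith
    · rw [K_neg_reg hreg, one_mul]
      have h6 := bw_le_one' (R := C) (v := c0) hp0 hp1 (by omega)
      linarith

theorem rate_nonneg {C : ℕ} (hc : c0 ≤ C) : 0 ≤ P.rate m n c0 C := by
  unfold Par.rate
  have hK : 0 ≤ P.K m n c0 := K_nonneg
  rcases Nat.eq_zero_or_pos C with h | h
  · subst h
    have : c0 = 0 := by omega
    subst this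
    simp [bw]
    positivity
  · have hC0 : (0 : ℝ) < (C : ℝ) := by exact_mod_cast h
    have h1 : (0 : ℝ) ≤ (c0 : ℝ) / C := by positivity
    have h2 : (c0 : ℝ) / C ≤ 1 := by
      rw [div_le_one hC0]
      exact_mod_cast hc
    have := bw_nonneg (R := C) (v := c0) h1 h2
    positivity

/-- The factor `betaC` for one more column. -/
theorem betaC_cons_list {c0 : ℕ} {l : List ℕ} (hc0 : 0 < c0) (hl : ∀ y ∈ l, 0 < y) :
    betaC (Fin.cons c0 l.get : Fin (l.length + 1) → ℕ)
      = bw (c0 + l.sum) ((c0 : ℝ) / ((c0 + l.sum : ℕ) : ℝ)) c0 * betaC l.get := by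
  cases l with
  | nil =>
    simp only [List.sum_nil, add_zero]
    rw [bw_self_one hc0]
    unfold betaC
    have h : (c0 : ℝ) ≠ 0 := by exact_mod_cast hc0.ne'
    have hf : ((c0.factorial : ℕ) : ℝ) ≠ 0 := by exact_mod_cast (Nat.factorial_pos c0).ne'
    have hp : (c0 : ℝ) ^ c0 ≠ 0 := pow_ne_zero _ h
    simp
    field_simp
  | cons y l' =>
    have hy : 0 < y := hl y (by simp)
    have hD : 0 < ∑ j, (y :: l').get j := by
      rw [sum_get]
      simp only [List.sum_cons]
      omega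
    have h := betaC_cons c0 (y :: l').get hc0 hD
    rw [h, sum_get]

/-- The rate times the ratio of the estimates is the ideal probability of a trial. -/
theorem rate_ratio {r' x : Fin m → ℕ} {l : List ℕ} (hc0 : 0 < c0) (hl : ∀ y ∈ l, 0 < y)
    (hA : 0 < Aval r' (Fin.cons c0 l.get : Fin (l.length + 1) → ℕ)) :
    P.rate m l.length c0 (c0 + l.sum) * Aval (fun i => r' i - x i) l.get
        / Aval r' (Fin.cons c0 l.get : Fin (l.length + 1) → ℕ)
      = P.K m l.length c0 / 2 * ratI r' c0 l.get x := by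
  unfold Par.rate Aval ratI at *
  rw [betaC_cons_list hc0 hl] at hA ⊢
  set b0 := bw (c0 + l.sum) ((c0 : ℝ) / ((c0 + l.sum : ℕ) : ℝ)) c0 with hb0
  set β := betaC l.get with hβ
  set Iv := (Ihat r' (Fin.cons c0 l.get : Fin (l.length + 1) → ℕ)).toReal with hIv
  set Ix := (Ihat (fun i => r' i - x i) l.get).toReal with hIx
  have h1 : b0 * β * Iv ≠ 0 := hA.ne'
  have hb : b0 ≠ 0 := fun h => h1 (by rw [h]; ring)
  have hβ0 : β ≠ 0 := fun h => h1 (by rw [h]; ring)
  have hI : Iv ≠ 0 := fun h => h1 (by rw [h]; ring)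
  field_simp

end Rate

/-! ### Counting the first columns near a vertex -/

section Count

variable {n : ℕ}

/-- The tables whose first column has small `zeta`. -/
theorem count_zeta_lt (r' : Fin m → ℕ) (c0 : ℕ) (c' : Fin n → ℕ) (jj : Fin n) (hj : c0 ≤ c' jj)
    (hm : 0 < m) (hc0 : 8 * m ≤ c0) (a : ℕ) (ha : ∀ a' < a, 4 * m * a' ≤ c0) :
    (∑ x ∈ (lev r' c0).filter (fun x => zeta r' x < a),
        ((tabs (fun i => r' i - x i) c').card : ℝ)) * c0
      ≤ 8 * (m : ℝ) ^ 3 * a * ((tabs r' (Fin.cons c0 c')).card : ℝ) := by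
  classical
  have h1 := sum_first_col r' c0 c' (fun x => if zeta r' x < a then (1 : ℝ) else 0)
  have h2 : ∑ x ∈ (lev r' c0).filter (fun x => zeta r' x < a),
        ((tabs (fun i => r' i - x i) c').card : ℝ)
      = ∑ T ∈ tabs r' (Fin.cons c0 c'), if zeta r' (T 0) < a then (1 : ℝ) else 0 := by
    rw [h1, Finset.sum_filter]
    refine Finset.sum_congr rfl fun x _ => ?_
    split_ifs <;> simp
  rw [h2]
  have h3 : (∑ T ∈ tabs r' (Fin.cons c0 c'), if zeta r' (T 0) < a then (1 : ℝ) else 0)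
      = ∑ a' ∈ Finset.range a,
        (((tabs r' (Fin.cons c0 c')).filter fun T => zeta r' (T 0) = a').card : ℝ) := by
    have h4 : ∀ T : Fin (n + 1) → Fin m → ℕ, (if zeta r' (T 0) < a then (1 : ℝ) else 0)
        = ∑ a' ∈ Finset.range a, if zeta r' (T 0) = a' then (1 : ℝ) else 0 := by
      intro T
      rw [Finset.sum_ite_eq]
      simp
    simp only [h4]
    rw [Finset.sum_comm]
    refine Finset.sum_congr rfl fun a' _ => ?_
    rw [Finset.card_filter]
    push_cast
    rfl
  rw [h3, Finset.sum_mul]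
  calc ∑ a' ∈ Finset.range a,
        (((tabs r' (Fin.cons c0 c')).filter fun T => zeta r' (T 0) = a').card : ℝ) * c0
      ≤ ∑ _a' ∈ Finset.range a, 8 * (m : ℝ) ^ 3 * ((tabs r' (Fin.cons c0 c')).card : ℝ) :=
        Finset.sum_le_sum fun a' ha' =>
          lemmaT r' c0 c' jj hj hm hc0 a' (ha a' (Finset.mem_range.1 ha'))
    _ = _ := by
        rw [Finset.sum_const, Finset.card_range, nsmul_eq_mul]
        ring

end Count

/-! ### The nodes -/

section Nodes

variable {P : Par} {sol : Sol m} {r : Fin m → ℕ} {c : List ℕ} {ρ η : ℝ}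

theorem exists_drop_of_kids {v : List (Fin m → ℕ)} {x : Fin m → ℕ} (hx : x ∈ kids r c v) :
    ∃ c0 l, c.drop v.length = c0 :: l := by
  cases h : c.drop v.length with
  | nil =>
    unfold kids at hx
    rw [h] at hx
    simp at hx
  | cons c0 l => exact ⟨c0, l, rfl⟩

theorem kids_inner {v : List (Fin m → ℕ)} {c0 : ℕ} {l : List ℕ} (hd : c.drop v.length = c0 :: l) :
    kids r c v = lev (res r v) c0 := by
  unfold kids
  rw [hd]

theorem kids_nil {v : List (Fin m → ℕ)} (hd : c.drop v.length = []) : kids r c v = ∅ := by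
  unfold kids
  rw [hd]

theorem rateAt_inner {v : List (Fin m → ℕ)} {c0 : ℕ} {l : List ℕ} (hd : c.drop v.length = c0 :: l) :
    rateAt P r c v = P.rate m l.length c0 (∑ i, res r v i) := by
  unfold rateAt
  rw [hd]

theorem rateAt_nil {v : List (Fin m → ℕ)} (hd : c.drop v.length = []) : rateAt P r c v = 0 := by
  unfold rateAt
  rw [hd]

theorem downAt_inner {v : List (Fin m → ℕ)} {c0 : ℕ} {l : List ℕ} (hd : c.drop v.length = c0 :: l)
    (x : Fin m → ℕ) :
    downAt P sol r c v x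
      = (1 / 8) * (trialM P (res r v) c0 l.get (sol (res r v) c0 l) x).toReal := by
  unfold downAt
  rw [hd]

theorem Aat_inner {v : List (Fin m → ℕ)} {c0 : ℕ} {l : List ℕ} (hd : c.drop v.length = c0 :: l) :
    Aat r c v = Aval (res r v) (Fin.cons c0 l.get : Fin (l.length + 1) → ℕ) := by
  unfold Aat
  rw [hd, list_get_cons]

theorem Nat_inner {v : List (Fin m → ℕ)} {c0 : ℕ} {l : List ℕ} (hd : c.drop v.length = c0 :: l) :
    Nat_ r c v = ((tabs (res r v) (Fin.cons c0 l.get : Fin (l.length + 1) → ℕ)).card : ℝ) := by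
  unfold Nat_
  rw [hd, list_get_cons]

theorem drop_child {v : List (Fin m → ℕ)} {c0 : ℕ} {l : List ℕ} (hd : c.drop v.length = c0 :: l)
    (x : Fin m → ℕ) : c.drop (x :: v).length = l := by
  simp only [List.length_cons]
  rw [← List.drop_drop, hd]
  simp

theorem Aat_child {v : List (Fin m → ℕ)} {c0 : ℕ} {l : List ℕ} (hd : c.drop v.length = c0 :: l)
    {x : Fin m → ℕ} (hx : x ∈ kids r c v) :
    Aat r c (x :: v) = Aval (fun i => res r v i - x i) l.get := by
  unfold Aat
  rw [drop_child hd x, res_cons r c hx]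

theorem Nat_child {v : List (Fin m → ℕ)} {c0 : ℕ} {l : List ℕ} (hd : c.drop v.length = c0 :: l)
    {x : Fin m → ℕ} (hx : x ∈ kids r c v) :
    Nat_ r c (x :: v) = ((tabs (fun i => res r v i - x i) l.get).card : ℝ) := by
  unfold Nat_
  rw [drop_child hd x, res_cons r c hx]

end Nodes

section

variable {P : Par} {sol : Sol m} {r : Fin m → ℕ} {c : List ℕ} {ρ η : ℝ}

/-- The facts at an inner node. -/
theorem inner_facts (hc : c.Pairwise (· ≤ ·)) (hpos : ∀ y ∈ c, 0 < y) (hsum : ∑ i, r i = c.sum)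
    {v : List (Fin m → ℕ)} (hv : v ∈ nodes (kids r c) c.length) {c0 : ℕ} {l : List ℕ}
    (hd : c.drop v.length = c0 :: l) :
    0 < c0 ∧ (∀ y ∈ l, 0 < y) ∧ (∀ y ∈ l, c0 ≤ y) ∧ ∑ i, res r v i = c0 + l.sum := by
  have h1 : ∀ y ∈ c0 :: l, 0 < y := fun y hy =>
    hpos y (List.mem_of_mem_drop (by rw [hd]; exact hy))
  have h2 : (c0 :: l).Pairwise (· ≤ ·) := by
    rw [← hd]
    exact hc.sublist (List.drop_sublist _ _)
  have h3 := res_balance r c hsum hv
  rw [hd] at h3
  refine ⟨h1 c0 (by simp), fun y hy => h1 y (by simp [hy]), ?_, by simpa using h3⟩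
  exact fun y hy => (List.pairwise_cons.1 h2).1 y hy

/-- The numerical minimiser at a node. -/
theorem nodeSol_of (hsol : IsSolver sol) {r' : Fin m → ℕ} {c0 : ℕ} {l : List ℕ}
    (hbal : ∑ i, r' i = c0 + l.sum) :
    NodeSol r' c0 l.get (sol r' c0 l) where
  meas := hsol.meas r' c0 l
  pos := hsol.pos r' c0 l
  near := fun t ht => hsol.near r' c0 l t hbal ht

theorem rateAt_bounds (hP : ParOK P m ρ η) (hc : c.Pairwise (· ≤ ·)) (hpos : ∀ y ∈ c, 0 < y)
    (hsum : ∑ i, r i = c.sum) {v : List (Fin m → ℕ)} (hv : v ∈ nodes (kids r c) c.length) :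
    0 ≤ rateAt P r c v ∧ rateAt P r c v ≤ 1 / 2 := by
  cases hd : c.drop v.length with
  | nil =>
    rw [rateAt_nil hd]
    norm_num
  | cons c0 l =>
    obtain ⟨h1, _, h3, h4⟩ := inner_facts hc hpos hsum hv hd
    rw [rateAt_inner hd, h4]
    exact ⟨rate_nonneg (by omega), rate_le hP h1 h3⟩

/-- The ideal move to a child in terms of the law of a trial. -/
theorem dnI_eq (hc : c.Pairwise (· ≤ ·)) (hpos : ∀ y ∈ c, 0 < y) (hsum : ∑ i, r i = c.sum)
    (hA : ∀ v ∈ nodes (kids r c) c.length, 0 < Aat r c v)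
    {v : List (Fin m → ℕ)} (hv : v ∈ nodes (kids r c) c.length) {c0 : ℕ} {l : List ℕ}
    (hd : c.drop v.length = c0 :: l) {x : Fin m → ℕ} (hx : x ∈ kids r c v) :
    dnI (Aat r c) (rateAt P r c) v x
      = (1 / 8) * (P.K m l.length c0 / 2 * ratI (res r v) c0 l.get x) := by
  obtain ⟨h1, h2, _, h4⟩ := inner_facts hc hpos hsum hv hd
  have hAv := hA v hv
  rw [Aat_inner hd] at hAv
  have h5 := rate_ratio (P := P) (x := x) h1 h2 hAv
  unfold dnI
  rw [rateAt_inner hd, h4, Aat_child hd hx, Aat_inner hd, ← h5]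
  ring

theorem Ihat_ne_zero_of_Aval {n : ℕ} {r' : Fin m → ℕ} {c' : Fin n → ℕ} (h : 0 < Aval r' c') :
    Ihat r' c' ≠ 0 := by
  intro h0
  unfold Aval at h
  rw [h0] at h
  simp at h

/-- The numbers for the exponential term. -/
theorem K_exp_le (hP : ParOK P m ρ η) {c0 : ℕ} (hc : P.cs < c0) {a : ℕ} (ha : P.d * c0 ≤ a) :
    Real.sqrt (P.d * c0 / (14 * m)) * Real.exp (-(a : ℝ)) ≤ Real.exp (-(P.d * P.cs / 2)) := by
  have hd := hP.d_pos
  have hm1 : (1 : ℝ) ≤ m := by exact_mod_cast hP.hm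
  have hc0 : (0 : ℝ) < (c0 : ℝ) := by
    have : 0 < c0 := by omega
    exact_mod_cast this
  set y : ℝ := P.d * c0 with hy
  have hy0 : 0 < y := by positivity
  have h1 : Real.sqrt (y / (14 * m)) ≤ Real.sqrt y := by
    apply Real.sqrt_le_sqrt
    rw [div_le_iff₀ (by positivity)]
    nlinarith
  have h2 : Real.sqrt y ≤ Real.exp (y / 2) := by
    have h3 := Real.add_one_le_exp (y / 2)
    have h4 := Real.sq_sqrt hy0.le
    have h5 := Real.sqrt_nonneg y
    nlinarith [sq_nonneg (Real.sqrt y - 1)]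
  have h6 : Real.exp (-(a : ℝ)) ≤ Real.exp (-y) := Real.exp_le_exp.2 (by linarith)
  have h7 : P.d * P.cs ≤ y := by
    have : (P.cs : ℝ) ≤ c0 := by exact_mod_cast hc.le
    exact mul_le_mul_of_nonneg_left this hd.le
  calc Real.sqrt (y / (14 * m)) * Real.exp (-(a : ℝ))
      ≤ Real.exp (y / 2) * Real.exp (-y) :=
        mul_le_mul (h1.trans h2) h6 (Real.exp_pos _).le (Real.exp_pos _).le
    _ = Real.exp (-(y / 2)) := by
        rw [← Real.exp_add]
        congr 1
        ring
    _ ≤ _ := Real.exp_le_exp.2 (by linarith)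

/-- The truncation error at a node of the second regime. -/
theorem defect_reg2 (hsol : IsSolver sol) (hc : c.Pairwise (· ≤ ·)) (hpos : ∀ y ∈ c, 0 < y)
    (hsum : ∑ i, r i = c.sum) (hρ : 1 ≤ ρ)
    (hA : ∀ v ∈ nodes (kids r c) c.length, 0 < Aat r c v)
    (hAN : ∀ v ∈ nodes (kids r c) c.length, Aat r c v ≤ Nat_ r c v)
    (hNA : ∀ v ∈ nodes (kids r c) c.length, Nat_ r c v ≤ ρ * Aat r c v)
    (hP : ParOK P m ρ η) {v : List (Fin m → ℕ)} (hv : v ∈ nodes (kids r c) c.length) {c0 : ℕ}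
    {l : List ℕ} (hd : c.drop v.length = c0 :: l) (hreg : 0 < l.length ∧ P.cs < c0) :
    ∑ x ∈ lev (res r v) c0, (P.K m l.length c0 / 2 * ratI (res r v) c0 l.get x
        - (trialM P (res r v) c0 l.get (sol (res r v) c0 l) x).toReal) ≤ 8 * η := by
  obtain ⟨h1, h2, h3, h4⟩ := inner_facts hc hpos hsum hv hd
  set r' := res r v with hr'
  have hbal : ∑ i, r' i = c0 + ∑ j, l.get j := by
    rw [sum_get]
    exact h4
  have hs := nodeSol_of hsol (r' := r') (c0 := c0) (l := l) h4
  have hAv := hA v hv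
  rw [Aat_inner hd] at hAv
  have hI := Ihat_ne_zero_of_Aval hAv
  have hd0 := hP.d_pos
  have hm := hP.hm
  have hmr : (0 : ℝ) < m := by exact_mod_cast hm
  have hc0r : (0 : ℝ) < (c0 : ℝ) := by exact_mod_cast h1
  have hcs0 : 0 < P.cs := by
    have := hP.cs_ge
    omega
  have hcsr : (0 : ℝ) < (P.cs : ℝ) := by exact_mod_cast hcs0
  have hcsc : (P.cs : ℝ) ≤ c0 := by exact_mod_cast hreg.2.le
  set a := ⌈P.d * c0⌉₊ with ha
  have ha1 : P.d * c0 ≤ a := Nat.le_ceil _
  have ha2 : (a : ℝ) < P.d * c0 + 1 := Nat.ceil_lt_add_one (by positivity)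
  have ht := trial_trunc (P := P) (r := r') (c0 := c0) (c' := l.get) (sol := sol r' c0 l) hs hbal hI
    hm hd0.le hreg a ha1
  -- the sum over the first columns near a vertex
  have hdm : 4 * (m : ℝ) * P.d ≤ 1 / 2 := by
    have h5 := hP.d_le
    have h6 : (m : ℝ) * P.d ≤ 1 / 8 := by
      have h7 : (m : ℝ) * P.d ≤ m * (1 / (8 * m)) := mul_le_mul_of_nonneg_left h5 hmr.le
      have h8 : (m : ℝ) * (1 / (8 * m)) = 1 / 8 := by
        field_simp
      linarith
    linarith
  have hcount := count_zeta_lt r' c0 l.get ⟨0, hreg.1⟩ (h3 _ (List.get_mem _ _)) hm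
    (hP.cs_ge.trans hreg.2.le) a (by
      intro a' ha'
      have h5 : ((a' : ℝ) + 1) ≤ a := by exact_mod_cast ha'
      have h6 : (a' : ℝ) ≤ P.d * c0 := by linarith
      have h7 : ((4 * m * a' : ℕ) : ℝ) ≤ c0 := by
        push_cast
        have h8 : 4 * (m : ℝ) * a' ≤ 4 * m * (P.d * c0) :=
          mul_le_mul_of_nonneg_left h6 (by positivity)
        have h9 : 4 * (m : ℝ) * (P.d * c0) = (4 * m * P.d) * c0 := by ring
        have h10 : (4 * (m : ℝ) * P.d) * c0 ≤ 1 / 2 * c0 := mul_le_mul_of_nonneg_right hdm hc0r.le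
        linarith
      exact_mod_cast h7)
  set F := (lev r' c0).filter (fun x => zeta r' x < a) with hF
  set Nv : ℝ := ((tabs r' (Fin.cons c0 l.get : Fin (l.length + 1) → ℕ)).card : ℝ) with hNv
  have hNv1 : Nat_ r c v = Nv := Nat_inner hd
  have hNvA := hNA v hv
  have hANv := hAN v hv
  rw [hNv1, Aat_inner hd] at hNvA hANv
  have hNv0 : 0 < Nv := lt_of_lt_of_le hAv hANv
  have hρ0 : 0 < ρ := by linarith
  set Av := Aval r' (Fin.cons c0 l.get : Fin (l.length + 1) → ℕ) with hAvdef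
  have hterm : ∀ x ∈ F, P.K m l.length c0 / 2 * ratI r' c0 l.get x
      ≤ (ρ / (2 * Nv)) * ((tabs (fun i => r' i - x i) l.get).card : ℝ) := by
    intro x hx
    have hx1 : x ∈ lev r' c0 := (mem_filter.1 hx).1
    have hxk : x ∈ kids r c v := by
      rw [kids_inner hd]
      exact hx1
    have hnode : x :: v ∈ nodes (kids r c) c.length :=
      (cons_mem_nodes (fun w hw => kids_empty r c w hw)).2 ⟨hv, hxk⟩
    have h5 := hAN _ hnode
    have h5' := hA _ hnode
    rw [Aat_child hd hxk, Nat_child hd hxk] at h5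
    rw [Aat_child hd hxk] at h5'
    rw [← rate_ratio (P := P) (x := x) h1 h2 hAv]
    have hrate0 : 0 ≤ P.rate m l.length c0 (c0 + l.sum) := rate_nonneg (by omega)
    have hrate1 : P.rate m l.length c0 (c0 + l.sum) ≤ 1 / 2 := rate_le hP h1 h3
    set Ax := Aval (fun i => r' i - x i) l.get with hAx
    set Nx : ℝ := ((tabs (fun i => r' i - x i) l.get).card : ℝ) with hNx
    rw [div_le_iff₀ hAv]
    have h6 : P.rate m l.length c0 (c0 + l.sum) * Ax ≤ 1 / 2 * Nx :=
      mul_le_mul hrate1 h5 h5'.le (by norm_num)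
    have h7 : 1 / 2 * Nx ≤ ρ / (2 * Nv) * Nx * Av := by
      have h8 : ρ / (2 * Nv) * Nx * Av = (1 / 2 * Nx) * (ρ * Av / Nv) := by
        field_simp
      rw [h8]
      have h9 : 1 ≤ ρ * Av / Nv := by
        rw [le_div_iff₀ hNv0]
        linarith
      have h10 : 0 ≤ 1 / 2 * Nx := by positivity
      nlinarith
    linarith
  have hsumF : P.K m l.length c0 / 2 * ∑ x ∈ F, ratI r' c0 l.get x
      ≤ 4 * (ρ * (m : ℝ) ^ 3 * (P.d + 1 / (P.cs : ℝ))) := by
    rw [Finset.mul_sum]
    refine (Finset.sum_le_sum hterm).trans ?_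
    rw [← Finset.mul_sum]
    set SN := ∑ x ∈ F, ((tabs (fun i => r' i - x i) l.get).card : ℝ) with hSN
    have hSN0 : 0 ≤ SN := Finset.sum_nonneg fun x _ => Nat.cast_nonneg _
    -- SN c0 ≤ 8 m^3 a Nv
    have h5 : ρ / (2 * Nv) * SN = (ρ / (2 * Nv * c0)) * (SN * c0) := by
      field_simp
    rw [h5]
    have h6 : (ρ / (2 * Nv * c0)) * (SN * c0) ≤ (ρ / (2 * Nv * c0)) * (8 * (m : ℝ) ^ 3 * a * Nv) :=
      mul_le_mul_of_nonneg_left hcount (by positivity)
    refine h6.trans ?_
    have h7 : (ρ / (2 * Nv * c0)) * (8 * (m : ℝ) ^ 3 * a * Nv) = 4 * (ρ * (m : ℝ) ^ 3 * (a / c0)) := by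
      field_simp
      ring
    rw [h7]
    have h8 : (a : ℝ) / c0 ≤ P.d + 1 / (P.cs : ℝ) := by
      rw [div_le_iff₀ hc0r]
      have h9 : (P.d + 1 / (P.cs : ℝ)) * c0 = P.d * c0 + c0 / P.cs := by
        field_simp
      rw [h9]
      have h10 : 1 ≤ (c0 : ℝ) / P.cs := by
        rw [le_div_iff₀ hcsr]
        linarith
      linarith
    have h11 : 0 ≤ ρ * (m : ℝ) ^ 3 := by positivity
    have h12 := mul_le_mul_of_nonneg_left h8 h11
    linarith
  have hexp : P.K m l.length c0 * Real.exp (-(a : ℝ)) ≤ Real.exp (-(P.d * P.cs / 2)) := by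
    rw [K_pos_reg hreg]
    exact K_exp_le hP hreg.2 ha1
  have heta := hP.eta
  have hpos1 : 0 ≤ ρ * (m : ℝ) ^ 3 * (P.d + 1 / (P.cs : ℝ)) := by positivity
  have ht' : ∑ x ∈ lev r' c0, (P.K m l.length c0 / 2 * ratI r' c0 l.get x
        - (trialM P r' c0 l.get (sol r' c0 l) x).toReal)
      ≤ P.K m l.length c0 / 2 * ∑ x ∈ F, ratI r' c0 l.get x
        + P.K m l.length c0 * Real.exp (-(a : ℝ)) := ht
  linarith

/-- All the hypotheses. `hH`: the two-sided bound at all nodes, `A > 0` follows from it. -/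
theorem chain_hyp (hsol : IsSolver sol) (hc : c.Pairwise (· ≤ ·)) (hpos : ∀ y ∈ c, 0 < y)
    (hsum : ∑ i, r i = c.sum) (hρ : 1 ≤ ρ)
    (hA : ∀ v ∈ nodes (kids r c) c.length, 0 < Aat r c v)
    (hAN : ∀ v ∈ nodes (kids r c) c.length, Aat r c v ≤ Nat_ r c v)
    (hNA : ∀ v ∈ nodes (kids r c) c.length, Nat_ r c v ≤ ρ * Aat r c v)
    (hP : ParOK P m ρ η) :
    (upAt P r c = upI (rateAt P r c))
    ∧ (∀ s ∈ nodes (kids r c) c.length, s ≠ [] → qLow P m ≤ rateAt P r c s.tail)
    ∧ (∀ v ∈ nodes (kids r c) c.length, 0 ≤ upI (rateAt P r c) v)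
    ∧ (∀ v ∈ nodes (kids r c) c.length, ∀ x ∈ kids r c v, 0 ≤ dnI (Aat r c) (rateAt P r c) v x)
    ∧ (∀ v ∈ nodes (kids r c) c.length, upI (rateAt P r c) v
        + ∑ x ∈ kids r c v, dnI (Aat r c) (rateAt P r c) v x ≤ 1 / 2)
    ∧ (∀ v ∈ nodes (kids r c) c.length, ∀ x ∈ kids r c v, 0 ≤ downAt P sol r c v x)
    ∧ (∀ v ∈ nodes (kids r c) c.length, ∀ x ∈ kids r c v,
        downAt P sol r c v x ≤ dnI (Aat r c) (rateAt P r c) v x)
    ∧ (∀ v ∈ nodes (kids r c) c.length,
        ∑ x ∈ kids r c v, (dnI (Aat r c) (rateAt P r c) v x - downAt P sol r c v x) ≤ η) := by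
  have hS : ∀ v : List (Fin m → ℕ), c.length ≤ v.length → kids r c v = ∅ :=
    fun v h => kids_empty r c v h
  have hd0 := hP.d_pos
  have hm := hP.hm
  have hmr : (0 : ℝ) < m := by exact_mod_cast hm
  have hcs0 : 0 < P.cs := by
    have := hP.cs_ge
    omega
  have hcsr : (0 : ℝ) < (P.cs : ℝ) := by exact_mod_cast hcs0
  have hρ0 : 0 < ρ := by linarith
  have heta0 : 0 ≤ η := by
    have h1 : 0 ≤ ρ * (m : ℝ) ^ 3 * (P.d + 1 / (P.cs : ℝ)) := by positivity
    have h2 := hP.eta
    have h3 := Real.exp_pos (-(P.d * P.cs / 2))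
    linarith
  -- the last conjunct first
  have hdefect : ∀ v ∈ nodes (kids r c) c.length,
      ∑ x ∈ kids r c v, (dnI (Aat r c) (rateAt P r c) v x - downAt P sol r c v x) ≤ η := by
    intro v hv
    cases hd : c.drop v.length with
    | nil =>
      rw [kids_nil hd]
      simpa using heta0
    | cons c0 l =>
      obtain ⟨h1, h2, h3, h4⟩ := inner_facts hc hpos hsum hv hd
      have hterm : ∀ x ∈ kids r c v, dnI (Aat r c) (rateAt P r c) v x - downAt P sol r c v x
          = (1 / 8) * (P.K m l.length c0 / 2 * ratI (res r v) c0 l.get x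
            - (trialM P (res r v) c0 l.get (sol (res r v) c0 l) x).toReal) := by
        intro x hx
        rw [dnI_eq hc hpos hsum hA hv hd hx, downAt_inner hd]
        ring
      rw [Finset.sum_congr rfl hterm, ← Finset.mul_sum, kids_inner hd]
      by_cases hreg : 0 < l.length ∧ P.cs < c0
      · have := defect_reg2 (sol := sol) hsol hc hpos hsum hρ hA hAN hNA hP hv hd hreg
        linarith
      · have hbal : ∑ i, res r v i = c0 + ∑ j, l.get j := by
          rw [sum_get]
          exact h4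
        have hs := nodeSol_of hsol (r' := res r v) (c0 := c0) (l := l) h4
        have hAv := hA v hv
        rw [Aat_inner hd] at hAv
        have hI := Ihat_ne_zero_of_Aval hAv
        have hzero : ∑ x ∈ lev (res r v) c0, (P.K m l.length c0 / 2 * ratI (res r v) c0 l.get x
            - (trialM P (res r v) c0 l.get (sol (res r v) c0 l) x).toReal) = 0 := by
          refine Finset.sum_eq_zero fun x hx => ?_
          rw [trial_eq_small hP.hm hs hbal hI hreg hx, K_neg_reg hreg]
          ring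
        rw [hzero]
        simpa using heta0
  have hdownnn : ∀ v ∈ nodes (kids r c) c.length, ∀ x ∈ kids r c v, 0 ≤ downAt P sol r c v x := by
    intro v _ x hx
    obtain ⟨c0, l, hd⟩ := exists_drop_of_kids hx
    rw [downAt_inner hd]
    have : 0 ≤ (trialM P (res r v) c0 l.get (sol (res r v) c0 l) x).toReal := ENNReal.toReal_nonneg
    positivity
  have hup : ∀ v ∈ nodes (kids r c) c.length,
      0 ≤ upI (rateAt P r c) v ∧ upI (rateAt P r c) v ≤ 1 / 16 := by
    intro v hv
    unfold upI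
    split_ifs with h0
    · norm_num
    · have h1 := rateAt_bounds (P := P) hP hc hpos hsum (tail_mem_nodes hS hv)
      constructor <;> linarith [h1.1, h1.2]
  refine ⟨?_, ?_, fun v hv => (hup v hv).1, ?_, ?_, hdownnn, ?_, hdefect⟩
  · funext v
    cases v with
    | nil => simp [upAt, upI]
    | cons x p => simp [upAt, upI]
  · intro s hs hs0
    cases s with
    | nil => exact absurd rfl hs0
    | cons x p =>
      simp only [List.tail_cons]
      obtain ⟨hp, hx⟩ := (cons_mem_nodes hS).1 hs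
      obtain ⟨c0, l, hd⟩ := exists_drop_of_kids hx
      obtain ⟨h1, h2, h3, h4⟩ := inner_facts hc hpos hsum hp hd
      rw [rateAt_inner hd, h4]
      exact rate_ge hP h1 h2
  · intro v hv x hx
    unfold dnI
    have h1 := (rateAt_bounds (P := P) hP hc hpos hsum hv).1
    have h2 := hA v hv
    have h3 := hA _ ((cons_mem_nodes hS).2 ⟨hv, hx⟩)
    positivity
  · intro v hv
    have h1 := hdefect v hv
    have h2 : ∑ x ∈ kids r c v, downAt P sol r c v x ≤ 1 / 8 := by
      cases hd : c.drop v.length with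
      | nil =>
        rw [kids_nil hd]
        norm_num
      | cons c0 l =>
        obtain ⟨h1, h2, h3, h4⟩ := inner_facts hc hpos hsum hv hd
        have hbal : ∑ i, res r v i = c0 + ∑ j, l.get j := by
          rw [sum_get]
          exact h4
        have hs := nodeSol_of hsol (r' := res r v) (c0 := c0) (l := l) h4
        have hAv := hA v hv
        rw [Aat_inner hd] at hAv
        have hI := Ihat_ne_zero_of_Aval hAv
        rw [kids_inner hd, Finset.sum_congr rfl (fun x _ => downAt_inner hd x), ← Finset.mul_sum]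
        have h5 := trial_total_le (P := P) hs hbal hI hd0.le
        linarith
    have h3 : ∑ x ∈ kids r c v, dnI (Aat r c) (rateAt P r c) v x
        = ∑ x ∈ kids r c v, (dnI (Aat r c) (rateAt P r c) v x - downAt P sol r c v x)
          + ∑ x ∈ kids r c v, downAt P sol r c v x := by
      rw [← Finset.sum_add_distrib]
      exact Finset.sum_congr rfl fun x _ => by ring
    have h4 := (hup v hv).2
    have h5 := hP.eta_le
    rw [h3]
    linarith
  · intro v hv x hx
    obtain ⟨c0, l, hd⟩ := exists_drop_of_kids hx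
    obtain ⟨h1, h2, h3, h4⟩ := inner_facts hc hpos hsum hv hd
    have hbal : ∑ i, res r v i = c0 + ∑ j, l.get j := by
      rw [sum_get]
      exact h4
    have hs := nodeSol_of hsol (r' := res r v) (c0 := c0) (l := l) h4
    have hAv := hA v hv
    rw [Aat_inner hd] at hAv
    have hI := Ihat_ne_zero_of_Aval hAv
    rw [dnI_eq hc hpos hsum hA hv hd hx, downAt_inner hd]
    have hx' : x ∈ lev (res r v) c0 := by
      rw [← kids_inner hd]
      exact hx
    have h5 := trial_le (P := P) hs hbal hI K_nonneg hx'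
    linarith

end

end Vale.Agent.Lib.P328.Fpras
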