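import Vale.Agent.Lib.P328.Cap.Main

/-!
# P328: a randomized counting algorithm for contingency tables, definitions

Tables are filled column by column. A node of the search tree is the list `v` of the columns filled
so far, the last one first; the parent of `x :: p` is `p`. The algorithm is a lazy walk on this tree
(`walk`), started at the root, and the estimate is computed from `R` independent runs (`runProb`).

The primitive random draws of one step of the walk are: a matrix `t` from the log-concave law
`wLaw`, binomial draws `bw`, and coins whose probabilities are closed forms in `capa`, `bw`, `t`.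
-/

namespace Vale.Agent.Lib.P328.Fpras

open Finset MeasureTheory Vale.Agent.Lib.P328.Cap
open scoped ENNReal Nat

variable {m n : ℕ}

/-! ### The general walk on a rooted tree of lists -/

section Walk

variable {X : Type} [DecidableEq X]

/-- The nodes of depth `l` of the tree whose node `v` has children `x :: v`, `x ∈ S v`. -/
def lvl (S : List X → Finset X) : ℕ → Finset (List X)
  | 0 => {[]}
  | l + 1 => (lvl S l).biUnion fun v => (S v).image fun x => x :: v

/-- The nodes of depth at most `D`. -/
def nodes (S : List X → Finset X) (D : ℕ) : Finset (List X) :=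
  (range (D + 1)).biUnion (lvl S)

/-- The transition to a child: `x :: v` has probability `down v x`. -/
noncomputable def toChild (S : List X → Finset X) (down : List X → X → ℝ) (v : List X) :
    List X → ℝ
  | [] => 0
  | x :: p => if p = v ∧ x ∈ S v then down v x else 0

/-- The transition to the parent: the tail of `v` has probability `up v`. -/
noncomputable def toParent (up : List X → ℝ) (v : List X) (w : List X) : ℝ :=
  if v ≠ [] ∧ v.tail = w then up v else 0

/-- The transition probabilities of the walk: from `v` to the child `x :: v` with probability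
`down v x`, to the parent with probability `up v`, otherwise stay. -/
noncomputable def walk (S : List X → Finset X) (down : List X → X → ℝ) (up : List X → ℝ)
    (v w : List X) : ℝ :=
  (if w = v then 1 - up v - ∑ x ∈ S v, down v x else 0) + toChild S down v w + toParent up v w

/-- The law after `T` steps of the chain with transition matrix `P` on `V` started at the root. -/
noncomputable def lawT (V : Finset (List X)) (P : List X → List X → ℝ) : ℕ → List X → ℝ
  | 0, w => if w = [] then 1 else 0
  | T + 1, w => ∑ v ∈ V, lawT V P T v * P v w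

/-- The probability of the event `E` for `R` independent draws from `μ` on `V`. -/
noncomputable def runProb (V : Finset (List X)) (μ : List X → ℝ) (R : ℕ)
    (E : (Fin R → List X) → Prop) [DecidablePred E] : ℝ :=
  ∑ ω ∈ Fintype.piFinset (fun _ : Fin R => V), (∏ i, μ (ω i)) * if E ω then 1 else 0

/-- The number of runs which end at a node of `G`. -/
def countIn (G : Finset (List X)) {R : ℕ} (ω : Fin R → List X) : ℕ :=
  (univ.filter fun i => ω i ∈ G).card

end Walk

/-! ### One node: the trial -/

/-- The law of the matrix `t` at a node: density proportional to `wmat t * capa r c t`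
(`wmat` is the exponential density, `capa` is log-concave in `t`). -/
noncomputable def wLaw (r : Fin m → ℕ) (c : Fin n → ℕ) : Measure (Fin n → Fin m → ℝ) :=
  (∫⁻ t, wmat t * capa r c t)⁻¹ • volume.withDensity fun t => wmat t * capa r c t

/-- The value at `b` of the function whose infimum is `capa`. -/
noncomputable def Phi (r : Fin m → ℕ) (c : Fin n → ℕ) (t : Fin n → Fin m → ℝ) (b : Fin n → ℝ) : ℝ :=
  (∏ i, (∑ j, t j i * b j) ^ r i) / ∏ j, b j ^ c j

/-- The parameters of a run: the truncation level and the threshold between the two regimes. -/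
structure Par where
  /-- the truncation level -/
  d : ℝ
  /-- the threshold between the two regimes -/
  cs : ℕ

/-- The required variance of the row that is solved last. -/
noncomputable def Par.V0 (P : Par) (m n c0 : ℕ) : ℝ :=
  if 0 < n ∧ P.cs < c0 then P.d * c0 / (14 * m) else 0

/-- The gain of the first coin. -/
noncomputable def Par.K (P : Par) (m n c0 : ℕ) : ℝ :=
  if 0 < n ∧ P.cs < c0 then Real.sqrt (P.V0 m n c0) else 1

/-- The rate of the node with first column `c0`, `n` more columns and total `C`: the mode of the
binomial law with mean `c0`, times the gain, over two. -/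
noncomputable def Par.rate (P : Par) (m n c0 C : ℕ) : ℝ :=
  P.K m n c0 * bw C ((c0 : ℝ) / C) c0 / 2

/-- The binomial parameter of the row `i`. -/
noncomputable def rowP (t : Fin (n + 1) → Fin m → ℝ) (b : Fin (n + 1) → ℝ) (i : Fin m) : ℝ :=
  t 0 i * b 0 / ∑ j, t j i * b j

/-- The variance of the row `i`. -/
noncomputable def rowV (r : Fin m → ℕ) (t : Fin (n + 1) → Fin m → ℝ) (b : Fin (n + 1) → ℝ)
    (i : Fin m) : ℝ :=
  r i * rowP t b i * (1 - rowP t b i)

/-- The weight of the first column `x`: the product of the binomials in `t 0` and of the capacity of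
the remaining problem. -/
noncomputable def uval (r : Fin m → ℕ) (c' : Fin n → ℕ) (t : Fin (n + 1) → Fin m → ℝ)
    (x : Fin m → ℕ) : ℝ :=
  (∏ i, ((r i).choose (x i) : ℝ) * t 0 i ^ x i)
    * (capa (fun i => r i - x i) c' fun l => t l.succ).toReal

open Classical in
/-- The probability, given `t` and the approximate minimiser `b`, that a trial returns the first
column `x`. If a row `i` with variance at least `V0` exists: all other rows are drawn from their
binomial laws, `x i` is what the column sum leaves, then two coins are tossed: with probabilities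
`K * bw (r i) (rowP t b i) (x i)` and `uval / (2 * capa * wt)`. Otherwise the trial fails. -/
noncomputable def trialP (P : Par) (r : Fin m → ℕ) (c0 : ℕ) (c' : Fin n → ℕ)
    (t : Fin (n + 1) → Fin m → ℝ) (b : Fin (n + 1) → ℝ) (x : Fin m → ℕ) : ℝ :=
  if h : ∃ i, P.V0 m n c0 ≤ rowV r t b i then
    (∏ j ∈ univ.erase h.choose, bw (r j) (rowP t b j) (x j))
      * (P.K m n c0 * bw (r h.choose) (rowP t b h.choose) (x h.choose))
      * (uval r c' t x / (2 * (capa r (Fin.cons c0 c') t).toReal * wt r (rowP t b) x))
  else 0

/-- The probability that a trial at the node returns `x`, with `t` drawn from `wLaw`. -/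
noncomputable def trialM (P : Par) (r : Fin m → ℕ) (c0 : ℕ) (c' : Fin n → ℕ)
    (sol : (Fin (n + 1) → Fin m → ℝ) → Fin (n + 1) → ℝ) (x : Fin m → ℕ) : ℝ≥0∞ :=
  ∫⁻ t, ENNReal.ofReal (trialP P r c0 c' t (sol t) x) ∂(wLaw r (Fin.cons c0 c'))

/-- A family of numerical minimisers, one for each node. -/
def Sol (m : ℕ) : Type :=
  ∀ (r : Fin m → ℕ) (c0 : ℕ) (l : List ℕ),
    (Fin (l.length + 1) → Fin m → ℝ) → Fin (l.length + 1) → ℝ

/-- A measurable minimiser which is positive and correct up to the factor two. -/
structure IsSolver (sol : Sol m) : Prop where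
  meas : ∀ r c0 l, Measurable (sol r c0 l)
  pos : ∀ r c0 l t j, 0 < sol r c0 l t j
  near : ∀ r c0 l t, ∑ i, r i = c0 + l.sum → (∀ j i, 0 < t j i) →
    ENNReal.ofReal (Phi r (Fin.cons c0 l.get) t (sol r c0 l t))
      ≤ 2 * capa r (Fin.cons c0 l.get) t

/-! ### The tree of partial tables -/

/-- The row sums left after the columns of `v` are filled. -/
def res (r : Fin m → ℕ) (v : List (Fin m → ℕ)) : Fin m → ℕ :=
  fun i => r i - (v.map fun x => x i).sum

/-- The children of `v`: the possible contents of the next column. -/
def kids (r : Fin m → ℕ) (c : List ℕ) (v : List (Fin m → ℕ)) : Finset (Fin m → ℕ) :=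
  match c.drop v.length with
  | [] => ∅
  | c0 :: _ => lev (res r v) c0

/-- The rate of a node. -/
noncomputable def rateAt (P : Par) (r : Fin m → ℕ) (c : List ℕ) (v : List (Fin m → ℕ)) : ℝ :=
  match c.drop v.length with
  | [] => 0
  | c0 :: l => P.rate m l.length c0 (∑ i, res r v i)

/-- The probability of moving to the child `x :: v`: one eighth of the probability of the trial. -/
noncomputable def downAt (P : Par) (sol : Sol m) (r : Fin m → ℕ) (c : List ℕ)
    (v : List (Fin m → ℕ)) (x : Fin m → ℕ) : ℝ :=
  match c.drop v.length with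
  | [] => 0
  | c0 :: l => (1 / 8) * (trialM P (res r v) c0 l.get (sol (res r v) c0 l) x).toReal

/-- The probability of moving to the parent: one eighth of the rate of the parent, a closed form. -/
noncomputable def upAt (P : Par) (r : Fin m → ℕ) (c : List ℕ) : List (Fin m → ℕ) → ℝ
  | [] => 0
  | _ :: p => (1 / 8) * rateAt P r c p

/-- The transition matrix of the algorithm. -/
noncomputable def algWalk (P : Par) (sol : Sol m) (r : Fin m → ℕ) (c : List ℕ) :
    List (Fin m → ℕ) → List (Fin m → ℕ) → ℝ :=
  walk (kids r c) (downAt P sol r c) (upAt P r c)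

/-- The estimate `betaC c * Ihat r c` of the number of tables, as a real number. -/
noncomputable def Aval (r : Fin m → ℕ) (c : Fin n → ℕ) : ℝ := betaC c * (Ihat r c).toReal

/-- The estimate at a node. -/
noncomputable def Aat (r : Fin m → ℕ) (c : List ℕ) (v : List (Fin m → ℕ)) : ℝ :=
  Aval (res r v) (c.drop v.length).get

/-- The two-sided bound with factor `ρ`. -/
def HBound (ρ : ℕ → ℕ → ℝ) : Prop :=
  ∀ (m n : ℕ) (r : Fin m → ℕ) (c : Fin n → ℕ), (∀ j, 0 < c j) → ∑ i, r i = ∑ j, c j →
    Aval r c ≤ ((tabs r c).card : ℝ) ∧ ((tabs r c).card : ℝ) ≤ ρ m n * Aval r c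

/-- The zeta statistic of a first column: the distance from the vertices of the box. -/
def zeta (r x : Fin m → ℕ) : ℕ := ∑ i, min (x i) (r i - x i)

/-! ### The parameters of a run -/

/-- The factor of the estimate. -/
noncomputable def rhoP (m n : ℕ) : ℝ := 10 ^ 18 * ((m : ℝ) + 1) ^ 16 * ((n : ℝ) + 1) ^ 36

/-- The size parameter of a run. -/
noncomputable def Bpar (m n : ℕ) (ρ ε : ℝ) : ℝ := 10 ^ 8 * ((n : ℝ) + 1) * ((m : ℝ) + 1) * ρ / ε

/-- The parameters of a run. -/
noncomputable def parOf (m n : ℕ) (ρ ε : ℝ) : Par where
  d := 1 / Bpar m n ρ ε ^ 26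
  cs := ⌈Bpar m n ρ ε ^ 28⌉₊

/-- The number of steps of the walk in one run. -/
noncomputable def stepsOf (m n : ℕ) (ρ ε : ℝ) : ℕ := ⌈Bpar m n ρ ε ^ 20⌉₊

/-- The number of runs. -/
noncomputable def runsOf (m n : ℕ) (ρ ε δ : ℝ) : ℕ := ⌈Bpar m n ρ ε ^ 2 * Real.log (4 / δ)⌉₊

end Vale.Agent.Lib.P328.Fpras
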