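import Vale.Agent.Lib.P328.Fpras.Chain
import Vale.Agent.Lib.P328.Fpras.Assemble
import Vale.Agent.Lib.P328.Sparse.Shift

/-!
# P328, counting algorithm: the main theorem, given the two-sided bound
-/

namespace Vale.Agent.Lib.P328.Fpras

open Finset Vale.Agent.Lib.P328.Cap

section Numbers

variable {m n : ℕ} {ρ ε : ℝ}

theorem B_facts (hρ : 1 ≤ ρ) (hε0 : 0 < ε) (hε1 : ε ≤ 1) :
    (10 : ℝ) ^ 8 ≤ Bpar m n ρ ε ∧ (m : ℝ) + 1 ≤ Bpar m n ρ ε ∧ ((n : ℝ) + 1) * ρ ≤ Bpar m n ρ ε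
      ∧ 10 ^ 8 * (((n : ℝ) + 1) * ρ) / ε ≤ Bpar m n ρ ε ∧ ρ ≤ Bpar m n ρ ε := by
  unfold Bpar
  have hm : (0 : ℝ) ≤ m := Nat.cast_nonneg _
  have hn : (0 : ℝ) ≤ n := Nat.cast_nonneg _
  have hρ0 : 0 < ρ := by linarith
  have h1 : 1 ≤ 1 / ε := by
    rw [le_div_iff₀ hε0]
    linarith
  have h2 : 10 ^ 8 * ((n : ℝ) + 1) * ((m : ℝ) + 1) * ρ / ε
      = 10 ^ 8 * ((n : ℝ) + 1) * ((m : ℝ) + 1) * ρ * (1 / ε) := by ring
  rw [h2]
  have hA : (1 : ℝ) ≤ (n : ℝ) + 1 := by linarith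
  have hB : (1 : ℝ) ≤ (m : ℝ) + 1 := by linarith
  have h3 : 1 ≤ ((n : ℝ) + 1) * ((m : ℝ) + 1) * ρ * (1 / ε) := by
    have h4 : 1 ≤ ((n : ℝ) + 1) * ((m : ℝ) + 1) := one_le_mul_of_one_le_of_one_le hA hB
    have h5 : 1 ≤ ((n : ℝ) + 1) * ((m : ℝ) + 1) * ρ := one_le_mul_of_one_le_of_one_le h4 hρ
    exact one_le_mul_of_one_le_of_one_le h5 h1
  refine ⟨by nlinarith, ?_, ?_, ?_, ?_⟩
  · have h4 : 1 ≤ ((n : ℝ) + 1) * ρ * (1 / ε) :=
      one_le_mul_of_one_le_of_one_le (one_le_mul_of_one_le_of_one_le hA hρ) h1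
    nlinarith [mul_nonneg hm (by positivity : (0 : ℝ) ≤ 10 ^ 8 * ((n : ℝ) + 1) * ρ * (1 / ε))]
  · have h4 : 1 ≤ ((m : ℝ) + 1) * (1 / ε) := one_le_mul_of_one_le_of_one_le hB h1
    have h5 : 0 ≤ ((n : ℝ) + 1) * ρ := by positivity
    nlinarith
  · have h6 : 10 ^ 8 * (((n : ℝ) + 1) * ρ) / ε = 10 ^ 8 * (((n : ℝ) + 1) * ρ) * (1 / ε) := by ring
    rw [h6]
    have h7 : 0 ≤ 10 ^ 8 * (((n : ℝ) + 1) * ρ) * (1 / ε) := by positivity
    nlinarith
  · have h4 : 1 ≤ ((n : ℝ) + 1) * ((m : ℝ) + 1) * (1 / ε) :=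
      one_le_mul_of_one_le_of_one_le (one_le_mul_of_one_le_of_one_le hA hB) h1
    have h5 := hρ0
    nlinarith

theorem pow_le_pow_B {B : ℝ} (hB : 1 ≤ B) {a b : ℕ} (h : a ≤ b) : B ^ a ≤ B ^ b :=
  pow_le_pow_right₀ hB h

theorem parOK (hm : 0 < m) (hρ : 1 ≤ ρ) (hε0 : 0 < ε) (hε1 : ε ≤ 1) :
    ParOK (parOf m n ρ ε) m ρ (3 / Bpar m n ρ ε ^ 22) := by
  obtain ⟨h8, hmB, hLB, -, hρB⟩ := B_facts (m := m) (n := n) hρ hε0 hε1
  set B := Bpar m n ρ ε with hB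
  have hB1 : 1 ≤ B := by linarith [show (1 : ℝ) ≤ 10 ^ 8 by norm_num]
  have hB0 : 0 < B := by linarith
  have hmr : (0 : ℝ) < m := by exact_mod_cast hm
  have hmB' : (m : ℝ) ≤ B := by linarith
  have hcs : B ^ 28 ≤ ((parOf m n ρ ε).cs : ℝ) := Nat.le_ceil _
  have hd : (parOf m n ρ ε).d = 1 / B ^ 26 := rfl
  have hcs0 : (0 : ℝ) < ((parOf m n ρ ε).cs : ℝ) := lt_of_lt_of_le (by positivity) hcs
  have h8m : 8 * (m : ℝ) ≤ B ^ 2 := by nlinarith
  refine ⟨hm, ?_, ?_, ?_, ?_, ?_⟩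
  · rw [hd]
    positivity
  · rw [hd]
    refine one_div_le_one_div_of_le (by positivity) ?_
    exact h8m.trans (pow_le_pow_B hB1 (by norm_num))
  · have h1 : (8 * (m : ℝ)) ≤ ((parOf m n ρ ε).cs : ℝ) :=
      h8m.trans ((pow_le_pow_B hB1 (by norm_num)).trans hcs)
    exact_mod_cast h1
  · rw [hd]
    have h1 : 1 / ((parOf m n ρ ε).cs : ℝ) ≤ 1 / B ^ 26 := by
      refine one_div_le_one_div_of_le (by positivity) ?_
      exact (pow_le_pow_B hB1 (by norm_num)).trans hcs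
    have h2 : ρ * (m : ℝ) ^ 3 ≤ B ^ 4 := by
      have h3 : (m : ℝ) ^ 3 ≤ B ^ 3 := pow_le_pow_left₀ hmr.le hmB' 3
      calc ρ * (m : ℝ) ^ 3 ≤ B * B ^ 3 := mul_le_mul hρB h3 (by positivity) hB0.le
        _ = B ^ 4 := by ring
    have h3 : ρ * (m : ℝ) ^ 3 * (1 / B ^ 26 + 1 / ((parOf m n ρ ε).cs : ℝ)) ≤ 2 / B ^ 22 := by
      have h4 : (0 : ℝ) ≤ ρ * (m : ℝ) ^ 3 := by positivity
      calc ρ * (m : ℝ) ^ 3 * (1 / B ^ 26 + 1 / ((parOf m n ρ ε).cs : ℝ))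
          ≤ B ^ 4 * (1 / B ^ 26 + 1 / B ^ 26) := by
            refine mul_le_mul h2 (by linarith) ?_ (by positivity)
            have : 0 ≤ 1 / ((parOf m n ρ ε).cs : ℝ) := by positivity
            have : 0 ≤ 1 / B ^ 26 := by positivity
            linarith
        _ = 2 / B ^ 22 := by
            field_simp
            ring
    have h4 : B ^ 2 ≤ 1 / B ^ 26 * ((parOf m n ρ ε).cs : ℝ) := by
      have h5 : B ^ 2 = 1 / B ^ 26 * B ^ 28 := by
        field_simp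
      rw [h5]
      exact mul_le_mul_of_nonneg_left hcs (by positivity)
    have h5 : Real.exp (-(1 / B ^ 26 * ((parOf m n ρ ε).cs : ℝ) / 2)) ≤ Real.exp (-(B ^ 2 / 2)) :=
      Real.exp_le_exp.2 (by linarith)
    have h6 : Real.exp (-(B ^ 2 / 2)) ≤ 8 / B ^ 22 := by
      rw [Real.exp_neg, inv_le_comm₀ (Real.exp_pos _) (by positivity)]
      have h7 : B ^ 2 / 24 ≤ Real.exp (B ^ 2 / 24) := by
        have := Real.add_one_le_exp (B ^ 2 / 24)
        linarith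
      have h8' : (B ^ 2 / 24) ^ 12 ≤ Real.exp (B ^ 2 / 24) ^ 12 :=
        pow_le_pow_left₀ (by positivity) h7 12
      rw [← Real.exp_nat_mul] at h8'
      have h9 : ((12 : ℕ) : ℝ) * (B ^ 2 / 24) = B ^ 2 / 2 := by
        push_cast
        ring
      rw [h9] at h8'
      refine le_trans ?_ h8'
      have h10 : (B ^ 2 / 24) ^ 12 = B ^ 24 / 24 ^ 12 := by
        rw [div_pow]
        ring
      rw [h10, inv_div, div_le_div_iff₀ (by norm_num) (by norm_num)]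
      have h11 : (24 : ℝ) ^ 12 ≤ 8 * B ^ 2 := by
        have : (10 : ℝ) ^ 8 * 10 ^ 8 ≤ B * B := mul_le_mul h8 h8 (by positivity) hB0.le
        nlinarith
      have h12 : B ^ 24 = B ^ 22 * B ^ 2 := by ring
      rw [h12]
      have h13 : 0 ≤ B ^ 22 := by positivity
      nlinarith [mul_le_mul_of_nonneg_left h11 h13]
    have h7 : (3 : ℝ) / B ^ 22 = 2 / B ^ 22 + (8 / B ^ 22) / 8 := by
      field_simp
      ring
    rw [h7]
    have := h5.trans h6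
    linarith
  · have h1 : (12 : ℝ) ≤ B ^ 22 := by
      have : (12 : ℝ) ≤ B := by linarith [show (12 : ℝ) ≤ 10 ^ 8 by norm_num]
      calc (12 : ℝ) ≤ B ^ 1 := by simpa using this
        _ ≤ B ^ 22 := pow_le_pow_B hB1 (by norm_num)
    rw [div_le_iff₀ (by positivity)]
    linarith

theorem qLow_ge (hm : 0 < m) (hρ : 1 ≤ ρ) (hε0 : 0 < ε) (hε1 : ε ≤ 1) :
    1 / Bpar m n ρ ε ^ 15 ≤ qLow (parOf m n ρ ε) m := by
  obtain ⟨h8, hmB, hLB, -, hρB⟩ := B_facts (m := m) (n := n) hρ hε0 hε1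
  set B := Bpar m n ρ ε with hB
  have hB1 : 1 ≤ B := by linarith [show (1 : ℝ) ≤ 10 ^ 8 by norm_num]
  have hB0 : 0 < B := by linarith
  have hmr : (0 : ℝ) < m := by exact_mod_cast hm
  have hmB' : (m : ℝ) ≤ B := by linarith
  have hcs1 : B ^ 28 ≤ ((parOf m n ρ ε).cs : ℝ) := Nat.le_ceil _
  have hcs2 : ((parOf m n ρ ε).cs : ℝ) < B ^ 28 + 1 := Nat.ceil_lt_add_one (by positivity)
  have hd : (parOf m n ρ ε).d = 1 / B ^ 26 := rfl
  have hcs0 : (0 : ℝ) < ((parOf m n ρ ε).cs : ℝ) := lt_of_lt_of_le (by positivity) hcs1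
  unfold qLow
  refine le_min ?_ ?_
  · refine one_div_le_one_div_of_le ?_ ?_
    · have := Real.sqrt_pos.2 hcs0
      positivity
    · have h1 : Real.sqrt ((parOf m n ρ ε).cs : ℝ) ≤ 2 * B ^ 14 := by
        rw [Real.sqrt_le_left (by positivity)]
        have h2 : (1 : ℝ) ≤ B ^ 28 := one_le_pow₀ hB1
        nlinarith
      have h2 : B ^ 15 = B * B ^ 14 := by ring
      rw [h2]
      have h3 : (28 : ℝ) ≤ B := by linarith [show (28 : ℝ) ≤ 10 ^ 8 by norm_num]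
      have h4 : 0 ≤ B ^ 14 := by positivity
      nlinarith
  · rw [hd, le_div_iff₀ (by norm_num), ]
    refine Real.le_sqrt_of_sq_le ?_
    have h1 : (1 / B ^ 15 * 14) ^ 2 = 196 / B ^ 30 := by
      field_simp
      ring
    rw [h1, div_le_div_iff₀ (by positivity) (by positivity)]
    have h2 : (2744 : ℝ) * m ≤ B ^ 4 := by
      have h3 : (2744 : ℝ) ≤ B := by linarith [show (2744 : ℝ) ≤ 10 ^ 8 by norm_num]
      have h4 : B ^ 4 = B * B * B ^ 2 := by ring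
      rw [h4]
      have h5 : (1 : ℝ) ≤ B ^ 2 := one_le_pow₀ hB1
      have h6 : 0 ≤ B * B := by positivity
      nlinarith
    have h3 : 1 / B ^ 26 * B ^ 30 = B ^ 4 := by
      field_simp
    rw [h3]
    linarith

/-- The three numerical conditions of the abstract theorem. -/
theorem num_conditions (hm : 0 < m) (hρ : 1 ≤ ρ) (hε0 : 0 < ε) (hε1 : ε ≤ 1) {δ : ℝ} (hδ0 : 0 < δ)
    (hδ1 : δ ≤ 1) :
    ((n : ℝ) + 1) * ρ * Real.exp (-((stepsOf m n ρ ε : ℝ) * (qLow (parOf m n ρ ε) m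
        / (8 * ((n : ℝ) + 1) * (((n : ℝ) + 1) * ρ)))))
      ≤ (ε / (64 * (((n : ℝ) + 1) * ρ))) ^ 2
    ∧ 2 * (3 / Bpar m n ρ ε ^ 22) * (stepsOf m n ρ ε : ℝ) ≤ ε / (64 * (((n : ℝ) + 1) * ρ))
    ∧ 4 * Real.exp (-((runsOf m n ρ ε δ : ℝ) * (ε / (32 * (((n : ℝ) + 1) * ρ))) ^ 2 / 4)) ≤ δ
    ∧ 0 < runsOf m n ρ ε δ := by
  obtain ⟨h8, hmB, hLB, hLε, hρB⟩ := B_facts (m := m) (n := n) hρ hε0 hε1
  have hq := qLow_ge (n := n) hm hρ hε0 hε1
  set B := Bpar m n ρ ε with hB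
  have hB1 : 1 ≤ B := by linarith [show (1 : ℝ) ≤ 10 ^ 8 by norm_num]
  have hB0 : 0 < B := by linarith
  have hn1 : (1 : ℝ) ≤ (n : ℝ) + 1 := by
    have : (0 : ℝ) ≤ n := Nat.cast_nonneg _
    linarith
  have hρ0 : 0 < ρ := by linarith
  set L := ((n : ℝ) + 1) * ρ with hL
  have hL0 : 0 < L := by positivity
  have hnB : (n : ℝ) + 1 ≤ B := by nlinarith
  have hT1 : B ^ 20 ≤ (stepsOf m n ρ ε : ℝ) := Nat.le_ceil _
  have hT2 : (stepsOf m n ρ ε : ℝ) < B ^ 20 + 1 := Nat.ceil_lt_add_one (by positivity)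
  have hι : 1 / B ≤ ε / (64 * L) := by
    rw [div_le_div_iff₀ hB0 (by positivity)]
    have h1 : 10 ^ 8 * L ≤ B * ε := by
      have := hLε
      rwa [div_le_iff₀ hε0] at this
    linarith
  have hτ : 2 / B ≤ ε / (32 * L) := by
    rw [div_le_div_iff₀ hB0 (by positivity)]
    have h1 : 10 ^ 8 * L ≤ B * ε := by
      have := hLε
      rwa [div_le_iff₀ hε0] at this
    linarith
  refine ⟨?_, ?_, ?_, ?_⟩
  · -- the decay
    have hγ : 1 / B ^ 18 ≤ qLow (parOf m n ρ ε) m / (8 * ((n : ℝ) + 1) * L) := by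
      rw [le_div_iff₀ (by positivity)]
      refine le_trans ?_ hq
      have h1 : 8 * ((n : ℝ) + 1) * L ≤ B ^ 3 := by
        have h2 : (8 : ℝ) ≤ B := by linarith [show (8 : ℝ) ≤ 10 ^ 8 by norm_num]
        calc 8 * ((n : ℝ) + 1) * L ≤ B * B * B := by
              refine mul_le_mul (mul_le_mul h2 hnB (by positivity) hB0.le) hLB hL0.le (by positivity)
          _ = B ^ 3 := by ring
      calc 1 / B ^ 18 * (8 * ((n : ℝ) + 1) * L) ≤ 1 / B ^ 18 * B ^ 3 :=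
            mul_le_mul_of_nonneg_left h1 (by positivity)
        _ = 1 / B ^ 15 := by
            field_simp
    have hexp : B ^ 2 ≤ (stepsOf m n ρ ε : ℝ) * (qLow (parOf m n ρ ε) m / (8 * ((n : ℝ) + 1) * L)) := by
      calc B ^ 2 = B ^ 20 * (1 / B ^ 18) := by
            field_simp
        _ ≤ _ := mul_le_mul hT1 hγ (by positivity) (by positivity)
    have h1 : Real.exp (-((stepsOf m n ρ ε : ℝ) * (qLow (parOf m n ρ ε) m
        / (8 * ((n : ℝ) + 1) * L)))) ≤ Real.exp (-(B ^ 2)) := Real.exp_le_exp.2 (by linarith)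
    have h2 : Real.exp (-(B ^ 2)) ≤ 1 / B ^ 3 := by
      rw [Real.exp_neg, inv_le_comm₀ (Real.exp_pos _) (by positivity)]
      have h3 := Real.quadratic_le_exp_of_nonneg (show 0 ≤ B ^ 2 by positivity)
      have h4 : B ^ 3 ≤ (B ^ 2) ^ 2 / 2 := by
        have h5 : (2 : ℝ) ≤ B := by linarith [show (2 : ℝ) ≤ 10 ^ 8 by norm_num]
        have h6 : (B ^ 2) ^ 2 / 2 = B ^ 3 * (B / 2) := by ring
        rw [h6]
        have h7 : 0 ≤ B ^ 3 := by positivity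
        nlinarith
      have h5 : 0 ≤ B ^ 2 := by positivity
      rw [inv_div, div_one] at *
      linarith
    have h3 : (1 / B) ^ 2 ≤ (ε / (64 * L)) ^ 2 := pow_le_pow_left₀ (by positivity) hι 2
    refine le_trans ?_ h3
    calc L * Real.exp (-((stepsOf m n ρ ε : ℝ) * (qLow (parOf m n ρ ε) m
          / (8 * ((n : ℝ) + 1) * L)))) ≤ B * (1 / B ^ 3) :=
          mul_le_mul hLB (h1.trans h2) (Real.exp_pos _).le hB0.le
      _ = (1 / B) ^ 2 := by
          field_simp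
  · refine le_trans ?_ hι
    have h1 : (stepsOf m n ρ ε : ℝ) ≤ 2 * B ^ 20 := by
      have : (1 : ℝ) ≤ B ^ 20 := one_le_pow₀ hB1
      linarith
    calc 2 * (3 / B ^ 22) * (stepsOf m n ρ ε : ℝ) ≤ 2 * (3 / B ^ 22) * (2 * B ^ 20) :=
          mul_le_mul_of_nonneg_left h1 (by positivity)
      _ = 12 / B ^ 2 := by
          field_simp
          ring
      _ ≤ 1 / B := by
          rw [div_le_div_iff₀ (by positivity) hB0]
          have h2 : (12 : ℝ) ≤ B := by linarith [show (12 : ℝ) ≤ 10 ^ 8 by norm_num]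
          nlinarith
  · have hR : B ^ 2 * Real.log (4 / δ) ≤ (runsOf m n ρ ε δ : ℝ) := Nat.le_ceil _
    have hlog : 0 ≤ Real.log (4 / δ) := by
      refine Real.log_nonneg ?_
      rw [le_div_iff₀ hδ0]
      linarith
    have h1 : 1 / B ^ 2 ≤ (ε / (32 * L)) ^ 2 / 4 := by
      have h2 : (2 / B) ^ 2 ≤ (ε / (32 * L)) ^ 2 := pow_le_pow_left₀ (by positivity) hτ 2
      have h3 : (2 / B) ^ 2 / 4 = 1 / B ^ 2 := by
        field_simp
        ring
      linarith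
    have h2 : Real.log (4 / δ) ≤ (runsOf m n ρ ε δ : ℝ) * (ε / (32 * L)) ^ 2 / 4 := by
      calc Real.log (4 / δ) = B ^ 2 * Real.log (4 / δ) * (1 / B ^ 2) := by
            field_simp
        _ ≤ (runsOf m n ρ ε δ : ℝ) * ((ε / (32 * L)) ^ 2 / 4) :=
            mul_le_mul hR h1 (by positivity) (by positivity)
        _ = _ := by ring
    have h3 : Real.exp (-((runsOf m n ρ ε δ : ℝ) * (ε / (32 * L)) ^ 2 / 4))
        ≤ Real.exp (-Real.log (4 / δ)) := Real.exp_le_exp.2 (by linarith)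
    have h4 : Real.exp (-Real.log (4 / δ)) = δ / 4 := by
      rw [Real.exp_neg, Real.exp_log (by positivity), inv_div]
    rw [h4] at h3
    linarith
  · have hlog : 0 < Real.log (4 / δ) := by
      refine Real.log_pos ?_
      rw [lt_div_iff₀ hδ0]
      linarith
    exact Nat.ceil_pos.2 (by positivity)

end Numbers

section Main

variable {m : ℕ}

theorem res_nil (r : Fin m → ℕ) : res r [] = r := by
  funext i
  simp [res]

theorem Aat_nil (r : Fin m → ℕ) (c : List ℕ) : Aat r c [] = Aval r c.get := by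
  unfold Aat
  rw [res_nil]
  rfl

theorem Nat_nil (r : Fin m → ℕ) (c : List ℕ) : Nat_ r c [] = ((tabs r c.get).card : ℝ) := by
  unfold Nat_
  rw [res_nil]
  rfl

theorem Aval_nonneg' {n : ℕ} (r : Fin m → ℕ) (c : Fin n → ℕ) : 0 ≤ Aval r c :=
  mul_nonneg (betaC_nonneg c) ENNReal.toReal_nonneg

/-- The two-sided bound at all nodes. -/
theorem node_bounds {ρ : ℕ → ℕ → ℝ} (hρ1 : ∀ m n, 1 ≤ ρ m n)
    (hρn : ∀ m n n', n ≤ n' → ρ m n ≤ ρ m n') (hH : HBound ρ) {r : Fin m → ℕ} {c : List ℕ}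
    (hpos : ∀ y ∈ c, 0 < y) (hsum : ∑ i, r i = c.sum) {v : List (Fin m → ℕ)}
    (hv : v ∈ nodes (kids r c) c.length) :
    0 < Aat r c v ∧ Aat r c v ≤ Nat_ r c v ∧ Nat_ r c v ≤ ρ m c.length * Aat r c v := by
  have hbal := res_balance r c hsum hv
  rw [← sum_get] at hbal
  have hposL : ∀ j, 0 < (c.drop v.length).get j := fun j =>
    hpos _ (List.mem_of_mem_drop (List.get_mem _ _))
  obtain ⟨h1, h2⟩ := hH m _ (res r v) (c.drop v.length).get hposL hbal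
  have h3 : ρ m (c.drop v.length).length ≤ ρ m c.length := hρn _ _ _ (by simp)
  have h4 : 0 ≤ Aat r c v := Aval_nonneg' _ _
  have h5 : Nat_ r c v ≤ ρ m c.length * Aat r c v :=
    h2.trans (mul_le_mul_of_nonneg_right h3 h4)
  have h6 : (1 : ℝ) ≤ Nat_ r c v := by
    unfold Nat_
    have h7 := Sparse.tabs_nonempty _ (res r v) (c.drop v.length).get hbal rfl
    exact_mod_cast h7.card_pos
  refine ⟨?_, h1, h5⟩
  by_contra h7
  have h8 : Aat r c v = 0 := le_antisymm (not_lt.1 h7) h4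
  rw [h8] at h5
  linarith

/-- The main theorem. -/
theorem fpras_of_H {ρ : ℕ → ℕ → ℝ} (hρ1 : ∀ m n, 1 ≤ ρ m n)
    (hρn : ∀ m n n', n ≤ n' → ρ m n ≤ ρ m n') (hH : HBound ρ) (hm : 0 < m) (r : Fin m → ℕ)
    (c : List ℕ) (hc : c.Pairwise (· ≤ ·)) (hpos : ∀ y ∈ c, 0 < y) (hsum : ∑ i, r i = c.sum)
    {ε δ : ℝ} (hε0 : 0 < ε) (hε1 : ε ≤ 1) (hδ0 : 0 < δ) (hδ1 : δ ≤ 1) {Ahat : ℝ}
    (hAhat : |Ahat - Aval r c.get| ≤ ε / 4 * Aval r c.get) {sol : Sol m} (hsol : IsSolver sol) :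
    1 - δ ≤ runProb (nodes (kids r c) c.length)
      (lawT (nodes (kids r c) c.length) (algWalk (parOf m c.length (ρ m c.length) ε) sol r c)
        (stepsOf m c.length (ρ m c.length) ε))
      (runsOf m c.length (ρ m c.length) ε δ) fun ω =>
        (1 - ε) * ((tabs r c.get).card : ℝ)
            ≤ Ahat * (countIn (lvl (kids r c) c.length) ω : ℝ) / (countIn {[]} ω : ℝ)
          ∧ Ahat * (countIn (lvl (kids r c) c.length) ω : ℝ) / (countIn {[]} ω : ℝ)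
            ≤ (1 + ε) * ((tabs r c.get).card : ℝ) := by
  have hbd := fun v hv => node_bounds hρ1 hρn hH (r := r) (c := c) hpos hsum (v := v) hv
  have hOK := parOK (m := m) (n := c.length) hm (hρ1 m c.length) hε0 hε1
  obtain ⟨hup, hq, hq1, hdn, hlazy, hd0, hd1, hη⟩ :=
    chain_hyp (sol := sol) (r := r) (c := c) hsol hc hpos hsum (hρ1 m c.length)
      (fun v hv => (hbd v hv).1) (fun v hv => (hbd v hv).2.1) (fun v hv => (hbd v hv).2.2) hOK
  obtain ⟨n1, n2, n3, n4⟩ := num_conditions (m := m) (n := c.length) hm (hρ1 m c.length)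
    hε0 hε1 hδ0 hδ1
  have hq0 : 0 < qLow (parOf m c.length (ρ m c.length) ε) m :=
    lt_of_lt_of_le (by
      have : 0 < Bpar m c.length (ρ m c.length) ε := by
        have := (B_facts (m := m) (n := c.length) (hρ1 m c.length) hε0 hε1).1
        linarith [show (0 : ℝ) < 10 ^ 8 by norm_num]
      positivity) (qLow_ge hm (hρ1 m c.length) hε0 hε1)
  have hmain := estimator_abstract (S := kids r c) (D := c.length) (fun v h => kids_empty r c v h)
    (A := Aat r c) (q := rateAt (parOf m c.length (ρ m c.length) ε) r c) (N := Nat_ r c)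
    (hρ1 m c.length) (fun v hv => (hbd v hv).1) (fun v hv => (hbd v hv).2.1)
    (fun v hv => (hbd v hv).2.2)
    (fun v hlen _ => Nat_add r c hlen)
    (fun v hv => by
      have h := leaf_one r c hsum hv
      rw [h.1, h.2])
    hq0 hq hq1 hdn hlazy hd0 hd1 hη hε0 hε1 hδ0 n4 n1 n2 n3
    (Ahat := Ahat) (by rw [Aat_nil]; exact hAhat)
  rw [Nat_nil] at hmain
  unfold algWalk
  rw [hup]
  exact hmain

end Main

end Vale.Agent.Lib.P328.Fpras
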