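import Vale.Agent.Lib.P328.Fpras.Defs
import Vale.Agent.Lib.P328.Cap.Int
import Vale.Agent.Lib.P328.CapS.Trans

/-!
# P328, counting algorithm: the two-sided bound with rows of sum zero

The nodes of the tree have rows of sum zero. For `r k = 0`: `tabs` has the same size and
`Ihat r c = Ihat (r ∘ k.succAbove) c`: the capacity does not depend on row `k` of `t`, and that row
integrates out to one. Induct on the number of zero rows. If `n = 0`, `r = 0` and both sides are one.
-/

namespace Vale.Agent.Lib.P328.Fpras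

open Finset MeasureTheory Vale.Agent.Lib.P328.Cap
open scoped ENNReal Nat

/-- The tables of a margin with a zero row correspond to the tables without that row. -/
theorem card_tabs_zero_row {m n : ℕ} (k : Fin (m + 1)) (r : Fin (m + 1) → ℕ) (c : Fin n → ℕ)
    (hk : r k = 0) : (tabs r c).card = (tabs (r ∘ k.succAbove) c).card := by
  have hzero : ∀ T ∈ tabs r c, ∀ j, T j k = 0 := by
    intro T hT j
    have h2 := (mem_tabs.1 hT).2 k
    rw [hk] at h2
    exact (Finset.sum_eq_zero_iff.1 h2) j (mem_univ j)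
  refine Finset.card_nbij' (fun T j i => T j (k.succAbove i))
    (fun T j => k.insertNth 0 (T j)) ?_ ?_ ?_ ?_
  · intro T hT
    have hT' : T ∈ tabs r c := hT
    obtain ⟨h1, h2⟩ := mem_tabs.1 hT'
    refine mem_tabs.2 ⟨fun j => ?_, fun i => ?_⟩
    · rw [← h1 j, Fin.sum_univ_succAbove _ k, hzero T hT' j, zero_add]
    · exact h2 (k.succAbove i)
  · intro T hT
    have hT' : T ∈ tabs (r ∘ k.succAbove) c := hT
    obtain ⟨h1, h2⟩ := mem_tabs.1 hT'
    refine mem_tabs.2 ⟨fun j => ?_, fun i => ?_⟩
    · rw [Fin.sum_univ_succAbove _ k]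
      simp only [Fin.insertNth_apply_same, Fin.insertNth_apply_succAbove, zero_add]
      exact h1 j
    · refine Fin.succAboveCases k ?_ (fun i' => ?_) i
      · simp [hk]
      · simp only [Fin.insertNth_apply_succAbove]
        exact h2 i'
  · intro T hT
    have hT' : T ∈ tabs r c := hT
    funext j i
    refine Fin.succAboveCases k ?_ (fun i' => ?_) i
    · simp [hzero T hT' j]
    · simp
  · intro T _
    funext j i
    simp

/-- The capacity does not see a row of sum zero. -/
theorem capa_zero_row {m n : ℕ} (k : Fin (m + 1)) (r : Fin (m + 1) → ℕ) (c : Fin n → ℕ)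
    (hk : r k = 0) (t : Fin n → Fin (m + 1) → ℝ) :
    capa r c t = capa (r ∘ k.succAbove) c (fun j i => t j (k.succAbove i)) := by
  unfold capa
  refine iInf_congr fun b => ?_
  congr 2
  rw [Fin.prod_univ_succAbove _ k, hk, pow_zero, one_mul]
  rfl

/-- Integrating out one coordinate of a power. -/
theorem lintegral_insertNth {E : Type} [MeasureSpace E] [SigmaFinite (volume : Measure E)] (m : ℕ)
    (k : Fin (m + 1)) (F : (Fin (m + 1) → E) → ℝ≥0∞) :
    ∫⁻ s, F s = ∫⁻ p : E × (Fin m → E), F (k.insertNth p.1 p.2)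
      ∂((volume : Measure E).prod (volume : Measure (Fin m → E))) := by
  have h := (volume_preserving_piFinSuccAbove (fun _ : Fin (m + 1) => E) k).symm
  have h2 := h.lintegral_comp_emb (MeasurableEquiv.measurableEmbedding _) F
  rw [← h2]
  refine lintegral_congr fun a => ?_
  congr 1

theorem lintegral_wcol_eq_one (n : ℕ) : ∫⁻ u : Fin n → ℝ, wcol u = 1 := by
  unfold wcol
  rw [lintegral_pi_prod n (fun _ => expDens) (fun _ => measurable_expDens)]
  refine Finset.prod_eq_one fun _ _ => ?_
  have := lintegral_expDens_pow 0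
  simpa using this

/-- The integral of the density times a function of the other rows. -/
theorem lintegral_zero_row {m n : ℕ} (k : Fin (m + 1)) (G : (Fin n → Fin m → ℝ) → ℝ≥0∞)
    (hG : Measurable G) :
    ∫⁻ t : Fin n → Fin (m + 1) → ℝ, wmat t * G (fun j i => t j (k.succAbove i))
      = ∫⁻ t : Fin n → Fin m → ℝ, wmat t * G t := by
  have hF : Measurable fun t : Fin n → Fin (m + 1) → ℝ => G (fun j i => t j (k.succAbove i)) := by
    refine hG.comp ?_
    exact measurable_pi_iff.2 fun j => measurable_pi_iff.2 fun i =>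
      (measurable_pi_apply (k.succAbove i)).comp (measurable_pi_apply j)
  rw [CapS.lintegral_transpose _ hF, CapS.lintegral_transpose _ hG, lintegral_insertNth m k]
  have hwmat : ∀ (u : Fin n → ℝ) (s : Fin m → Fin n → ℝ),
      wmat (k.insertNth u s : Fin (m + 1) → Fin n → ℝ) = wcol u * wmat s := by
    intro u s
    unfold wmat
    rw [Fin.prod_univ_succAbove _ k]
    simp
  have hG2 : Measurable fun s : Fin m → Fin n → ℝ => wmat s * G (fun j i => s i j) := by
    refine measurable_wmat.mul (hG.comp ?_)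
    exact measurable_pi_iff.2 fun j => measurable_pi_iff.2 fun i =>
      (measurable_pi_apply j).comp (measurable_pi_apply i)
  simp only [hwmat, Fin.insertNth_apply_succAbove]
  have h3 := lintegral_prod_mul (μ := (volume : Measure (Fin n → ℝ)))
    (ν := (volume : Measure (Fin m → Fin n → ℝ))) (f := wcol)
    (g := fun s : Fin m → Fin n → ℝ => wmat s * G (fun j i => s i j))
    measurable_wcol.aemeasurable hG2.aemeasurable
  have h4 : ∀ p : (Fin n → ℝ) × (Fin m → Fin n → ℝ),
      wcol p.1 * wmat p.2 * G (fun j i => p.2 i j)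
        = wcol p.1 * (wmat p.2 * G (fun j i => p.2 i j)) := fun p => mul_assoc _ _ _
  simp only [h4]
  rw [h3, lintegral_wcol_eq_one, one_mul]

theorem Ihat_zero_row {m n : ℕ} (k : Fin (m + 1)) (r : Fin (m + 1) → ℕ) (c : Fin n → ℕ)
    (hk : r k = 0) : Ihat r c = Ihat (r ∘ k.succAbove) c := by
  rw [Ihat_eq, Ihat_eq]
  have h1 : ((∏ i, (r i)! : ℕ) : ℝ≥0∞) = ((∏ i, ((r ∘ k.succAbove) i)! : ℕ) : ℝ≥0∞) := by
    rw [Fin.prod_univ_succAbove _ k, hk]
    simp
  rw [h1]
  congr 1
  rw [← lintegral_zero_row k _ (capa_measurable (r ∘ k.succAbove) c)]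
  refine lintegral_congr fun t => ?_
  rw [capa_zero_row k r c hk]

theorem betaC_nonneg {n : ℕ} (c : Fin n → ℕ) : 0 ≤ betaC c := by
  unfold betaC
  positivity

theorem Aval_nonneg {m n : ℕ} (r : Fin m → ℕ) (c : Fin n → ℕ) : 0 ≤ Aval r c :=
  mul_nonneg (betaC_nonneg c) ENNReal.toReal_nonneg

/-- The case of no columns: both sides are one. -/
theorem no_columns {m : ℕ} (r : Fin m → ℕ) (c : Fin 0 → ℕ) (hsum : ∑ i, r i = ∑ j, c j) :
    Aval r c = 1 ∧ ((tabs r c).card : ℝ) = 1 := by
  have hr : ∀ i, r i = 0 := by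
    have h0 : ∑ i, r i = 0 := by rw [hsum]; simp
    intro i
    exact (Finset.sum_eq_zero_iff.1 h0) i (mem_univ i)
  constructor
  · have hbeta : betaC c = 1 := by
      unfold betaC
      simp
    have hcapa : ∀ t : Fin 0 → Fin m → ℝ, capa r c t = 1 := by
      intro t
      unfold capa
      simp [hr]
    have hI : Ihat r c = 1 := by
      unfold Ihat
      simp only [hcapa]
      have h3 : (volume : Measure (Fin 0 → Fin m → ℝ)) Set.univ = 1 := by
        simp [volume_pi]
      simp [hr, lintegral_const, h3]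
    unfold Aval
    rw [hbeta, hI]
    simp
  · have h1 : tabs r c = {fun j => j.elim0} := by
      ext T
      simp only [mem_tabs, mem_singleton]
      constructor
      · intro _
        funext j
        exact j.elim0
      · intro _
        refine ⟨fun j => j.elim0, fun i => ?_⟩
        simp [hr i]
    rw [h1]
    simp

theorem hbound_zero_rows (ρ : ℕ → ℕ → ℝ) (hρ1 : ∀ m n, 1 ≤ ρ m n)
    (hρm : ∀ m m' n, m ≤ m' → ρ m n ≤ ρ m' n)
    (h : ∀ (m n : ℕ) (r : Fin m → ℕ) (c : Fin n → ℕ), 0 < m → 0 < n → (∀ i, 0 < r i) →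
      (∀ j, 0 < c j) → ∑ i, r i = ∑ j, c j →
      Aval r c ≤ ((tabs r c).card : ℝ) ∧ ((tabs r c).card : ℝ) ≤ ρ m n * Aval r c) :
    HBound ρ := by
  intro m n r c hc hsum
  rcases Nat.eq_zero_or_pos n with rfl | hn
  · obtain ⟨h1, h2⟩ := no_columns r c hsum
    rw [h1, h2]
    refine ⟨le_rfl, ?_⟩
    rw [mul_one]
    exact hρ1 _ _
  · induction m with
    | zero =>
      exfalso
      have h0 : ∑ j, c j = 0 := by rw [← hsum]; simp
      have := (Finset.sum_eq_zero_iff.1 h0) ⟨0, hn⟩ (mem_univ _)
      have := hc ⟨0, hn⟩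
      omega
    | succ m ih =>
      by_cases hz : ∃ k, r k = 0
      · obtain ⟨k, hk⟩ := hz
        have hsum' : ∑ i, (r ∘ k.succAbove) i = ∑ j, c j := by
          rw [← hsum, Fin.sum_univ_succAbove _ k, hk, zero_add]
          rfl
        obtain ⟨h1, h2⟩ := ih (r ∘ k.succAbove) hsum'
        have hA : Aval r c = Aval (r ∘ k.succAbove) c := by
          unfold Aval
          rw [Ihat_zero_row k r c hk]
        have hcard : (tabs r c).card = (tabs (r ∘ k.succAbove) c).card :=
          card_tabs_zero_row k r c hk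
        rw [hA, hcard]
        refine ⟨h1, h2.trans ?_⟩
        exact mul_le_mul_of_nonneg_right (hρm _ _ _ (Nat.le_succ m)) (Aval_nonneg _ _)
      · push Not at hz
        exact h (m + 1) n r c (Nat.succ_pos m) hn (fun i => Nat.pos_of_ne_zero (hz i)) hc hsum

end Vale.Agent.Lib.P328.Fpras
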