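import Vale.Agent.Lib.P328.Fpras.TreeWalk
import Vale.Agent.Lib.P328.Fpras.ZeroRows
import Vale.Agent.Lib.P328.Cap.Table

/-!
# P328, counting algorithm: the tree of partial tables

`S = kids r c`, `D = c.length`. Along the tree the margins stay balanced, the children of `v` count
the tables (`sum_first_col` with `f = 1`, `card_fiber`), and the leaves have one table and estimate one.
`(c.drop v.length).get` is `Fin.cons c0 l.get` when `c.drop v.length = c0 :: l`.
-/

namespace Vale.Agent.Lib.P328.Fpras

open Finset Vale.Agent.Lib.P328.Cap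

variable {m : ℕ}

/-- The number of completions of the partial table `v`. -/
noncomputable def Nat_ (r : Fin m → ℕ) (c : List ℕ) (v : List (Fin m → ℕ)) : ℝ :=
  ((tabs (res r v) (c.drop v.length).get).card : ℝ)

theorem kids_empty (r : Fin m → ℕ) (c : List ℕ) (v : List (Fin m → ℕ)) (h : c.length ≤ v.length) :
    kids r c v = ∅ := by
  unfold kids
  rw [List.drop_eq_nil_of_le h]

theorem res_cons' (r : Fin m → ℕ) (v : List (Fin m → ℕ)) (x : Fin m → ℕ) :
    res r (x :: v) = fun i => res r v i - x i := by
  funext i
  simp only [res, List.map_cons, List.sum_cons]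
  rw [Nat.sub_sub, Nat.add_comm]

theorem res_cons (r : Fin m → ℕ) (c : List ℕ) {v : List (Fin m → ℕ)} {x : Fin m → ℕ}
    (_hx : x ∈ kids r c v) : res r (x :: v) = fun i => res r v i - x i :=
  res_cons' r v x

theorem res_nil' (r : Fin m → ℕ) : res r [] = r := by
  funext i
  simp [res]

theorem drop_succ_of_cons {c l : List ℕ} {k c0 : ℕ} (h : c.drop k = c0 :: l) :
    c.drop (k + 1) = l := by
  have h1 : (c.drop k).tail = c.drop (k + 1) := List.tail_drop
  rw [h] at h1
  exact h1.symm

/-- The entries of a node are below the remaining row sums, and the margins are balanced. -/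
theorem res_balance (r : Fin m → ℕ) (c : List ℕ) (hsum : ∑ i, r i = c.sum)
    {v : List (Fin m → ℕ)} (hv : v ∈ nodes (kids r c) c.length) :
    ∑ i, res r v i = (c.drop v.length).sum := by
  induction v with
  | nil =>
    rw [res_nil']
    simpa using hsum
  | cons x p ih =>
    have h := (cons_mem_nodes (fun v h => kids_empty r c v h)).1 hv
    have ih' := ih h.1
    have hx := h.2
    unfold kids at hx
    rw [res_cons']
    simp only [List.length_cons]
    cases hd : c.drop p.length with
    | nil =>
      rw [hd] at hx
      simp at hx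
    | cons c0 l =>
      rw [hd] at hx
      simp only at hx
      obtain ⟨h1, h2⟩ := mem_lev.1 hx
      rw [drop_succ_of_cons hd]
      have h3 : ∑ i, (res r p i - x i) + ∑ i, x i = ∑ i, res r p i := by
        rw [← Finset.sum_add_distrib]
        exact Finset.sum_congr rfl fun i _ => Nat.sub_add_cancel (h1 i)
      rw [ih', hd, h2] at h3
      simp only [List.sum_cons] at h3
      omega

theorem list_get_cons (c0 : ℕ) (l : List ℕ) : (c0 :: l).get = Fin.cons c0 l.get := by
  funext j
  refine Fin.cases rfl (fun i => rfl) j

theorem sum_get (l : List ℕ) : ∑ j, l.get j = l.sum := by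
  induction l with
  | nil => simp
  | cons c0 l ih =>
    show ∑ j : Fin (l.length + 1), (c0 :: l).get j = _
    rw [Fin.sum_univ_succ]
    simp only [List.sum_cons]
    rw [← ih]
    rfl

/-- The counts are additive over the children. -/
theorem Nat_add (r : Fin m → ℕ) (c : List ℕ) {v : List (Fin m → ℕ)} (hlen : v.length < c.length) :
    Nat_ r c v = ∑ x ∈ kids r c v, Nat_ r c (x :: v) := by
  unfold kids Nat_
  simp only [List.length_cons]
  cases hd : c.drop v.length with
  | nil =>
    have h1 : (c.drop v.length).length = 0 := by rw [hd]; rfl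
    simp at h1
    omega
  | cons c0 l =>
    simp only
    rw [drop_succ_of_cons hd, list_get_cons]
    have h := sum_first_col (res r v) c0 l.get (fun _ => 1)
    simp only [one_mul, Finset.sum_const, nsmul_eq_mul, mul_one] at h
    rw [h]
    refine Finset.sum_congr rfl fun x _ => ?_
    rw [res_cons']

/-- At a leaf the count and the estimate are both one. -/
theorem leaf_one (r : Fin m → ℕ) (c : List ℕ) (hsum : ∑ i, r i = c.sum)
    {v : List (Fin m → ℕ)} (hv : v ∈ lvl (kids r c) c.length) :
    Nat_ r c v = 1 ∧ Aat r c v = 1 := by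
  have hlen := mem_lvl_length hv
  have hv' : v ∈ nodes (kids r c) c.length := mem_nodes.2 ⟨by omega, by rw [hlen]; exact hv⟩
  have hbal := res_balance r c hsum hv'
  have hd : c.drop v.length = [] := List.drop_eq_nil_of_le (by omega)
  unfold Nat_ Aat
  rw [hd] at hbal ⊢
  have h := no_columns (res r v) ([] : List ℕ).get (by simpa using hbal)
  exact ⟨h.2, h.1⟩

end Vale.Agent.Lib.P328.Fpras
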