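import Vale.Agent.Lib.P328.Fpras.Defs
import Vale.Agent.Lib.P328.Cap.Int
import Vale.Agent.Lib.P328.Cap.Step

/-!
# P328, counting algorithm: the peeling identities at one node

`uval r c' t x = (∏ i, choose (r i) (x i) * t 0 i ^ x i) * capa (r - x) c' (tail of t)`.
(I) the integral of `wmat * uval` is `(∏ r i !) * Ihat (r - x) c'` (`lintegral_cons`, `lintegral_wcol_mul`,
`gx`, `gx_mul`: see `lintegral_rec_gen` in `Cap/Int.lean`).
(D) for `t, b > 0`, `x ∈ lev r c0`: `uval ≤ Phi * wt (rowP t b)`. In fact `Phi (cons c0 c') t b * wt r (rowP t b) x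
= (∏ choose * t 0 i ^ x i) * Phi (r - x) c' (tail t) (tail b)`, compare `wt_saddle` in `Cap/Step.lean`, and
`capa ≤ ofReal Phi` by `iInf_le`.
-/

namespace Vale.Agent.Lib.P328.Fpras

open Finset MeasureTheory Vale.Agent.Lib.P328.Cap
open scoped ENNReal Nat

variable {m n : ℕ}

theorem capa_le_Phi (r : Fin m → ℕ) (c : Fin n → ℕ) (t : Fin n → Fin m → ℝ) {b : Fin n → ℝ}
    (hb : ∀ j, 0 < b j) : capa r c t ≤ ENNReal.ofReal (Phi r c t b) :=
  iInf_le (fun b : {b : Fin n → ℝ // ∀ j, 0 < b j} =>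
    ENNReal.ofReal ((∏ i, (∑ j, t j i * b.1 j) ^ r i) / ∏ j, b.1 j ^ c j)) ⟨b, hb⟩

/-- `capa` is finite. -/
theorem capa_ne_top (r : Fin m → ℕ) (c : Fin n → ℕ) (t : Fin n → Fin m → ℝ) : capa r c t ≠ ⊤ :=
  ne_top_of_le_ne_top ENNReal.ofReal_ne_top (capa_le_Phi r c t (b := fun _ => 1) fun _ => one_pos)

/-- The product of the binomial coefficients and the powers of the first column. -/
noncomputable def colW (r x : Fin m → ℕ) (u : Fin m → ℝ) : ℝ :=
  ∏ i, ((r i).choose (x i) : ℝ) * u i ^ x i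

theorem colW_nonneg (r x : Fin m → ℕ) {u : Fin m → ℝ} (hu : ∀ i, 0 ≤ u i) : 0 ≤ colW r x u :=
  Finset.prod_nonneg fun i _ => mul_nonneg (Nat.cast_nonneg _) (pow_nonneg (hu i) _)

theorem uval_eq (r : Fin m → ℕ) (c' : Fin n → ℕ) (t : Fin (n + 1) → Fin m → ℝ) (x : Fin m → ℕ) :
    uval r c' t x = colW r x (t 0)
      * (capa (fun i => r i - x i) c' fun l => t l.succ).toReal := rfl

theorem measurable_uval (r : Fin m → ℕ) (c' : Fin n → ℕ) (x : Fin m → ℕ) :
    Measurable fun t : Fin (n + 1) → Fin m → ℝ => uval r c' t x := by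
  have h1 : Measurable fun t : Fin (n + 1) → Fin m → ℝ => colW r x (t 0) := by
    unfold colW
    refine Finset.measurable_prod _ fun i _ => ?_
    refine measurable_const.mul (Measurable.pow_const ?_ _)
    exact (measurable_pi_apply i).comp (measurable_pi_apply 0)
  have h2 : Measurable fun t : Fin (n + 1) → Fin m → ℝ =>
      (capa (fun i => r i - x i) c' fun l => t l.succ).toReal := by
    refine ENNReal.measurable_toReal.comp ((capa_measurable _ _).comp ?_)
    exact measurable_pi_lambda _ fun l => measurable_pi_apply _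
  exact h1.mul h2

/-- The weight in extended nonnegative reals. -/
theorem ofReal_uval (r : Fin m → ℕ) (c' : Fin n → ℕ) {t : Fin (n + 1) → Fin m → ℝ}
    (x : Fin m → ℕ) (ht : ∀ i, 0 ≤ t 0 i) :
    ENNReal.ofReal (uval r c' t x)
      = ENNReal.ofReal (colW r x (t 0)) * capa (fun i => r i - x i) c' fun l => t l.succ := by
  rw [uval_eq, ENNReal.ofReal_mul (colW_nonneg r x ht), ENNReal.ofReal_toReal (capa_ne_top _ _ _)]

/-- (I) -/
theorem lintegral_uval (r : Fin m → ℕ) (c' : Fin n → ℕ) {x : Fin m → ℕ} (hx : ∀ i, x i ≤ r i) :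
    ∫⁻ t : Fin (n + 1) → Fin m → ℝ, wmat t * ENNReal.ofReal (uval r c' t x)
      = ((∏ i, (r i)! : ℕ) : ℝ≥0∞) * Ihat (fun i => r i - x i) c' := by
  rw [lintegral_cons (E := Fin m → ℝ) n]
  set phi : (Fin m → ℝ) → ℝ≥0∞ := fun u => wcol u * ENNReal.ofReal (∏ i, u i ^ x i) with hphi
  set psi : (Fin n → Fin m → ℝ) → ℝ≥0∞ :=
    fun t => wmat t * capa (fun i => r i - x i) c' t with hpsi
  set kap : ℝ≥0∞ := ((∏ i, (r i).choose (x i) : ℕ) : ℝ≥0∞) with hkap
  have hphim : Measurable phi :=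
    measurable_wcol.mul (Measurable.ennreal_ofReal
      (Finset.measurable_prod _ fun i _ => (measurable_pi_apply i).pow_const _))
  have hpsim : Measurable psi := measurable_wmat.mul (capa_measurable _ _)
  have hpt : ∀ p : (Fin m → ℝ) × (Fin n → Fin m → ℝ),
      wmat (Fin.cons p.1 p.2 : Fin (n + 1) → Fin m → ℝ)
          * ENNReal.ofReal (uval r c' (Fin.cons p.1 p.2) x)
        = kap * (phi p.1 * psi p.2) := by
    rintro ⟨u, t⟩
    rw [wmat_cons]
    simp only [hphi, hpsi, hkap]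
    by_cases hu : wcol u = 0
    · simp [hu]
    have hup := wcol_ne_zero_pos hu
    rw [ofReal_uval r c' x (fun i => by simpa using (hup i).le)]
    simp only [Fin.cons_zero, Fin.cons_succ]
    have h3 : ENNReal.ofReal (colW r x u)
        = ((∏ i, (r i).choose (x i) : ℕ) : ℝ≥0∞) * ENNReal.ofReal (∏ i, u i ^ x i) := by
      unfold colW
      rw [Finset.prod_mul_distrib,
        ENNReal.ofReal_mul (Finset.prod_nonneg fun i _ => Nat.cast_nonneg _)]
      congr 1
      have h8 : ∏ i, ((r i).choose (x i) : ℝ) = ((∏ i, (r i).choose (x i) : ℕ) : ℝ) := by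
        push_cast
        rfl
      rw [h8, ENNReal.ofReal_natCast]
    rw [h3]
    ring
  simp only [hpt]
  rw [lintegral_const_mul' _ _ (ENNReal.natCast_ne_top _)]
  have h3 := lintegral_prod_mul (μ := (volume : Measure (Fin m → ℝ)))
    (ν := (volume : Measure (Fin n → Fin m → ℝ)))
    (f := phi) (g := psi) hphim.aemeasurable hpsim.aemeasurable
  rw [h3]
  simp only [hphi]
  rw [lintegral_wcol_mul, Ihat_eq]
  -- arithmetic of the factorials
  have hg : ((∏ i, (r i)! : ℕ) : ℝ≥0∞)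
      = ((gx r x : ℕ) : ℝ≥0∞) * ((∏ i, (r i - x i)! : ℕ) : ℝ≥0∞) := by
    rw [← gx_mul hx]
    push_cast
    rfl
  have hg2 : ((gx r x : ℕ) : ℝ≥0∞) = kap * ((∏ i, (x i)! : ℕ) : ℝ≥0∞) := by
    unfold gx
    rw [Finset.prod_mul_distrib, hkap]
    push_cast
    rfl
  have hF0 : ((∏ i, (r i - x i)! : ℕ) : ℝ≥0∞) ≠ 0 := by
    exact_mod_cast (Finset.prod_pos fun i _ => Nat.factorial_pos _).ne'
  have hFt : ((∏ i, (r i - x i)! : ℕ) : ℝ≥0∞) ≠ ⊤ := ENNReal.natCast_ne_top _
  rw [hg, hg2]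
  set J := ∫⁻ t, psi t with hJ
  set F := ((∏ i, (r i - x i)! : ℕ) : ℝ≥0∞) with hF
  set X := ((∏ i, (x i)! : ℕ) : ℝ≥0∞) with hX
  calc kap * (X * J) = kap * X * J := by ring
    _ = kap * X * (F * (J / F)) := by rw [ENNReal.mul_div_cancel hF0 hFt]
    _ = _ := by ring

/-- One factor of the saddle point identity, with a nonnegative second summand. -/
theorem saddle_factor {R v : ℕ} {a S : ℝ} (ha : 0 < a) (hS : 0 ≤ S) (hv : v ≤ R) :
    a ^ v * S ^ (R - v) = (a / (a + S)) ^ v * (1 - a / (a + S)) ^ (R - v) * (a + S) ^ R := by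
  have hD : 0 < a + S := by linarith
  have h1 : 1 - a / (a + S) = S / (a + S) := by
    field_simp
    ring
  rw [h1, div_pow, div_pow]
  have h2 : (a + S) ^ R = (a + S) ^ v * (a + S) ^ (R - v) := by
    rw [← pow_add]
    congr 1
    omega
  rw [h2]
  have h3 : (a + S) ^ v ≠ 0 := by positivity
  have h4 : (a + S) ^ (R - v) ≠ 0 := by positivity
  field_simp

/-- (D) with equality before taking the capacity of the child. -/
theorem Phi_mul_wt (r : Fin m → ℕ) (c0 : ℕ) (c' : Fin n → ℕ) (t : Fin (n + 1) → Fin m → ℝ)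
    (b : Fin (n + 1) → ℝ) (ht : ∀ j i, 0 < t j i) (hb : ∀ j, 0 < b j) {x : Fin m → ℕ}
    (hx : x ∈ lev r c0) :
    Phi r (Fin.cons c0 c') t b * wt r (rowP t b) x
      = (∏ i, ((r i).choose (x i) : ℝ) * t 0 i ^ x i)
        * Phi (fun i => r i - x i) c' (fun l => t l.succ) (fun l => b l.succ) := by
  obtain ⟨hxR, hxs⟩ := mem_lev.1 hx
  set s := b 0 with hs
  have hs0 : 0 < s := hb 0
  set b' : Fin n → ℝ := fun l => b l.succ with hb'
  have hb'0 : ∀ l, 0 < b' l := fun l => hb l.succ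
  set t' : Fin n → Fin m → ℝ := fun l => t l.succ with ht'
  set S : Fin m → ℝ := fun i => ∑ l, t' l i * b' l with hS
  have hS0 : ∀ i, 0 ≤ S i := fun i =>
    Finset.sum_nonneg fun l _ => mul_nonneg (ht l.succ i).le (hb'0 l).le
  set B : ℝ := ∏ l, b' l ^ c' l with hB
  have hB0 : 0 < B := Finset.prod_pos fun l _ => pow_pos (hb'0 l) _
  have hD : ∀ i, ∑ j, t j i * b j = t 0 i * s + S i := by
    intro i
    rw [Fin.sum_univ_succ]
  have hP : Phi r (Fin.cons c0 c') t b = (∏ i, (t 0 i * s + S i) ^ r i) / (s ^ c0 * B) := by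
    unfold Phi
    simp only [hD]
    rw [Fin.prod_univ_succ]
    simp only [Fin.cons_zero, Fin.cons_succ]
    rfl
  have hP2 : Phi (fun i => r i - x i) c' t' b' = (∏ i, S i ^ (r i - x i)) / B := rfl
  rw [hP, hP2]
  have hp : rowP t b = fun i => t 0 i * s / (t 0 i * s + S i) := by
    funext i
    unfold rowP
    rw [hD]
  rw [hp]
  have hmain : ((∏ i, ((r i).choose (x i) : ℝ) * t 0 i ^ x i) * ∏ i, S i ^ (r i - x i)) * s ^ c0
      = wt r (fun i => t 0 i * s / (t 0 i * s + S i)) x * ∏ i, (t 0 i * s + S i) ^ r i := by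
    rw [← hxs]
    unfold wt bw
    rw [← Finset.prod_pow_eq_pow_sum, ← Finset.prod_mul_distrib, ← Finset.prod_mul_distrib,
      ← Finset.prod_mul_distrib]
    refine Finset.prod_congr rfl fun i _ => ?_
    have h3 := saddle_factor (a := t 0 i * s) (S := S i) (mul_pos (ht 0 i) hs0) (hS0 i) (hxR i)
    calc ((r i).choose (x i) : ℝ) * t 0 i ^ x i * S i ^ (r i - x i) * s ^ x i
        = ((r i).choose (x i) : ℝ) * ((t 0 i * s) ^ x i * S i ^ (r i - x i)) := by
          rw [mul_pow]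
          ring
      _ = _ := by
          rw [h3]
          ring
  have hsc : s ^ c0 ≠ 0 := by positivity
  generalize wt r (fun i => t 0 i * s / (t 0 i * s + S i)) x = W at hmain ⊢
  generalize (∏ i, (t 0 i * s + S i) ^ r i) = Dp at hmain ⊢
  generalize (∏ i, S i ^ (r i - x i)) = a1 at hmain ⊢
  generalize (∏ i, ((r i).choose (x i) : ℝ) * t 0 i ^ x i) = a2 at hmain ⊢
  rw [div_mul_eq_mul_div, mul_div_assoc', div_eq_div_iff (mul_ne_zero hsc hB0.ne') hB0.ne']
  linear_combination (-B) * hmain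

/-- (D) -/
theorem uval_le (r : Fin m → ℕ) (c0 : ℕ) (c' : Fin n → ℕ) (t : Fin (n + 1) → Fin m → ℝ)
    (b : Fin (n + 1) → ℝ) (ht : ∀ j i, 0 < t j i) (hb : ∀ j, 0 < b j) {x : Fin m → ℕ}
    (hx : x ∈ lev r c0) :
    uval r c' t x ≤ Phi r (Fin.cons c0 c') t b * wt r (rowP t b) x := by
  rw [Phi_mul_wt r c0 c' t b ht hb hx, uval_eq]
  have h1 : (capa (fun i => r i - x i) c' fun l => t l.succ).toReal
      ≤ Phi (fun i => r i - x i) c' (fun l => t l.succ) (fun l => b l.succ) := by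
    apply ENNReal.toReal_le_of_le_ofReal
    · unfold Phi
      refine div_nonneg (Finset.prod_nonneg fun i _ => pow_nonneg ?_ _)
        (Finset.prod_nonneg fun l _ => pow_nonneg (hb l.succ).le _)
      exact Finset.sum_nonneg fun l _ => mul_nonneg (ht l.succ i).le (hb l.succ).le
    · exact capa_le_Phi _ _ _ fun l => hb l.succ
  exact mul_le_mul_of_nonneg_left h1 (colW_nonneg r x fun i => (ht 0 i).le)

theorem rowP_nonneg {t : Fin (n + 1) → Fin m → ℝ} {b : Fin (n + 1) → ℝ} (ht : ∀ j i, 0 < t j i)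
    (hb : ∀ j, 0 < b j) (i : Fin m) : 0 ≤ rowP t b i := by
  unfold rowP
  exact div_nonneg (mul_nonneg (ht 0 i).le (hb 0).le)
    (Finset.sum_nonneg fun j _ => mul_nonneg (ht j i).le (hb j).le)

theorem rowP_le_one {t : Fin (n + 1) → Fin m → ℝ} {b : Fin (n + 1) → ℝ} (ht : ∀ j i, 0 < t j i)
    (hb : ∀ j, 0 < b j) (i : Fin m) : rowP t b i ≤ 1 := by
  unfold rowP
  have h0 : 0 < t 0 i * b 0 := mul_pos (ht 0 i) (hb 0)
  have hle : t 0 i * b 0 ≤ ∑ j, t j i * b j :=
    Finset.single_le_sum (f := fun j => t j i * b j)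
      (fun j _ => mul_nonneg (ht j i).le (hb j).le) (mem_univ 0)
  rw [div_le_one (lt_of_lt_of_le h0 hle)]
  exact hle

/-- The weights of the table in the first column never vanish on the level (for `n = 0`, `p = 1` and
the only point of the level is `x = r` when `∑ r = c0`). -/
theorem wt_pos (r : Fin m → ℕ) (c0 : ℕ) (c' : Fin n → ℕ) (hbal : ∑ i, r i = c0 + ∑ j, c' j)
    (t : Fin (n + 1) → Fin m → ℝ) (b : Fin (n + 1) → ℝ) (ht : ∀ j i, 0 < t j i) (hb : ∀ j, 0 < b j)
    {x : Fin m → ℕ} (hx : x ∈ lev r c0) : 0 < wt r (rowP t b) x := by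
  obtain ⟨hxR, hxs⟩ := mem_lev.1 hx
  unfold wt
  refine Finset.prod_pos fun i _ => ?_
  unfold bw
  have hchoose : (0 : ℝ) < ((r i).choose (x i) : ℝ) := by
    exact_mod_cast Nat.choose_pos (hxR i)
  have h0 : 0 < t 0 i * b 0 := mul_pos (ht 0 i) (hb 0)
  have hle : t 0 i * b 0 ≤ ∑ j, t j i * b j :=
    Finset.single_le_sum (f := fun j => t j i * b j)
      (fun j _ => mul_nonneg (ht j i).le (hb j).le) (mem_univ 0)
  have hD : 0 < ∑ j, t j i * b j := lt_of_lt_of_le h0 hle
  have hp : 0 < rowP t b i := div_pos h0 hD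
  refine mul_pos (mul_pos hchoose (pow_pos hp _)) ?_
  rcases Nat.eq_zero_or_pos n with hn | hn
  · subst hn
    -- `x = r`: the exponent vanishes
    have hsum : ∑ j, c' j = 0 := by simp
    rw [hsum, add_zero, ← hxs] at hbal
    have hxr : ∀ k, x k = r k := by
      by_contra hne
      push Not at hne
      obtain ⟨k, hk⟩ := hne
      have hlt : x k < r k := lt_of_le_of_ne (hxR k) hk
      have := Finset.sum_lt_sum (s := univ) (f := x) (g := r) (fun i _ => hxR i) ⟨k, mem_univ k, hlt⟩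
      omega
    rw [hxr i, Nat.sub_self, pow_zero]
    exact one_pos
  · apply pow_pos
    rw [sub_pos]
    unfold rowP
    rw [div_lt_one hD]
    obtain ⟨n', rfl⟩ : ∃ n', n = n' + 1 := ⟨n - 1, by omega⟩
    have h3 : 0 < t (Fin.succ 0) i * b (Fin.succ 0) := mul_pos (ht _ i) (hb _)
    have h4 : t 0 i * b 0 + t (Fin.succ 0) i * b (Fin.succ 0) ≤ ∑ j, t j i * b j := by
      rw [Fin.sum_univ_succ, Fin.sum_univ_succ]
      have : 0 ≤ ∑ j : Fin n', t j.succ.succ i * b j.succ.succ :=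
        Finset.sum_nonneg fun j _ => mul_nonneg (ht _ i).le (hb _).le
      linarith
    linarith

/-- Integrals against `wLaw`, for any `g`. -/
theorem lintegral_wLaw (r : Fin m → ℕ) (c : Fin n → ℕ) (g : (Fin n → Fin m → ℝ) → ℝ≥0∞) :
    ∫⁻ t, g t ∂(wLaw r c)
      = (∫⁻ t, wmat t * capa r c t)⁻¹ * ∫⁻ t, wmat t * capa r c t * g t := by
  unfold wLaw
  rw [lintegral_smul_measure]
  congr 1
  have hexp : ∀ x, expDens x < ⊤ := by
    intro x
    unfold expDens
    split_ifs
    · exact ENNReal.ofReal_lt_top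
    · exact ENNReal.zero_lt_top
  have hw : ∀ t : Fin n → Fin m → ℝ, wmat t < ⊤ := by
    intro t
    unfold wmat wcol
    exact ENNReal.prod_lt_top fun j _ => ENNReal.prod_lt_top fun i _ => hexp _
  have hm : Measurable fun t : Fin n → Fin m → ℝ => wmat t * capa r c t :=
    measurable_wmat.mul (capa_measurable _ _)
  have h := lintegral_withDensity_eq_lintegral_mul_non_measurable volume hm
    (Filter.Eventually.of_forall fun t =>
      ENNReal.mul_lt_top (hw t) (lt_top_iff_ne_top.2 (capa_ne_top r c t))) g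
  rw [h]
  rfl

end Vale.Agent.Lib.P328.Fpras
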