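import Vale.Agent.Lib.P328.Fpras.Robust
import Vale.Agent.Lib.P328.Fpras.HFinal
import Vale.Agent.Lib.P328.Fpras.SortCols
import Vale.Agent.Lib.P328.Fpras.Solver

/-!
# P328, counting algorithm: the facts on one step of the walk, for the final statement
-/

namespace Vale.Agent.Lib.P328.Fpras

open Finset MeasureTheory Vale.Agent.Lib.P328.Cap
open scoped ENNReal

variable {m : ℕ}

/-- The law of the matrix is a probability measure as soon as the expected capacity is not zero. -/
theorem wLaw_prob {n : ℕ} (r : Fin m → ℕ) (c : Fin n → ℕ) (hI : Ihat r c ≠ 0) :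
    IsProbabilityMeasure (wLaw r c) := by
  have hF : ((∏ i, (r i).factorial : ℕ) : ℝ≥0∞) ≠ 0 := by
    exact_mod_cast (Finset.prod_pos fun i _ => Nat.factorial_pos _).ne'
  have hFt : ((∏ i, (r i).factorial : ℕ) : ℝ≥0∞) ≠ ⊤ := ENNReal.natCast_ne_top _
  have h1 := Ihat_eq r c
  have h0 : (∫⁻ t : Fin n → Fin m → ℝ, wmat t * capa r c t) ≠ 0 := by
    intro h
    rw [h] at h1
    simp at h1
    exact hI h1
  have ht : (∫⁻ t : Fin n → Fin m → ℝ, wmat t * capa r c t) ≠ ⊤ := by
    have h2 := (Ihat_lt_top r c).ne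
    rw [h1] at h2
    intro h3
    rw [h3] at h2
    exact h2 (ENNReal.top_div_of_ne_top hFt)
  constructor
  have h4 := lintegral_wLaw r c (fun _ => 1)
  simp only [mul_one] at h4
  rw [lintegral_one] at h4
  rw [h4, ENNReal.inv_mul_cancel h0 ht]

/-- The walk is a Markov chain on the nodes. -/
theorem algWalk_stochastic {ρ : ℕ → ℕ → ℝ} (hρ1 : ∀ m n, 1 ≤ ρ m n)
    (hρn : ∀ m n n', n ≤ n' → ρ m n ≤ ρ m n') (hH : HBound ρ) (hm : 0 < m) {r : Fin m → ℕ}
    {c : List ℕ} (hc : c.Pairwise (· ≤ ·)) (hpos : ∀ y ∈ c, 0 < y) (hsum : ∑ i, r i = c.sum)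
    {ε : ℝ} (hε0 : 0 < ε) (hε1 : ε ≤ 1) {sol : Sol m} (hsol : IsSolver sol)
    {v : List (Fin m → ℕ)} (hv : v ∈ nodes (kids r c) c.length) :
    (∀ w, 0 ≤ algWalk (parOf m c.length (ρ m c.length) ε) sol r c v w) ∧
      ∑ w ∈ nodes (kids r c) c.length, algWalk (parOf m c.length (ρ m c.length) ε) sol r c v w = 1 := by
  have hbd := fun v hv => node_bounds hρ1 hρn hH (r := r) (c := c) hpos hsum (v := v) hv
  have hOK := parOK (m := m) (n := c.length) hm (hρ1 m c.length) hε0 hε1
  obtain ⟨hup, _, hq1, _, hlazy, hd0, hd1, _⟩ :=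
    chain_hyp (sol := sol) (r := r) (c := c) hsol hc hpos hsum (hρ1 m c.length)
      (fun v hv => (hbd v hv).1) (fun v hv => (hbd v hv).2.1) (fun v hv => (hbd v hv).2.2) hOK
  unfold algWalk
  rw [hup]
  constructor
  · intro w
    refine walk_nonneg (hd0 v hv) (hq1 v hv) ?_ w
    have h2 : ∑ x ∈ kids r c v, downAt (parOf m c.length (ρ m c.length) ε) sol r c v x
        ≤ ∑ x ∈ kids r c v, dnI (Aat r c) (rateAt (parOf m c.length (ρ m c.length) ε) r c) v x :=
      Finset.sum_le_sum fun x hx => hd1 v hv x hx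
    have := hlazy v hv
    linarith
  · refine sum_walk_one _ _ _ _ (fun v h => kids_empty r c v h) hv ?_
    rintro rfl
    exact upI_nil

/-- At an inner node the law of the matrix is a probability measure. -/
theorem wLaw_prob_node {ρ : ℕ → ℕ → ℝ} (hρ1 : ∀ m n, 1 ≤ ρ m n)
    (hρn : ∀ m n n', n ≤ n' → ρ m n ≤ ρ m n') (hH : HBound ρ) {r : Fin m → ℕ}
    {c : List ℕ} (hpos : ∀ y ∈ c, 0 < y) (hsum : ∑ i, r i = c.sum)
    {v : List (Fin m → ℕ)} (hv : v ∈ nodes (kids r c) c.length) {c0 : ℕ} {l : List ℕ}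
    (hd : c.drop v.length = c0 :: l) :
    IsProbabilityMeasure (wLaw (res r v) (Fin.cons c0 l.get : Fin (l.length + 1) → ℕ)) := by
  have hbd := node_bounds hρ1 hρn hH (r := r) (c := c) hpos hsum hv
  have h5 := hbd.1
  rw [Aat_inner hd] at h5
  exact wLaw_prob _ _ (Ihat_ne_zero_of_Aval h5)

/-- All the probabilities of the coins of a trial at an inner node are at most one. -/
theorem coins_node {r : Fin m → ℕ} {c : List ℕ} (hc : c.Pairwise (· ≤ ·)) (hpos : ∀ y ∈ c, 0 < y)
    (hsum : ∑ i, r i = c.sum) {P : Par} (hd0 : 0 ≤ P.d) {sol : Sol m} (hsol : IsSolver sol)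
    {v : List (Fin m → ℕ)} (hv : v ∈ nodes (kids r c) c.length) {c0 : ℕ} {l : List ℕ}
    (hd : c.drop v.length = c0 :: l) {t : Fin (l.length + 1) → Fin m → ℝ} (ht : ∀ j i, 0 < t j i)
    {i : Fin m} (hi : P.V0 m l.length c0 ≤ rowV (res r v) t (sol (res r v) c0 l t) i)
    {x : Fin m → ℕ} (hx : x ∈ lev (res r v) c0) :
    P.K m l.length c0 * bw (res r v i) (rowP t (sol (res r v) c0 l t) i) (x i) ≤ 1
      ∧ uval (res r v) l.get t x / (2 * (capa (res r v) (Fin.cons c0 l.get) t).toReal
          * wt (res r v) (rowP t (sol (res r v) c0 l t)) x) ≤ 1 := by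
  obtain ⟨_, _, _, h4⟩ := inner_facts hc hpos hsum hv hd
  have hbal : ∑ i, res r v i = c0 + ∑ j, l.get j := by
    rw [h4]
    congr 1
    have : ∑ i : Fin l.length, l.get i = (List.ofFn l.get).sum := by
      rw [List.sum_ofFn]
    rw [this, List.ofFn_get]
  exact coin_le_one (nodeSol_of hsol h4) hbal hd0 ht hi hx

/-- **The main theorem in its final form.** -/
theorem fpras_main {m n : ℕ} (r : Fin m → ℕ) (c : Fin n → ℕ) (hm : 0 < m)
    (hsum : ∑ i, r i = ∑ j, c j) (ε δ : ℝ) (hε0 : 0 < ε) (hε1 : ε ≤ 1) (hδ0 : 0 < δ) (hδ1 : δ ≤ 1)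
    (sol : Sol m) (hsol : IsSolver sol) :
    (∀ v ∈ nodes (kids r (sortedCols c)) (sortedCols c).length, ∀ (c0 : ℕ) (l : List ℕ),
      (sortedCols c).drop v.length = c0 :: l →
        IsProbabilityMeasure (wLaw (res r v) (Fin.cons c0 l.get : Fin (l.length + 1) → ℕ))
        ∧ ∀ t : Fin (l.length + 1) → Fin m → ℝ, (∀ j i, 0 < t j i) → ∀ i : Fin m,
          (parOf m (sortedCols c).length (rhoP m (sortedCols c).length) ε).V0 m l.length c0
              ≤ rowV (res r v) t (sol (res r v) c0 l t) i →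
            ∀ x ∈ lev (res r v) c0,
              (parOf m (sortedCols c).length (rhoP m (sortedCols c).length) ε).K m l.length c0
                  * bw (res r v i) (rowP t (sol (res r v) c0 l t) i) (x i) ≤ 1
                ∧ uval (res r v) l.get t x / (2 * (capa (res r v) (Fin.cons c0 l.get) t).toReal
                    * wt (res r v) (rowP t (sol (res r v) c0 l t)) x) ≤ 1)
    ∧ (∀ v ∈ nodes (kids r (sortedCols c)) (sortedCols c).length,
        (∀ w, 0 ≤ algWalk (parOf m (sortedCols c).length (rhoP m (sortedCols c).length) ε) sol r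
          (sortedCols c) v w)
        ∧ ∑ w ∈ nodes (kids r (sortedCols c)) (sortedCols c).length,
            algWalk (parOf m (sortedCols c).length (rhoP m (sortedCols c).length) ε) sol r
              (sortedCols c) v w = 1)
    ∧ ∀ Ahat : ℝ, |Ahat - Aval r (sortedCols c).get| ≤ ε / 4 * Aval r (sortedCols c).get →
      ∀ Q : List (Fin m → ℕ) → List (Fin m → ℕ) → ℝ,
        (∀ v ∈ nodes (kids r (sortedCols c)) (sortedCols c).length, ∀ w, 0 ≤ Q v w) →
        (∀ v ∈ nodes (kids r (sortedCols c)) (sortedCols c).length,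
          ∑ w ∈ nodes (kids r (sortedCols c)) (sortedCols c).length, Q v w = 1) →
        (∀ v ∈ nodes (kids r (sortedCols c)) (sortedCols c).length,
          ∑ w ∈ nodes (kids r (sortedCols c)) (sortedCols c).length,
            |Q v w - algWalk (parOf m (sortedCols c).length (rhoP m (sortedCols c).length) ε) sol r
              (sortedCols c) v w|
              ≤ 1 / Bpar m (sortedCols c).length (rhoP m (sortedCols c).length) ε ^ 22) →
        1 - δ ≤ runProb (nodes (kids r (sortedCols c)) (sortedCols c).length)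
          (lawT (nodes (kids r (sortedCols c)) (sortedCols c).length) Q
            (stepsOf m (sortedCols c).length (rhoP m (sortedCols c).length) ε))
          (runsOf m (sortedCols c).length (rhoP m (sortedCols c).length) ε δ) fun ω =>
            (1 - ε) * ((tabs r c).card : ℝ)
                ≤ Ahat * (countIn (lvl (kids r (sortedCols c)) (sortedCols c).length) ω : ℝ)
                    / (countIn {[]} ω : ℝ)
              ∧ Ahat * (countIn (lvl (kids r (sortedCols c)) (sortedCols c).length) ω : ℝ)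
                    / (countIn {[]} ω : ℝ)
                ≤ (1 + ε) * ((tabs r c).card : ℝ) := by
  obtain ⟨hc, hpos, hsumL, _, hcard⟩ := sortedCols_spec r c
  have hsum' : ∑ i, r i = (sortedCols c).sum := by rw [hsum, hsumL]
  have hρn : ∀ m n n', n ≤ n' → rhoP m n ≤ rhoP m n' := fun m n n' h => rhoP_mono_right m n n' h
  refine ⟨?_, ?_, ?_⟩
  · intro v hv c0 l hd
    refine ⟨wLaw_prob_node rhoP_one hρn hbound_rhoP hpos hsum' hv hd, ?_⟩
    intro t ht i hi x hx
    have hB := (B_facts (m := m) (n := (sortedCols c).length) (rhoP_one m (sortedCols c).length) hε0 hε1).1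
    have hd0 : 0 ≤ (parOf m (sortedCols c).length (rhoP m (sortedCols c).length) ε).d := by
      have : 0 < Bpar m (sortedCols c).length (rhoP m (sortedCols c).length) ε := by
        linarith [show (0 : ℝ) < 10 ^ 8 by norm_num]
      simp only [parOf]
      positivity
    exact coins_node hc hpos hsum' hd0 hsol hv hd ht hi hx
  · intro v hv
    exact algWalk_stochastic rhoP_one hρn hbound_rhoP hm hc hpos hsum' hε0 hε1 hsol hv
  · intro Ahat hAhat Q hQ0 hQ1 hQ
    rw [← hcard]
    exact fpras_robust rhoP_one hρn hbound_rhoP hm r (sortedCols c) hc hpos hsum' hε0 hε1 hδ0 hδ1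
      hAhat hsol hQ0 hQ1 hQ

end Vale.Agent.Lib.P328.Fpras
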