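import Vale.Agent.Lib.P328.Fpras.Defs

/-!
# P328, counting algorithm: the walk on a tree of lists

`walk S down up` with `down v x = q v * A (x :: v) / (8 * A v)`, `up (x :: p) = q p / 8` is reversible
for the weight `A`. Path bound to the root, subtree bound, contraction of the variance, perturbation.
-/

namespace Vale.Agent.Lib.P328.Fpras

open Finset

variable {X : Type} [DecidableEq X]

section Nodes

variable {S : List X → Finset X} {D : ℕ}

theorem mem_lvl_length {l : ℕ} {v : List X} (h : v ∈ lvl S l) : v.length = l := by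
  induction l generalizing v with
  | zero =>
    simp only [lvl, mem_singleton] at h
    simp [h]
  | succ l ih =>
    simp only [lvl, mem_biUnion, mem_image] at h
    obtain ⟨p, hp, x, _, rfl⟩ := h
    simp [ih hp]

theorem nil_mem_nodes : ([] : List X) ∈ nodes S D := by
  unfold nodes
  refine mem_biUnion.2 ⟨0, mem_range.2 (by omega), ?_⟩
  simp [lvl]

theorem mem_nodes {v : List X} : v ∈ nodes S D ↔ v.length ≤ D ∧ v ∈ lvl S v.length := by
  unfold nodes
  constructor
  · intro h
    obtain ⟨l, hl, hv⟩ := mem_biUnion.1 h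
    have h1 := mem_lvl_length hv
    subst h1
    exact ⟨by have := mem_range.1 hl; omega, hv⟩
  · rintro ⟨h1, h2⟩
    exact mem_biUnion.2 ⟨_, mem_range.2 (by omega), h2⟩

theorem cons_mem_lvl {x : X} {v : List X} {l : ℕ} :
    x :: v ∈ lvl S (l + 1) ↔ v ∈ lvl S l ∧ x ∈ S v := by
  simp only [lvl, mem_biUnion, mem_image]
  constructor
  · rintro ⟨p, hp, y, hy, h⟩
    simp only [List.cons.injEq] at h
    obtain ⟨rfl, rfl⟩ := h
    exact ⟨hp, hy⟩
  · rintro ⟨h1, h2⟩
    exact ⟨v, h1, x, h2, rfl⟩

theorem cons_mem_nodes (hS : ∀ v, D ≤ v.length → S v = ∅) {x : X} {v : List X} :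
    x :: v ∈ nodes S D ↔ v ∈ nodes S D ∧ x ∈ S v := by
  rw [mem_nodes, mem_nodes]
  simp only [List.length_cons]
  constructor
  · rintro ⟨h1, h2⟩
    have h3 := cons_mem_lvl.1 h2
    exact ⟨⟨by omega, h3.1⟩, h3.2⟩
  · rintro ⟨⟨h1, h2⟩, h3⟩
    have h4 : v.length < D := by
      by_contra h5
      have h6 := hS v (by omega)
      rw [h6] at h3
      simp at h3
    exact ⟨by omega, cons_mem_lvl.2 ⟨h2, h3⟩⟩

theorem tail_mem_nodes (hS : ∀ v, D ≤ v.length → S v = ∅) {v : List X} (h : v ∈ nodes S D) :
    v.tail ∈ nodes S D := by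
  cases v with
  | nil => exact nil_mem_nodes
  | cons x p => exact ((cons_mem_nodes hS).1 h).1

theorem length_le_of_mem_nodes {v : List X} (h : v ∈ nodes S D) : v.length ≤ D :=
  (mem_nodes.1 h).1

/-- Sums over the children of all nodes are sums over the non-root nodes. -/
theorem sum_edges (hS : ∀ v, D ≤ v.length → S v = ∅) (F : List X → ℝ) :
    ∑ v ∈ nodes S D, ∑ x ∈ S v, F (x :: v) = ∑ s ∈ (nodes S D).filter (· ≠ []), F s := by
  have h1 : (nodes S D).filter (· ≠ [])
      = (nodes S D).biUnion fun v => (S v).image fun x => x :: v := by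
    ext s
    simp only [mem_filter, mem_biUnion, mem_image]
    constructor
    · rintro ⟨h1, h2⟩
      cases s with
      | nil => exact absurd rfl h2
      | cons x p =>
        have h3 := (cons_mem_nodes hS).1 h1
        exact ⟨p, h3.1, x, h3.2, rfl⟩
    · rintro ⟨v, hv, x, hx, rfl⟩
      exact ⟨(cons_mem_nodes hS).2 ⟨hv, hx⟩, by simp⟩
  rw [h1, sum_biUnion]
  · refine sum_congr rfl fun v _ => ?_
    rw [sum_image]
    intro a _ b _ h
    simpa using h
  · intro v _ w _ hvw
    refine disjoint_left.2 ?_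
    intro s hs ht
    obtain ⟨x, _, rfl⟩ := mem_image.1 hs
    obtain ⟨y, _, hy⟩ := mem_image.1 ht
    simp only [List.cons.injEq] at hy
    exact hvw hy.2.symm

end Nodes

section WalkSum

variable (S : List X → Finset X) (D : ℕ) (down : List X → X → ℝ) (up : List X → ℝ)

theorem sum_toChild (hS : ∀ v, D ≤ v.length → S v = ∅) {v : List X} (hv : v ∈ nodes S D)
    (φ : List X → X → ℝ) (g : List X → ℝ) :
    ∑ w ∈ nodes S D, toChild S φ v w * g w = ∑ x ∈ S v, φ v x * g (x :: v) := by
  have hsub : (S v).image (fun x => x :: v) ⊆ nodes S D := by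
    intro w hw
    obtain ⟨x, hx, rfl⟩ := mem_image.1 hw
    exact (cons_mem_nodes hS).2 ⟨hv, hx⟩
  rw [← sum_subset hsub]
  · rw [sum_image (fun a _ b _ h => by simpa using h)]
    refine sum_congr rfl fun x hx => ?_
    simp [toChild, hx]
  · intro w _ hw
    cases w with
    | nil => simp [toChild]
    | cons x p =>
      have : ¬ (p = v ∧ x ∈ S v) := by
        rintro ⟨rfl, h⟩
        exact hw (mem_image.2 ⟨x, h, rfl⟩)
      simp [toChild, this]

theorem sum_ite_eq_node {v : List X} (hv : v ∈ nodes S D) (a : ℝ) (g : List X → ℝ) :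
    ∑ w ∈ nodes S D, (if w = v then a else 0) * g w = a * g v := by
  rw [sum_eq_single v]
  · simp
  · intro w _ h
    simp [h]
  · intro h
    exact absurd hv h

theorem sum_toParent (hS : ∀ v, D ≤ v.length → S v = ∅) {v : List X} (hv : v ∈ nodes S D)
    (g : List X → ℝ) :
    ∑ w ∈ nodes S D, toParent up v w * g w = if v = [] then 0 else up v * g v.tail := by
  unfold toParent
  by_cases h0 : v = []
  · simp [h0]
  · have hp := tail_mem_nodes hS hv
    simp only [h0, ne_eq, not_false_eq_true, true_and, if_false]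
    rw [sum_eq_single v.tail]
    · simp
    · intro w _ h
      simp [Ne.symm h]
    · intro h
      exact absurd hp h

theorem sum_walk (hS : ∀ v, D ≤ v.length → S v = ∅) {v : List X} (hv : v ∈ nodes S D)
    (g : List X → ℝ) :
    ∑ w ∈ nodes S D, walk S down up v w * g w
      = (1 - up v - ∑ x ∈ S v, down v x) * g v + ∑ x ∈ S v, down v x * g (x :: v)
        + if v = [] then 0 else up v * g v.tail := by
  unfold walk
  simp only [add_mul]
  rw [sum_add_distrib, sum_add_distrib, sum_ite_eq_node S D hv, sum_toChild S D hS hv,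
    sum_toParent S D up hS hv]

theorem sum_walk_one (hS : ∀ v, D ≤ v.length → S v = ∅) {v : List X} (hv : v ∈ nodes S D)
    (hup : v = [] → up v = 0) :
    ∑ w ∈ nodes S D, walk S down up v w = 1 := by
  have h := sum_walk S D down up hS hv (fun _ => 1)
  simp only [mul_one] at h
  rw [h]
  by_cases h0 : v = []
  · subst h0
    simp [hup rfl]
  · simp [h0]

end WalkSum

section Rev

variable (S : List X → Finset X) (D : ℕ) (A q : List X → ℝ)

/-- The transition to a child in the ideal walk. -/
noncomputable def dnI (v : List X) (x : X) : ℝ := (1 / 8) * q v * A (x :: v) / A v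

/-- The transition to the parent in the ideal walk. -/
noncomputable def upI (v : List X) : ℝ := if v = [] then 0 else (1 / 8) * q v.tail

/-- The conductance of the edge from `s` to its parent. -/
noncomputable def edgeW (s : List X) : ℝ := (1 / 8) * q s.tail * A s

/-- The operator of the ideal walk. -/
noncomputable def PI (g : List X → ℝ) (v : List X) : ℝ :=
  ∑ w ∈ nodes S D, walk S (dnI A q) (upI q) v w * g w

/-- The basic bilinear identity. -/
theorem bilinear (hS : ∀ v, D ≤ v.length → S v = ∅) (hA : ∀ v ∈ nodes S D, 0 < A v)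
    (f g : List X → ℝ) :
    ∑ v ∈ nodes S D, A v * f v * PI S D A q g v
      = ∑ v ∈ nodes S D, A v * f v * g v
        - ∑ s ∈ (nodes S D).filter (· ≠ []), edgeW A q s * (f s - f s.tail) * (g s - g s.tail) := by
  have h1 : ∀ v ∈ nodes S D, A v * f v * PI S D A q g v
      = A v * f v * g v
        + ∑ x ∈ S v, edgeW A q (x :: v) * f v * (g (x :: v) - g v)
        + if v ≠ [] then edgeW A q v * f v * (g v.tail - g v) else 0 := by
    intro v hv
    unfold PI
    rw [sum_walk S D _ _ hS hv]
    have hAv := (hA v hv).ne'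
    have h2 : ∀ x ∈ S v, A v * f v * (dnI A q v x * (g (x :: v) - g v))
        = edgeW A q (x :: v) * f v * (g (x :: v) - g v) := by
      intro x _
      unfold dnI edgeW
      simp only [List.tail_cons]
      field_simp
    have h3 : (1 - upI q v - ∑ x ∈ S v, dnI A q v x) * g v + ∑ x ∈ S v, dnI A q v x * g (x :: v)
        = g v - upI q v * g v + ∑ x ∈ S v, dnI A q v x * (g (x :: v) - g v) := by
      rw [Finset.sum_congr rfl (fun x _ => mul_sub (dnI A q v x) (g (x :: v)) (g v)), sum_sub_distrib,
        ← Finset.sum_mul]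
      ring
    rw [h3]
    have h4 : ∑ x ∈ S v, edgeW A q (x :: v) * f v * (g (x :: v) - g v)
        = A v * f v * ∑ x ∈ S v, dnI A q v x * (g (x :: v) - g v) := by
      rw [Finset.mul_sum]
      exact (Finset.sum_congr rfl h2).symm
    rw [h4]
    by_cases h0 : v = []
    · subst h0
      simp [upI]
      ring
    · simp only [h0, ne_eq, not_false_eq_true, if_true, if_false, upI, edgeW]
      ring
  rw [Finset.sum_congr rfl h1, sum_add_distrib, sum_add_distrib]
  have h5 := sum_edges (S := S) (D := D) hS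
    (fun s => edgeW A q s * f s.tail * (g s - g s.tail))
  simp only [List.tail_cons] at h5
  rw [h5, sum_ite, sum_const_zero, add_zero]
  rw [add_assoc, sub_eq_add_neg, ← sum_add_distrib, ← sum_neg_distrib]
  congr 1
  refine Finset.sum_congr rfl fun s _ => ?_
  ring

/-- The mass is preserved. -/
theorem mass_PI (hS : ∀ v, D ≤ v.length → S v = ∅) (hA : ∀ v ∈ nodes S D, 0 < A v)
    (g : List X → ℝ) :
    ∑ v ∈ nodes S D, A v * PI S D A q g v = ∑ v ∈ nodes S D, A v * g v := by
  have h := bilinear S D A q hS hA (fun _ => 1) g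
  simpa using h

variable {S D A q}

theorem upI_nil : upI q ([] : List X) = 0 := by simp [upI]

/-- Jensen for the lazy walk. -/
theorem jensen_lazy (hS : ∀ v, D ≤ v.length → S v = ∅)
    (hdn : ∀ v ∈ nodes S D, ∀ x ∈ S v, 0 ≤ dnI A q v x)
    (hup : ∀ v ∈ nodes S D, 0 ≤ upI q v) (hlazy : ∀ v ∈ nodes S D, upI q v + ∑ x ∈ S v, dnI A q v x ≤ 1 / 2)
    (f : List X → ℝ) {v : List X} (hv : v ∈ nodes S D) :
    (2 * PI S D A q f v - f v) ^ 2 ≤ 2 * PI S D A q (fun w => f w ^ 2) v - f v ^ 2 := by
  set a : List X → ℝ := fun w => 2 * walk S (dnI A q) (upI q) v w - if w = v then 1 else 0 with ha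
  have hpart : ∀ w, 0 ≤ toChild S (dnI A q) v w := by
    intro w
    cases w with
    | nil => simp [toChild]
    | cons x p =>
      simp only [toChild]
      split_ifs with h
      · exact hdn v hv x h.2
      · exact le_rfl
  have hpar : ∀ w, 0 ≤ toParent (upI q) v w := by
    intro w
    unfold toParent
    split_ifs
    · exact hup v hv
    · exact le_rfl
  have ha0 : ∀ w ∈ nodes S D, 0 ≤ a w := by
    intro w _
    simp only [ha, walk]
    by_cases hw : w = v
    · subst hw
      have h1 := hlazy w hv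
      have h2 := hpart w
      have h3 := hpar w
      simp only [if_true]
      linarith
    · have h2 := hpart w
      have h3 := hpar w
      simp only [hw, if_false]
      linarith
  have hsum : ∀ g : List X → ℝ, ∑ w ∈ nodes S D, a w * g w = 2 * PI S D A q g v - g v := by
    intro g
    simp only [ha, sub_mul, mul_assoc]
    rw [sum_sub_distrib, ← Finset.mul_sum]
    congr 1
    rw [sum_eq_single v]
    · simp
    · intro w _ h
      simp [h]
    · intro h
      exact absurd hv h
  have h1 := hsum (fun _ => 1)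
  have hP1 : PI S D A q (fun _ => 1) v = 1 := by
    unfold PI
    simp only [mul_one]
    refine sum_walk_one S D _ _ hS hv ?_
    rintro rfl
    exact upI_nil
  rw [hP1] at h1
  simp only [mul_one] at h1
  have h2 : (∑ w ∈ nodes S D, a w * f w) ^ 2
      ≤ (∑ w ∈ nodes S D, a w) * ∑ w ∈ nodes S D, a w * f w ^ 2 := by
    refine Finset.sum_sq_le_sum_mul_sum_of_sq_le_mul _ (fun w hw => ha0 w hw)
      (fun w hw => mul_nonneg (ha0 w hw) (sq_nonneg _)) ?_
    intro w _
    exact le_of_eq (by ring)
  rw [h1, hsum f, hsum (fun w => f w ^ 2)] at h2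
  norm_num at h2
  simpa using h2

/-- The square of the operator is below the form. -/
theorem sq_PI_le (hS : ∀ v, D ≤ v.length → S v = ∅) (hA : ∀ v ∈ nodes S D, 0 < A v)
    (hdn : ∀ v ∈ nodes S D, ∀ x ∈ S v, 0 ≤ dnI A q v x)
    (hup : ∀ v ∈ nodes S D, 0 ≤ upI q v) (hlazy : ∀ v ∈ nodes S D, upI q v + ∑ x ∈ S v, dnI A q v x ≤ 1 / 2)
    (f : List X → ℝ) :
    ∑ v ∈ nodes S D, A v * PI S D A q f v ^ 2 ≤ ∑ v ∈ nodes S D, A v * f v * PI S D A q f v := by
  have h1 : ∑ v ∈ nodes S D, A v * (2 * PI S D A q f v - f v) ^ 2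
      ≤ ∑ v ∈ nodes S D, A v * (2 * PI S D A q (fun w => f w ^ 2) v - f v ^ 2) :=
    Finset.sum_le_sum fun v hv =>
      mul_le_mul_of_nonneg_left (jensen_lazy hS hdn hup hlazy f hv) (hA v hv).le
  have h2 := mass_PI S D A q hS hA (fun w => f w ^ 2)
  have h3 : ∑ v ∈ nodes S D, A v * (2 * PI S D A q (fun w => f w ^ 2) v - f v ^ 2)
      = 2 * ∑ v ∈ nodes S D, A v * PI S D A q (fun w => f w ^ 2) v
        - ∑ v ∈ nodes S D, A v * f v ^ 2 := by
    rw [Finset.mul_sum, ← sum_sub_distrib]
    refine Finset.sum_congr rfl fun v _ => ?_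
    ring
  have h4 : ∑ v ∈ nodes S D, A v * (2 * PI S D A q f v - f v) ^ 2
      = 4 * ∑ v ∈ nodes S D, A v * PI S D A q f v ^ 2
        - 4 * ∑ v ∈ nodes S D, A v * f v * PI S D A q f v + ∑ v ∈ nodes S D, A v * f v ^ 2 := by
    rw [Finset.mul_sum, Finset.mul_sum, ← sum_sub_distrib, ← sum_add_distrib]
    refine Finset.sum_congr rfl fun v _ => ?_
    ring
  rw [h3, h2, h4] at h1
  linarith

/-- The Dirichlet form. -/
noncomputable def Dir (S : List X → Finset X) (D : ℕ) (A q : List X → ℝ) (f : List X → ℝ) : ℝ :=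
  ∑ s ∈ (nodes S D).filter (· ≠ []), edgeW A q s * (f s - f s.tail) ^ 2

/-- The variance, times the total weight. -/
noncomputable def Wv (S : List X → Finset X) (D : ℕ) (A : List X → ℝ) (f : List X → ℝ) : ℝ :=
  ∑ v ∈ nodes S D, A v * f v ^ 2
    - (∑ v ∈ nodes S D, A v * f v) ^ 2 / ∑ v ∈ nodes S D, A v

theorem total_pos (hA : ∀ v ∈ nodes S D, 0 < A v) : 0 < ∑ v ∈ nodes S D, A v :=
  Finset.sum_pos hA ⟨[], nil_mem_nodes⟩

/-- One step: the variance falls by the Dirichlet form. -/
theorem Wv_step (hS : ∀ v, D ≤ v.length → S v = ∅) (hA : ∀ v ∈ nodes S D, 0 < A v)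
    (hdn : ∀ v ∈ nodes S D, ∀ x ∈ S v, 0 ≤ dnI A q v x)
    (hup : ∀ v ∈ nodes S D, 0 ≤ upI q v) (hlazy : ∀ v ∈ nodes S D, upI q v + ∑ x ∈ S v, dnI A q v x ≤ 1 / 2)
    (f : List X → ℝ) :
    Wv S D A (PI S D A q f) ≤ Wv S D A f - Dir S D A q f := by
  have h1 := sq_PI_le hS hA hdn hup hlazy f
  have h2 := bilinear S D A q hS hA f f
  have h3 := mass_PI S D A q hS hA f
  unfold Wv Dir
  rw [h3]
  have h4 : ∑ s ∈ (nodes S D).filter (· ≠ []), edgeW A q s * (f s - f s.tail) * (f s - f s.tail)
      = ∑ s ∈ (nodes S D).filter (· ≠ []), edgeW A q s * (f s - f s.tail) ^ 2 :=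
    Finset.sum_congr rfl fun s _ => by ring
  rw [h4] at h2
  have h5 : ∑ v ∈ nodes S D, A v * f v * f v = ∑ v ∈ nodes S D, A v * f v ^ 2 :=
    Finset.sum_congr rfl fun s _ => by ring
  rw [h5] at h2
  linarith

/-- The variance is at most the weighted square distance from any constant. -/
theorem Wv_le_const (hA : ∀ v ∈ nodes S D, 0 < A v) (f : List X → ℝ) (a : ℝ) :
    Wv S D A f ≤ ∑ v ∈ nodes S D, A v * (f v - a) ^ 2 := by
  have hZ := total_pos hA
  set Z := ∑ v ∈ nodes S D, A v with hZdef
  set M := ∑ v ∈ nodes S D, A v * f v with hM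
  have h1 : ∑ v ∈ nodes S D, A v * (f v - a) ^ 2
      = ∑ v ∈ nodes S D, A v * f v ^ 2 - 2 * a * M + a ^ 2 * Z := by
    rw [hM, hZdef, Finset.mul_sum, Finset.mul_sum, ← sum_sub_distrib, ← sum_add_distrib]
    refine Finset.sum_congr rfl fun v _ => ?_
    ring
  rw [h1]
  unfold Wv
  have h2 : 0 ≤ (a * Z - M) ^ 2 / Z := by positivity
  have h3 : (a * Z - M) ^ 2 / Z = a ^ 2 * Z - 2 * a * M + M ^ 2 / Z := by
    field_simp
    ring
  rw [h3] at h2
  linarith

/-- Cauchy-Schwarz along the path to the root. -/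
theorem path_bound (f : List X → ℝ) (hS : ∀ v, D ≤ v.length → S v = ∅) {v : List X}
    (hv : v ∈ nodes S D) :
    (f v - f []) ^ 2 ≤ (v.length : ℝ) * ∑ s ∈ ((nodes S D).filter (· ≠ [])).filter (· <:+ v),
        (f s - f s.tail) ^ 2 := by
  induction v with
  | nil => simp
  | cons x p ih =>
    have hp := ((cons_mem_nodes hS).1 hv).1
    have h1 := ih hp
    have h2 : ((nodes S D).filter (· ≠ [])).filter (· <:+ x :: p)
        = insert (x :: p) (((nodes S D).filter (· ≠ [])).filter (· <:+ p)) := by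
      ext s
      simp only [mem_filter, mem_insert, List.suffix_cons_iff]
      constructor
      · rintro ⟨⟨h3, h4⟩, h5 | h5⟩
        · exact Or.inl h5
        · exact Or.inr ⟨⟨h3, h4⟩, h5⟩
      · rintro (rfl | ⟨⟨h3, h4⟩, h5⟩)
        · exact ⟨⟨hv, by simp⟩, Or.inl rfl⟩
        · exact ⟨⟨h3, h4⟩, Or.inr h5⟩
    have h3 : x :: p ∉ ((nodes S D).filter (· ≠ [])).filter (· <:+ p) := by
      intro h
      have h4 := (mem_filter.1 h).2
      have h5 := h4.length_le
      simp at h5
    rw [h2, sum_insert h3]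
    simp only [List.tail_cons, List.length_cons]
    set P := ∑ s ∈ ((nodes S D).filter (· ≠ [])).filter (· <:+ p), (f s - f s.tail) ^ 2 with hP
    have hP0 : 0 ≤ P := Finset.sum_nonneg fun _ _ => sq_nonneg _
    set a := f (x :: p) - f p with ha
    set b := f p - f [] with hb
    have h4 : f (x :: p) - f [] = a + b := by
      rw [ha, hb]
      ring
    rw [h4]
    push_cast
    set L : ℝ := (p.length : ℝ) with hL
    have hL0 : 0 ≤ L := Nat.cast_nonneg _
    rcases hL0.eq_or_lt with h5 | h5
    · rw [← h5] at h1 ⊢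
      have h6 : b = 0 := by
        have : b ^ 2 ≤ 0 := by simpa using h1
        nlinarith [sq_nonneg b]
      rw [h6]
      nlinarith
    · have h6 : 2 * a * b ≤ L * a ^ 2 + b ^ 2 / L := by
        have h7 : 0 ≤ (L * a - b) ^ 2 / L := by positivity
        have h8 : (L * a - b) ^ 2 / L = L * a ^ 2 - 2 * a * b + b ^ 2 / L := by
          field_simp
          ring
        rw [h8] at h7
        linarith
      have h7 : b ^ 2 / L ≤ P := by
        rw [div_le_iff₀ h5]
        linarith
      nlinarith

/-- The path bound for the variance. -/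
theorem poincare (hS : ∀ v, D ≤ v.length → S v = ∅) (hA : ∀ v ∈ nodes S D, 0 < A v)
    {q0 Λ : ℝ} (hq0 : 0 < q0) (hΛ : 0 ≤ Λ)
    (hq : ∀ s ∈ nodes S D, s ≠ [] → q0 ≤ q s.tail)
    (hsub : ∀ s ∈ nodes S D, ∑ u ∈ (nodes S D).filter (s <:+ ·), A u ≤ Λ * A s)
    (f : List X → ℝ) :
    Wv S D A f ≤ (8 * ((D : ℝ) + 1) * Λ / q0) * Dir S D A q f := by
  have h1 := Wv_le_const hA f (f [])
  have h2 : ∀ v ∈ nodes S D, A v * (f v - f []) ^ 2
      ≤ ((D : ℝ) + 1) * (A v * ∑ s ∈ ((nodes S D).filter (· ≠ [])).filter (· <:+ v),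
        (f s - f s.tail) ^ 2) := by
    intro v hv
    have h3 := path_bound f hS hv
    have h4 : (v.length : ℝ) ≤ (D : ℝ) + 1 := by
      have := length_le_of_mem_nodes hv
      have h5 : (v.length : ℝ) ≤ D := by exact_mod_cast this
      linarith
    have h5 : 0 ≤ ∑ s ∈ ((nodes S D).filter (· ≠ [])).filter (· <:+ v), (f s - f s.tail) ^ 2 :=
      Finset.sum_nonneg fun _ _ => sq_nonneg _
    have h6 := (hA v hv).le
    calc A v * (f v - f []) ^ 2
        ≤ A v * ((v.length : ℝ) * ∑ s ∈ ((nodes S D).filter (· ≠ [])).filter (· <:+ v),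
            (f s - f s.tail) ^ 2) := mul_le_mul_of_nonneg_left h3 h6
      _ ≤ A v * (((D : ℝ) + 1) * ∑ s ∈ ((nodes S D).filter (· ≠ [])).filter (· <:+ v),
            (f s - f s.tail) ^ 2) := by gcongr
      _ = _ := by ring
  have h3 : ∑ v ∈ nodes S D, A v * ∑ s ∈ ((nodes S D).filter (· ≠ [])).filter (· <:+ v),
        (f s - f s.tail) ^ 2
      = ∑ s ∈ (nodes S D).filter (· ≠ []), (f s - f s.tail) ^ 2
          * ∑ u ∈ (nodes S D).filter (s <:+ ·), A u := by
    have h7 : ∀ v ∈ nodes S D, A v * ∑ s ∈ ((nodes S D).filter (· ≠ [])).filter (· <:+ v),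
        (f s - f s.tail) ^ 2 = ∑ s ∈ (nodes S D).filter (· ≠ []),
          if s <:+ v then (f s - f s.tail) ^ 2 * A v else 0 := by
      intro v _
      rw [sum_filter, Finset.mul_sum]
      refine Finset.sum_congr rfl fun s _ => ?_
      split_ifs with h
      · ring
      · simp
    have h8 : ∀ s ∈ (nodes S D).filter (· ≠ []), (f s - f s.tail) ^ 2
          * ∑ u ∈ (nodes S D).filter (s <:+ ·), A u
        = ∑ v ∈ nodes S D, if s <:+ v then (f s - f s.tail) ^ 2 * A v else 0 := by
      intro s _
      rw [sum_filter, Finset.mul_sum]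
      refine Finset.sum_congr rfl fun v _ => ?_
      split_ifs with h
      · ring
      · simp
    rw [Finset.sum_congr rfl h7, Finset.sum_congr rfl h8, Finset.sum_comm]
  have h4 : ∑ s ∈ (nodes S D).filter (· ≠ []), (f s - f s.tail) ^ 2
        * ∑ u ∈ (nodes S D).filter (s <:+ ·), A u
      ≤ (8 * Λ / q0) * Dir S D A q f := by
    unfold Dir
    rw [Finset.mul_sum]
    refine Finset.sum_le_sum fun s hs => ?_
    obtain ⟨hs1, hs2⟩ := mem_filter.1 hs
    have h5 := hsub s hs1
    have h6 := hq s hs1 hs2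
    have h7 := hA s hs1
    have h8 : 0 ≤ (f s - f s.tail) ^ 2 := sq_nonneg _
    calc (f s - f s.tail) ^ 2 * ∑ u ∈ (nodes S D).filter (s <:+ ·), A u
        ≤ (f s - f s.tail) ^ 2 * (Λ * A s) := mul_le_mul_of_nonneg_left h5 h8
      _ ≤ (8 * Λ / q0) * (edgeW A q s * (f s - f s.tail) ^ 2) := by
          unfold edgeW
          have h9 : Λ * A s ≤ (8 * Λ / q0) * ((1 / 8) * q s.tail * A s) := by
            have h10 : (8 * Λ / q0) * ((1 / 8) * q s.tail * A s) = Λ * A s * (q s.tail / q0) := by
              field_simp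
            rw [h10]
            have h11 : 1 ≤ q s.tail / q0 := by
              rw [le_div_iff₀ hq0]
              linarith
            have h12 : 0 ≤ Λ * A s := by positivity
            nlinarith
          calc (f s - f s.tail) ^ 2 * (Λ * A s)
              ≤ (f s - f s.tail) ^ 2 * ((8 * Λ / q0) * ((1 / 8) * q s.tail * A s)) :=
                mul_le_mul_of_nonneg_left h9 h8
            _ = _ := by ring
  have h5 : ∑ v ∈ nodes S D, A v * (f v - f []) ^ 2
      ≤ ((D : ℝ) + 1) * ∑ v ∈ nodes S D, A v * ∑ s ∈ ((nodes S D).filter (· ≠ [])).filter (· <:+ v),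
        (f s - f s.tail) ^ 2 := by
    rw [Finset.mul_sum]
    exact Finset.sum_le_sum h2
  rw [h3] at h5
  have h6 : (0 : ℝ) ≤ (D : ℝ) + 1 := by positivity
  have h7 := mul_le_mul_of_nonneg_left h4 h6
  calc Wv S D A f ≤ _ := h1
    _ ≤ _ := h5
    _ ≤ _ := h7
    _ = _ := by ring

theorem Wv_nonneg (hA : ∀ v ∈ nodes S D, 0 < A v) (f : List X → ℝ) : 0 ≤ Wv S D A f := by
  have hZ := total_pos hA
  unfold Wv
  have h : (∑ v ∈ nodes S D, A v * f v) ^ 2
      ≤ (∑ v ∈ nodes S D, A v) * ∑ v ∈ nodes S D, A v * f v ^ 2 := by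
    refine Finset.sum_sq_le_sum_mul_sum_of_sq_le_mul _ (fun w hw => (hA w hw).le)
      (fun w hw => mul_nonneg (hA w hw).le (sq_nonneg _)) ?_
    intro w _
    exact le_of_eq (by ring)
  have h2 : (∑ v ∈ nodes S D, A v * f v) ^ 2 / ∑ v ∈ nodes S D, A v
      ≤ ∑ v ∈ nodes S D, A v * f v ^ 2 := by
    rw [div_le_iff₀ hZ]
    linarith
  linarith

/-- The density sequence of the ideal walk. -/
noncomputable def hseq (S : List X → Finset X) (D : ℕ) (A q : List X → ℝ) : ℕ → List X → ℝ
  | 0 => fun w => if w = [] then 1 / A [] else 0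
  | T + 1 => PI S D A q (hseq S D A q T)

/-- Decay of the variance along the walk. -/
theorem Wv_hseq (hS : ∀ v, D ≤ v.length → S v = ∅) (hA : ∀ v ∈ nodes S D, 0 < A v)
    (hdn : ∀ v ∈ nodes S D, ∀ x ∈ S v, 0 ≤ dnI A q v x)
    (hup : ∀ v ∈ nodes S D, 0 ≤ upI q v) (hlazy : ∀ v ∈ nodes S D, upI q v + ∑ x ∈ S v, dnI A q v x ≤ 1 / 2)
    {q0 Λ : ℝ} (hq0 : 0 < q0) (hΛ : 0 < Λ)
    (hq : ∀ s ∈ nodes S D, s ≠ [] → q0 ≤ q s.tail)
    (hsub : ∀ s ∈ nodes S D, ∑ u ∈ (nodes S D).filter (s <:+ ·), A u ≤ Λ * A s) (T : ℕ) :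
    Wv S D A (hseq S D A q T)
      ≤ Real.exp (-((T : ℝ) * (q0 / (8 * ((D : ℝ) + 1) * Λ)))) * Wv S D A (hseq S D A q 0) := by
  set γ := q0 / (8 * ((D : ℝ) + 1) * Λ) with hγ
  have hγ0 : 0 < γ := by positivity
  induction T with
  | zero => simp
  | succ T ih =>
    have h1 := Wv_step hS hA hdn hup hlazy (hseq S D A q T)
    have h2 := poincare hS hA hq0 hΛ.le hq hsub (hseq S D A q T)
    have h3 := Wv_nonneg hA (hseq S D A q T)
    have h4 : γ * Wv S D A (hseq S D A q T) ≤ Dir S D A q (hseq S D A q T) := by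
      have h5 : 0 < 8 * ((D : ℝ) + 1) * Λ / q0 := by positivity
      have h6 : γ = 1 / (8 * ((D : ℝ) + 1) * Λ / q0) := by
        rw [hγ]
        field_simp
      rw [h6, one_div, inv_mul_le_iff₀ h5]
      exact h2
    have h5 : Wv S D A (hseq S D A q (T + 1)) ≤ Real.exp (-γ) * Wv S D A (hseq S D A q T) := by
      show Wv S D A (PI S D A q (hseq S D A q T)) ≤ _
      have h6 := Real.add_one_le_exp (-γ)
      nlinarith
    have h6 : Real.exp (-(((T + 1 : ℕ) : ℝ) * γ)) = Real.exp (-γ) * Real.exp (-((T : ℝ) * γ)) := by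
      rw [← Real.exp_add]
      congr 1
      push_cast
      ring
    rw [h6, mul_assoc]
    exact h5.trans (mul_le_mul_of_nonneg_left ih (Real.exp_pos _).le)

/-- The law of the ideal walk is the density times the weight. -/
theorem law_eq_hseq (hS : ∀ v, D ≤ v.length → S v = ∅) (hA : ∀ v ∈ nodes S D, 0 < A v) (T : ℕ) :
    ∀ w ∈ nodes S D, lawT (nodes S D) (walk S (dnI A q) (upI q)) T w = A w * hseq S D A q T w := by
  induction T with
  | zero =>
    intro w hw
    simp only [lawT, hseq]
    by_cases h : w = []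
    · subst h
      have := (hA [] nil_mem_nodes).ne'
      simp [this]
    · simp [h]
  | succ T ih =>
    intro w hw
    simp only [lawT]
    rw [Finset.sum_congr rfl fun v hv => by rw [ih v hv]]
    set h := hseq S D A q T with hh
    set δ : List X → ℝ := fun u => if u = w then 1 else 0 with hδ
    have hP : ∀ v, PI S D A q δ v = walk S (dnI A q) (upI q) v w := by
      intro v
      unfold PI
      rw [sum_eq_single w]
      · simp [hδ]
      · intro u _ hu
        simp [hδ, hu]
      · intro h'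
        exact absurd hw h'
    have h1 := bilinear S D A q hS hA h δ
    have h2 := bilinear S D A q hS hA δ h
    simp only [hP] at h1
    have h3 : ∑ v ∈ nodes S D, A v * δ v * PI S D A q h v = A w * PI S D A q h w := by
      rw [sum_eq_single w]
      · simp [hδ]
      · intro u _ hu
        simp [hδ, hu]
      · intro h'
        exact absurd hw h'
    rw [h3] at h2
    show _ = A w * PI S D A q h w
    rw [h2]
    have h4 : ∑ v ∈ nodes S D, A v * h v * walk S (dnI A q) (upI q) v w
        = ∑ v ∈ nodes S D, A v * (h v) * walk S (dnI A q) (upI q) v w := rfl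
    rw [h4, h1]
    congr 1
    · refine Finset.sum_congr rfl fun v _ => ?_
      ring
    · refine Finset.sum_congr rfl fun v _ => ?_
      ring

/-- The total mass of the density. -/
theorem mass_hseq (hS : ∀ v, D ≤ v.length → S v = ∅) (hA : ∀ v ∈ nodes S D, 0 < A v) (T : ℕ) :
    ∑ v ∈ nodes S D, A v * hseq S D A q T v = 1 := by
  induction T with
  | zero =>
    simp only [hseq]
    rw [sum_eq_single []]
    · have := (hA [] nil_mem_nodes).ne'
      simp [this]
    · intro u _ hu
      simp [hu]
    · intro h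
      exact absurd nil_mem_nodes h
  | succ T ih =>
    show ∑ v ∈ nodes S D, A v * PI S D A q (hseq S D A q T) v = 1
    rw [mass_PI S D A q hS hA, ih]

theorem Wv_hseq_zero (hA : ∀ v ∈ nodes S D, 0 < A v) :
    Wv S D A (hseq S D A q 0) ≤ 1 / A [] := by
  have hZ := total_pos hA
  have h0 := hA [] nil_mem_nodes
  unfold Wv
  have h1 : ∑ v ∈ nodes S D, A v * hseq S D A q 0 v ^ 2 = 1 / A [] := by
    simp only [hseq]
    rw [sum_eq_single []]
    · simp
      field_simp
    · intro u _ hu
      simp [hu]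
    · intro h
      exact absurd nil_mem_nodes h
  rw [h1]
  have h2 : 0 ≤ (∑ v ∈ nodes S D, A v * hseq S D A q 0 v) ^ 2 / ∑ v ∈ nodes S D, A v := by
    positivity
  linarith

/-- The distance of the ideal walk from its stationary law. -/
theorem l1_ideal (hS : ∀ v, D ≤ v.length → S v = ∅) (hA : ∀ v ∈ nodes S D, 0 < A v)
    (hdn : ∀ v ∈ nodes S D, ∀ x ∈ S v, 0 ≤ dnI A q v x)
    (hup : ∀ v ∈ nodes S D, 0 ≤ upI q v) (hlazy : ∀ v ∈ nodes S D, upI q v + ∑ x ∈ S v, dnI A q v x ≤ 1 / 2)
    {q0 Λ : ℝ} (hq0 : 0 < q0) (hΛ : 0 < Λ)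
    (hq : ∀ s ∈ nodes S D, s ≠ [] → q0 ≤ q s.tail)
    (hsub : ∀ s ∈ nodes S D, ∑ u ∈ (nodes S D).filter (s <:+ ·), A u ≤ Λ * A s) (T : ℕ) :
    (∑ w ∈ nodes S D, |lawT (nodes S D) (walk S (dnI A q) (upI q)) T w
        - A w / ∑ v ∈ nodes S D, A v|) ^ 2
      ≤ (∑ v ∈ nodes S D, A v) / A []
        * Real.exp (-((T : ℝ) * (q0 / (8 * ((D : ℝ) + 1) * Λ)))) := by
  have hZ := total_pos hA
  have h0 := hA [] nil_mem_nodes
  set Z := ∑ v ∈ nodes S D, A v with hZdef
  set h := hseq S D A q T with hh
  have h1 : ∀ w ∈ nodes S D, |lawT (nodes S D) (walk S (dnI A q) (upI q)) T w - A w / Z|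
      = A w * |h w - 1 / Z| := by
    intro w hw
    rw [law_eq_hseq hS hA T w hw]
    have h2 : A w * h w - A w / Z = A w * (h w - 1 / Z) := by
      ring
    rw [h2, abs_mul, abs_of_pos (hA w hw)]
  rw [Finset.sum_congr rfl h1]
  have h2 : (∑ w ∈ nodes S D, A w * |h w - 1 / Z|) ^ 2
      ≤ Z * ∑ w ∈ nodes S D, A w * |h w - 1 / Z| ^ 2 := by
    refine Finset.sum_sq_le_sum_mul_sum_of_sq_le_mul _ (fun w hw => (hA w hw).le)
      (fun w hw => mul_nonneg (hA w hw).le (sq_nonneg _)) ?_
    intro w _
    exact le_of_eq (by ring)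
  have h3 : ∑ w ∈ nodes S D, A w * |h w - 1 / Z| ^ 2 = Wv S D A h := by
    unfold Wv
    have hm : ∑ v ∈ nodes S D, A v * h v = 1 := mass_hseq hS hA T
    rw [hm, ← hZdef]
    have h4 : ∀ w ∈ nodes S D, A w * |h w - 1 / Z| ^ 2
        = A w * h w ^ 2 - 2 / Z * (A w * h w) + A w * (1 / Z ^ 2) := by
      intro w _
      rw [sq_abs]
      field_simp
      ring
    rw [Finset.sum_congr rfl h4, sum_add_distrib, sum_sub_distrib, ← Finset.mul_sum, hm,
      ← Finset.sum_mul, ← hZdef]
    field_simp
    ring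
  rw [h3] at h2
  have h4 := Wv_hseq hS hA hdn hup hlazy hq0 hΛ hq hsub T
  have h5 := Wv_hseq_zero (q := q) hA
  have h6 : Wv S D A h ≤ Real.exp (-((T : ℝ) * (q0 / (8 * ((D : ℝ) + 1) * Λ)))) * (1 / A []) :=
    h4.trans (mul_le_mul_of_nonneg_left h5 (Real.exp_pos _).le)
  calc _ ≤ Z * Wv S D A h := h2
    _ ≤ Z * (Real.exp (-((T : ℝ) * (q0 / (8 * ((D : ℝ) + 1) * Λ)))) * (1 / A [])) := by gcongr
    _ = _ := by
      field_simp

end Rev

section Perturb

variable {S : List X → Finset X} {D : ℕ}

theorem toChild_nonneg {φ : List X → X → ℝ} {v : List X} (hφ : ∀ x ∈ S v, 0 ≤ φ v x) (w : List X) :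
    0 ≤ toChild S φ v w := by
  cases w with
  | nil => simp [toChild]
  | cons x p =>
    simp only [toChild]
    split_ifs with h
    · exact hφ x h.2
    · exact le_rfl

theorem toParent_nonneg {up : List X → ℝ} {v : List X} (hup : 0 ≤ up v) (w : List X) :
    0 ≤ toParent up v w := by
  unfold toParent
  split_ifs
  · exact hup
  · exact le_rfl

theorem walk_nonneg {down : List X → X → ℝ} {up : List X → ℝ} {v : List X}
    (hdn : ∀ x ∈ S v, 0 ≤ down v x)
    (hup : 0 ≤ up v) (hv : up v + ∑ x ∈ S v, down v x ≤ 1) (w : List X) :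
    0 ≤ walk S down up v w := by
  unfold walk
  have h1 := toChild_nonneg (S := S) hdn w
  have h2 := toParent_nonneg hup (v := v) w
  split_ifs
  · linarith
  · linarith

theorem lawT_nonneg {P : List X → List X → ℝ} {V : Finset (List X)}
    (hP : ∀ v ∈ V, ∀ w, 0 ≤ P v w) (T : ℕ) (w : List X) : 0 ≤ lawT V P T w := by
  induction T generalizing w with
  | zero =>
    simp only [lawT]
    split_ifs <;> norm_num
  | succ T ih =>
    simp only [lawT]
    exact Finset.sum_nonneg fun v hv => mul_nonneg (ih v) (hP v hv w)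

theorem lawT_sum {P : List X → List X → ℝ} {V : Finset (List X)} (h0 : [] ∈ V)
    (hP : ∀ v ∈ V, ∑ w ∈ V, P v w = 1) (T : ℕ) : ∑ w ∈ V, lawT V P T w = 1 := by
  induction T with
  | zero =>
    simp only [lawT]
    rw [sum_eq_single []]
    · simp
    · intro u _ hu
      simp [hu]
    · intro h
      exact absurd h0 h
  | succ T ih =>
    simp only [lawT]
    rw [Finset.sum_comm]
    rw [← ih]
    refine Finset.sum_congr rfl fun v hv => ?_
    rw [← Finset.mul_sum, hP v hv, mul_one]

/-- Two walks with the same moves to the parents and smaller moves to the children stay close. -/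
theorem law_perturb (hS : ∀ v, D ≤ v.length → S v = ∅) {down down' : List X → X → ℝ}
    {up : List X → ℝ} (hup : ∀ v ∈ nodes S D, 0 ≤ up v) (hup0 : up [] = 0)
    (hd0 : ∀ v ∈ nodes S D, ∀ x ∈ S v, 0 ≤ down' v x)
    (hd1 : ∀ v ∈ nodes S D, ∀ x ∈ S v, down' v x ≤ down v x)
    (hlazy : ∀ v ∈ nodes S D, up v + ∑ x ∈ S v, down v x ≤ 1)
    {η : ℝ} (hη : ∀ v ∈ nodes S D, ∑ x ∈ S v, (down v x - down' v x) ≤ η) (T : ℕ) :
    ∑ w ∈ nodes S D, |lawT (nodes S D) (walk S down' up) T w - lawT (nodes S D) (walk S down up) T w|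
      ≤ 2 * η * T := by
  have hdn : ∀ v ∈ nodes S D, ∀ x ∈ S v, 0 ≤ down v x := fun v hv x hx =>
    (hd0 v hv x hx).trans (hd1 v hv x hx)
  have hone : ∀ (φ : List X → X → ℝ), ∀ v ∈ nodes S D, ∑ w ∈ nodes S D, walk S φ up v w = 1 := by
    intro φ v hv
    refine sum_walk_one S D φ up hS hv ?_
    rintro rfl
    exact hup0
  have hlazy' : ∀ v ∈ nodes S D, up v + ∑ x ∈ S v, down' v x ≤ 1 := by
    intro v hv
    have h1 := hlazy v hv
    have h2 : ∑ x ∈ S v, down' v x ≤ ∑ x ∈ S v, down v x :=
      Finset.sum_le_sum fun x hx => hd1 v hv x hx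
    linarith
  have hP' : ∀ v ∈ nodes S D, ∀ w, 0 ≤ walk S down' up v w := fun v hv w =>
    walk_nonneg (hd0 v hv) (hup v hv) (hlazy' v hv) w
  have hP : ∀ v ∈ nodes S D, ∀ w, 0 ≤ walk S down up v w := fun v hv w =>
    walk_nonneg (hdn v hv) (hup v hv) (hlazy v hv) w
  have hrow : ∀ v ∈ nodes S D, ∑ w ∈ nodes S D, |walk S down' up v w - walk S down up v w|
      ≤ 2 * η := by
    intro v hv
    set e := ∑ x ∈ S v, (down v x - down' v x) with he
    have hdiff : ∀ w, |walk S down' up v w - walk S down up v w|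
        ≤ (if w = v then e else 0) + toChild S (fun a b => down a b - down' a b) v w := by
      intro w
      have h1 : toChild S (fun a b => down a b - down' a b) v w
          = toChild S down v w - toChild S down' v w := by
        cases w with
        | nil => simp [toChild]
        | cons x p =>
          simp only [toChild]
          split_ifs <;> simp
      have h2 : 0 ≤ toChild S (fun a b => down a b - down' a b) v w :=
        toChild_nonneg (fun x hx => by have := hd1 v hv x hx; linarith) w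
      have he0 : 0 ≤ e := Finset.sum_nonneg fun x hx => by have := hd1 v hv x hx; linarith
      unfold walk
      by_cases hw : w = v
      · simp only [hw, if_true] at h1 h2 ⊢
        have h3 : 1 - up v - ∑ x ∈ S v, down' v x + toChild S down' v v + toParent up v v
            - (1 - up v - ∑ x ∈ S v, down v x + toChild S down v v + toParent up v v)
            = e - toChild S (fun a b => down a b - down' a b) v v := by
          rw [h1, he, sum_sub_distrib]
          ring
        rw [h3, abs_le]
        constructor <;> linarith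
      · simp only [hw, if_false, zero_add] at h1 h2 ⊢
        have h3 : toChild S down' v w + toParent up v w - (toChild S down v w + toParent up v w)
            = - toChild S (fun a b => down a b - down' a b) v w := by
          rw [h1]
          ring
        rw [h3, abs_neg, abs_of_nonneg h2]
    have h1 : ∑ w ∈ nodes S D, ((if w = v then e else 0)
        + toChild S (fun a b => down a b - down' a b) v w) = 2 * e := by
      rw [sum_add_distrib]
      have h2 := sum_toChild S D hS hv (fun a b => down a b - down' a b) (fun _ => 1)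
      simp only [mul_one] at h2
      rw [h2, sum_ite_eq' , if_pos hv]
      ring
    calc _ ≤ ∑ w ∈ nodes S D, ((if w = v then e else 0)
          + toChild S (fun a b => down a b - down' a b) v w) := Finset.sum_le_sum fun w _ => hdiff w
      _ = 2 * e := h1
      _ ≤ 2 * η := by
        have := hη v hv
        linarith
  induction T with
  | zero =>
    simp [lawT]
  | succ T ih =>
    set L' := lawT (nodes S D) (walk S down' up) T with hL'
    set L := lawT (nodes S D) (walk S down up) T with hL
    have hLn : ∀ w, 0 ≤ L w := lawT_nonneg hP T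
    have hLs : ∑ w ∈ nodes S D, L w = 1 := lawT_sum nil_mem_nodes (hone down) T
    have h1 : ∀ w ∈ nodes S D,
        |lawT (nodes S D) (walk S down' up) (T + 1) w - lawT (nodes S D) (walk S down up) (T + 1) w|
        ≤ ∑ v ∈ nodes S D, (|L' v - L v| * walk S down' up v w
          + L v * |walk S down' up v w - walk S down up v w|) := by
      intro w _
      simp only [lawT]
      rw [← hL', ← hL, ← sum_sub_distrib]
      refine (Finset.abs_sum_le_sum_abs _ _).trans (Finset.sum_le_sum fun v hv => ?_)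
      have h2 : L' v * walk S down' up v w - L v * walk S down up v w
          = (L' v - L v) * walk S down' up v w
            + L v * (walk S down' up v w - walk S down up v w) := by ring
      rw [h2]
      refine (abs_add_le _ _).trans ?_
      rw [abs_mul, abs_mul, abs_of_nonneg (hP' v hv w), abs_of_nonneg (hLn v)]
    calc _ ≤ ∑ w ∈ nodes S D, ∑ v ∈ nodes S D, (|L' v - L v| * walk S down' up v w
          + L v * |walk S down' up v w - walk S down up v w|) := Finset.sum_le_sum h1
      _ = ∑ v ∈ nodes S D, (|L' v - L v| * ∑ w ∈ nodes S D, walk S down' up v w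
          + L v * ∑ w ∈ nodes S D, |walk S down' up v w - walk S down up v w|) := by
          rw [Finset.sum_comm]
          refine Finset.sum_congr rfl fun v _ => ?_
          rw [sum_add_distrib, Finset.mul_sum, Finset.mul_sum]
      _ ≤ ∑ v ∈ nodes S D, (|L' v - L v| + L v * (2 * η)) := by
          refine Finset.sum_le_sum fun v hv => ?_
          rw [hone down' v hv, mul_one]
          have := hrow v hv
          have := hLn v
          gcongr
      _ = ∑ v ∈ nodes S D, |L' v - L v| + 2 * η := by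
          rw [sum_add_distrib, ← Finset.sum_mul, hLs, one_mul]
      _ ≤ 2 * η * T + 2 * η := by linarith
      _ = _ := by
          push_cast
          ring

end Perturb

section Subtree

variable {S : List X → Finset X} {D : ℕ} {N : List X → ℝ}

/-- Each level of the subtree of `s` has total `N s` if `N` is additive over the children. -/
theorem level_sum (hadd : ∀ v, v.length < D → v ∈ nodes S D → N v = ∑ x ∈ S v, N (x :: v))
    {s : List X} (hs : s ∈ nodes S D) {l : ℕ} (hl : s.length ≤ l) (hlD : l ≤ D) :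
    ∑ u ∈ (lvl S l).filter (s <:+ ·), N u = N s := by
  induction l, hl using Nat.le_induction with
  | base =>
    have h1 : (lvl S s.length).filter (s <:+ ·) = {s} := by
      ext u
      simp only [mem_filter, mem_singleton]
      constructor
      · rintro ⟨h2, h3⟩
        exact (h3.eq_of_length (mem_lvl_length h2).symm).symm
      · rintro rfl
        exact ⟨(mem_nodes.1 hs).2, List.suffix_refl _⟩
    rw [h1, sum_singleton]
  | succ l hl ih =>
    have ih' := ih (by omega)
    have h1 : (lvl S (l + 1)).filter (s <:+ ·)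
        = ((lvl S l).filter (s <:+ ·)).biUnion fun v => (S v).image fun x => x :: v := by
      ext u
      simp only [mem_filter, mem_biUnion, mem_image]
      constructor
      · rintro ⟨h2, h3⟩
        cases u with
        | nil =>
          have := mem_lvl_length h2
          simp at this
        | cons x p =>
          have h4 := cons_mem_lvl.1 h2
          have h5 : s <:+ p := by
            rcases List.suffix_cons_iff.1 h3 with h6 | h6
            · subst h6
              have h7 := mem_lvl_length h2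
              omega
            · exact h6
          exact ⟨p, ⟨h4.1, h5⟩, x, h4.2, rfl⟩
      · rintro ⟨v, ⟨h2, h3⟩, x, h4, rfl⟩
        exact ⟨cons_mem_lvl.2 ⟨h2, h4⟩, List.suffix_cons_iff.2 (Or.inr h3)⟩
    rw [h1, sum_biUnion]
    · rw [← ih']
      refine Finset.sum_congr rfl fun v hv => ?_
      obtain ⟨h2, _⟩ := mem_filter.1 hv
      have h3 := mem_lvl_length h2
      have h4 : v ∈ nodes S D :=
        mem_nodes.2 ⟨by omega, by rw [h3]; exact h2⟩
      rw [hadd v (by omega) h4, sum_image (fun a _ b _ h => by simpa using h)]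
    · intro v _ w _ hvw
      refine disjoint_left.2 ?_
      intro u hu hu'
      obtain ⟨x, _, rfl⟩ := mem_image.1 hu
      obtain ⟨y, _, hy⟩ := mem_image.1 hu'
      simp only [List.cons.injEq] at hy
      exact hvw hy.2.symm

theorem subtree_le (hadd : ∀ v, v.length < D → v ∈ nodes S D → N v = ∑ x ∈ S v, N (x :: v))
    (hN : ∀ v ∈ nodes S D, 0 ≤ N v) {s : List X} (hs : s ∈ nodes S D) :
    ∑ u ∈ (nodes S D).filter (s <:+ ·), N u ≤ ((D : ℝ) + 1) * N s := by
  have h1 : (nodes S D).filter (s <:+ ·)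
      = (range (D + 1)).biUnion fun l => (lvl S l).filter (s <:+ ·) := by
    unfold nodes
    rw [filter_biUnion]
  rw [h1, sum_biUnion]
  · have h2 : ∀ l ∈ range (D + 1), ∑ u ∈ (lvl S l).filter (s <:+ ·), N u ≤ N s := by
      intro l hl
      have hl' : l ≤ D := by
        have := mem_range.1 hl
        omega
      by_cases h3 : s.length ≤ l
      · exact (level_sum hadd hs h3 hl').le
      · have h4 : (lvl S l).filter (s <:+ ·) = ∅ := by
          refine filter_eq_empty_iff.2 ?_
          intro u hu h5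
          have h6 := h5.length_le
          have h7 := mem_lvl_length hu
          omega
        rw [h4, sum_empty]
        exact hN s hs
    calc _ ≤ ∑ _l ∈ range (D + 1), N s := Finset.sum_le_sum h2
      _ = _ := by
        simp
  · intro a _ b _ hab
    refine disjoint_left.2 ?_
    intro u hu hu'
    have h2 := mem_lvl_length (mem_filter.1 hu).1
    have h3 := mem_lvl_length (mem_filter.1 hu').1
    exact hab (h2.symm.trans h3)

/-- The leaves carry the whole mass. -/
theorem leaves_sum (hadd : ∀ v, v.length < D → v ∈ nodes S D → N v = ∑ x ∈ S v, N (x :: v)) :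
    ∑ u ∈ lvl S D, N u = N [] := by
  have h := level_sum hadd (nil_mem_nodes (S := S) (D := D)) (l := D) (by simp) le_rfl
  simpa using h

end Subtree

end Vale.Agent.Lib.P328.Fpras
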